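import Vale.Agent.P195.LemK

/-!
Cech computations.
-/

namespace Vale.Agent.P195

open Vale.Agent.P176

variable {k : Type} [Field k]

section

variable {V Q : Type} [AddCommGroup V] [Module (B k) V] [AddCommGroup Q] [Module (B k) Q]
  {L : Log (der k) V Q}

variable (L) in
/-- the cycles -/
noncomputable def cyc : V →+ TM L where
  toFun v := TM.mk 0 0 (L.ι v) (L.ι v) 0 0 0 0
  map_zero' := by ext <;> simp
  map_add' v w := by ext <;> simp

lemma cyc_apply (v : V) : cyc L v = TM.mk 0 0 (L.ι v) (L.ι v) 0 0 0 0 := rfl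

lemma cyc_smul (t : Tk k) (v : V) : cyc L (T.π t • v) = t • cyc L v := by
  ext <;> simp [cyc_apply, TM.smul_def, act, T.π_apply]

lemma Fam4.cyc_mem (Φ : Fam4 L) {d : ℤ × ℤ} {v : V} (hv : v ∈ Φ.GV d) : cyc L v ∈ Φ.G d :=
  ⟨zero_mem _, zero_mem _, Φ.ι₁ hv, Φ.ι₂ hv, zero_mem _, zero_mem _, zero_mem _, zero_mem _⟩

/-- the target defined by an exact family -/
noncomputable def Fam4.target (Φ : Fam4 L) (h : Φ.Ex) (i : Fin 2)
    (inv : ∀ {j b v}, v ∈ Φ.GV (j + 1, b) → B.mk (xi k i) 0 • v ∈ Φ.GV (j, b)) :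
    Target V Φ.filt where
  G := Φ.GV
  h := cyc L
  i := i
  h_smul := cyc_smul
  h_mem := Φ.cyc_mem
  smul_mem := Φ.hV
  inj _ e := h.inj _ (congrArg TM.m₁ e)
  ker w z hz e₁ e₂ := by
    rw [δ_smul] at e₂
    rw [e₁_smul] at e₁
    have e1 : z.m₁ = z.m₂ := sub_eq_zero.1 (congrArg TM.r e₂)
    have e2 : z.a = 0 := congrArg TM.b e₂
    have e3 : z.p = 0 := congrArg TM.q e₂
    obtain ⟨v, hv, ev⟩ := h.inf _ _ hz.2.2.1 (e1 ▸ hz.2.2.2.1)
    refine ⟨v, hv, ?_⟩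
    rw [← e₁]
    ext <;> simp [cyc_apply, e1, e2, e3, ev]
  kap w _ hz := h.κL w hz
  inv := inv

end

lemma xi_mul_mem_FB {s : Fin 2 → ℕ} (i : Fin 2) (hi : 2 ≤ s i) (u : ℤ × ℤ) {j b : ℤ} {v : B k}
    (hv : v ∈ FB k s ((j + 1, b) - u)) : B.mk (xi k i) 0 * v ∈ FB k s ((j, b) - u) := by
  refine ⟨?_, ?_⟩
  · rw [B.mul_f]
    exact Fam_cast (xi_mul_mem_Fam i hi (j := j - u.1) (b := b - u.2)
      (Fam_cast hv.1 (by simp; omega) (by simp))) (by simp) (by simp)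
  · rw [B.mul_s, B.mk_s, zero_mul, add_zero]
    exact Fam_cast (xi_mul_mem_Fam i hi (j := j - u.1 + 1) (b := b - u.2)
      (Fam_cast hv.2 (by simp; omega) (by simp))) (by simp) (by simp)

/-- the charts of the regular module -/
noncomputable def regT (s₀ s₁ : ℕ) (i : Fin 2) (hi : 2 ≤ (![s₀, s₁] : Fin 2 → ℕ) i) (w : W) :
    Target (B k) (regF k s₀ s₁ (deg w)).filt :=
  (regF k s₀ s₁ (deg w)).target (regF_ex s₀ s₁ (deg_fst_le w)) i (xi_mul_mem_FB i hi _)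

lemma regT_η (s₀ s₁ : ℕ) (i : Fin 2) (hi) (w : W) (j b : ℤ) (v : B k)
    (hv : v ∈ (regT s₀ s₁ i hi w).G (j - 1, b)) (e : η k • v = 0) :
    ∃ v' ∈ (regT (k := k) s₀ s₁ i hi w).G (j, b), η k • v' = v := by
  have e1 : v.f = 0 := by simpa [η] using congrArg B.s e
  refine ⟨B.mk v.s 0, mk_mem_FB (Fam_cast hv.2 (by simp; omega) (by simp)), ?_⟩
  ext <;> simp [η, e1]

lemma regF_le {s₀ s₁ s₀' s₁' : ℕ} (h₀ : s₀ ≤ s₀') (h₁ : s₁ ≤ s₁') (u d : ℤ × ℤ)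
    (z : TM (regL (der k))) (hz : z ∈ (regF k s₀ s₁ u).filt.G d) :
    z ∈ (regF k s₀' s₁' u).filt.G d := by
  obtain ⟨g1, g2, g3, g4, g5, g6, g7, g8⟩ := hz
  refine ⟨FB_mono ?_ g1, FB_mono ?_ g2, FB_mono ?_ g3, FB_mono ?_ g4, FB_mono ?_ g5,
    FB_mono ?_ g6, FB_mono ?_ g7, FB_mono ?_ g8⟩ <;> exact vec_le (by omega) (by omega)

lemma FB_split' {d : ℤ × ℤ} (hd : -1 ≤ d.1) {a : B k} (ha : a ∈ FB k ![2, 2] d) (s t : ℕ) :
    ∃ a₀ ∈ FB k ![s, 2] d, ∃ a₁ ∈ FB k ![2, t] d, a = a₀ + a₁ := by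
  obtain ⟨a₀, h₀, a₁, h₁, e⟩ := FB_split hd ha
  exact ⟨a₀, FB_mono (vec_le (by omega) le_rfl) h₀, a₁, FB_mono (vec_le le_rfl (by omega)) h₁, e⟩

lemma reg_mv (w : W) :
    SES ((MMmap (PF k (deg w)) (regF k 0 2 (deg w)).filt LinearMap.id
        (regF_le le_rfl (by omega) _)).prod
      (-MMmap (PF k (deg w)) (regF k 2 0 (deg w)).filt LinearMap.id (regF_le (by omega) le_rfl _)))
      ((MMmap (regF k 0 2 (deg w)).filt (regF k 2 2 (deg w)).filt LinearMap.id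
        (regF_le (by omega) le_rfl _)).coprod
      (MMmap (regF k 2 0 (deg w)).filt (regF k 2 2 (deg w)).filt LinearMap.id
        (regF_le le_rfl (by omega) _))) := by
  refine MMmap_mv _ _ _ _ ?_ ?_
  · rintro d z ⟨g1, g2, g3, g4, g5, g6, g7, g8⟩ ⟨h1, h2, h3, h4, h5, h6, h7, h8⟩
    refine ⟨FB_mono ?_ (FB_inf g1 h1), FB_mono ?_ (FB_inf g2 h2), FB_mono ?_ (FB_inf g3 h3),
      FB_mono ?_ (FB_inf g4 h4), FB_mono ?_ (FB_inf g5 h5), FB_mono ?_ (FB_inf g6 h6),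
      FB_mono ?_ (FB_inf g7 h7), FB_mono ?_ (FB_inf g8 h8)⟩ <;> rw [vec_inf] <;> exact le_rfl
  · rintro v z ⟨g1, g2, g3, g4, g5, g6, g7, g8⟩
    have hd : -1 ≤ (deg v - deg w).1 := by
      have := deg_fst_nonneg v; have := deg_fst_le w; simp only [Prod.fst_sub]; omega
    obtain ⟨a1, h1, b1, k1, e1⟩ := FB_split' hd g1 0 0
    obtain ⟨a2, h2, b2, k2, e2⟩ := FB_split' hd g2 1 1
    obtain ⟨a3, h3, b3, k3, e3⟩ := FB_split' hd g3 1 0
    obtain ⟨a4, h4, b4, k4, e4⟩ := FB_split' hd g4 0 1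
    obtain ⟨a5, h5, b5, k5, e5⟩ := FB_split' hd g5 0 0
    obtain ⟨a6, h6, b6, k6, e6⟩ := FB_split' hd g6 1 1
    obtain ⟨a7, h7, b7, k7, e7⟩ := FB_split' hd g7 0 0
    obtain ⟨a8, h8, b8, k8, e8⟩ := FB_split' hd g8 1 1
    exact ⟨TM.mk a1 a2 a3 a4 a5 a6 a7 a8, ⟨h1, h2, h3, h4, h5, h6, h7, h8⟩,
      TM.mk b1 b2 b3 b4 b5 b6 b7 b8, ⟨k1, k2, k3, k4, k5, k6, k7, k8⟩,
      TM.ext e1 e2 e3 e4 e5 e6 e7 e8⟩

lemma van_LL_P {j : ℤ} (hj : j ≤ 1) (b : Fin 3) (w : W) (n : ℕ) :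
    Van (Gam k) (LL k (j, ((b : ℕ) : ℤ))) (MM (PF k (deg w))) (n + 2) :=
  cov₁ (reg_mv w) ((regT 2 2 0 le_rfl w).van_LL (regT_η _ _ _ _ w) b n j hj)
    (van_prod_right ((regT 0 2 1 le_rfl w).van_LL (regT_η _ _ _ _ w) b _ j hj)
      ((regT 2 0 0 le_rfl w).van_LL (regT_η _ _ _ _ w) b _ j hj))

lemma van_LL_P_one {j : ℤ} (hj : j ≤ 1) (hj' : -1 ≤ j) (b : Fin 3) (w : W) :
    Van (Gam k) (LL k (j, ((b : ℕ) : ℤ))) (MM (PF k (deg w))) 1 := by
  refine cov₁_one (reg_mv w) (fun ψ => ?_)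
    (van_prod_right ((regT 0 2 1 le_rfl w).van_LL (regT_η _ _ _ _ w) b _ j hj)
      ((regT 2 0 0 le_rfl w).van_LL (regT_η _ _ _ _ w) b _ j hj))
  obtain ⟨v, hv, h0, e⟩ := (regT 2 2 0 le_rfl w).exists_pr hj b ψ
  have e1 : v.f = 0 := by simpa [η] using congrArg B.s h0
  obtain ⟨a₀, h₀, a₁, h₁, ea⟩ := Fam_split (by have := deg_fst_le w; simp; omega) hv.2
  refine ⟨((regT 0 2 1 le_rfl w).φ0 _ (B.mk 0 a₀) ⟨zero_mem _, h₀⟩ (by ext <;> simp [η])).prod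
    ((regT 2 0 0 le_rfl w).φ0 _ (B.mk 0 a₁) ⟨zero_mem _, h₁⟩ (by ext <;> simp [η])),
    LinearMap.ext fun r => ?_⟩
  obtain ⟨r, rfl⟩ := (isSh_AF j _).ses.surj r
  rw [← LinearMap.comp_apply ψ, e]
  refine MM.ext fun v' => ?_
  have f0 := congrArg (fun x => MM.e x v') ((regT 0 2 1 le_rfl w).φ0_pr _ (B.mk 0 a₀)
    ⟨zero_mem _, h₀⟩ (by ext <;> simp [η]) r)
  have f1 := congrArg (fun x => MM.e x v') ((regT 2 0 0 le_rfl w).φ0_pr _ (B.mk 0 a₁)
    ⟨zero_mem _, h₁⟩ (by ext <;> simp [η]) r)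
  refine (congrArg₂ (· + ·) f0 f1).trans ?_
  change cyc (regL (der k)) (toB (r.e v') • B.mk 0 a₀) +
    cyc (regL (der k)) (toB (r.e v') • B.mk 0 a₁) = cyc (regL (der k)) (toB (r.e v') • v)
  rw [← map_add, ← smul_add]
  congr 2
  ext <;> simp [e1, ea]

lemma van_F_Gam [CharZero k] (n : ℕ) : Van (Gam k) (FF k (-1)) (Gam k) (n + 3) :=
  van_Gam fun w => by
    have h2 : ∀ n, Van (Gam k) (LL k (1 - 1 - 1, 0 + 1 + 1)) (MM (PF k (deg w))) (n + 1) := by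
      rintro (_ | n)
      · exact van_LL_P_one (j := 1 - 1 - 1) (by norm_num) (by norm_num) 2 w
      · exact van_LL_P (j := 1 - 1 - 1) (by norm_num) 2 w n
    have h1 := van_LL_P (k := k) (j := 1 - 1) (by norm_num) 1 w n
    exact (sesV 1).ses0.van₃ ((kosY 1 0).ses0.van₃ (h2 n) (van_prod_left h1 h1))
      (van_LL_P (j := 1) le_rfl 0 w (n + 1))

variable (k) in
/-- the first column -/
noncomputable def P0F : Filt k (TM (regL (der k))) where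
  G d := (PF k (deg (1, 0))).G d ⊓ (LinearMap.ker (eR (regL (der k)) - 1)).toAddSubgroup
  smul_mem ht hz := ⟨(PF k _).smul_mem ht hz.1, Submodule.smul_mem _ _ hz.2⟩

lemma mem_P0F {d : ℤ × ℤ} {z : TM (regL (der k))} :
    z ∈ (P0F k).G d ↔ z ∈ (PF k (deg (1, 0))).G d ∧ eR _ z = z :=
  and_congr Iff.rfl sub_eq_zero

lemma eR_mem {u : ℤ × ℤ} (d : ℤ × ℤ) (z : TM (regL (der k))) (hz : z ∈ (PF k u).G d) :
    eR _ z ∈ (PF k u).G d := by
  obtain ⟨g1, g2, -, -, g5, g6, -, -⟩ := hz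
  exact ⟨g1, g2, zero_mem _, zero_mem _, g5, g6, zero_mem _, zero_mem _⟩

variable (k) in
/-- inclusion of the first column -/
noncomputable def P0in : MM (P0F k) →ₗ[Gam k] MM (PF k (deg (1, 0))) :=
  MMmap _ _ LinearMap.id fun _ _ h => h.1

variable (k) in
/-- projection to the first column -/
noncomputable def P0out : MM (PF k (deg (1, 0))) →ₗ[Gam k] MM (P0F k) :=
  MMmap _ _ (eR _) fun d z h => mem_P0F.2 ⟨eR_mem d z h, rfl⟩

lemma P0out_in (z : MM (P0F k)) : P0out k (P0in k z) = z :=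
  MM.ext fun v => (mem_P0F.1 (z.mem v)).2

instance : Module.Projective (Gam k) (MM (P0F k)) :=
  Module.Projective.of_split (P0in k) (P0out k) (LinearMap.ext P0out_in)

instance : Module.Finite (Gam k) (MM (P0F k)) :=
  Module.Finite.of_surjective (P0out k) fun z => ⟨_, P0out_in z⟩

variable (k) in
/-- the first column as a target -/
noncomputable def P0T : Target (B k) (P0F k) where
  G _ := ⊥
  h := 0
  i := 0
  h_smul _ _ := (smul_zero _).symm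
  h_mem _ := zero_mem _
  smul_mem _ hv := by rw [(AddSubgroup.mem_bot).1 hv, smul_zero]; exact zero_mem _
  inj hv _ := hv
  ker w z hz e₁ e₂ := by
    refine ⟨0, zero_mem _, ?_⟩
    rw [δ_smul] at e₂
    rw [e₁_smul] at e₁
    have e2 : z.a = 0 := congrArg TM.b e₂
    have e3 : z.p = 0 := congrArg TM.q e₂
    have e4 := (mem_P0F.1 hz).2
    have e5 : z.m₁ = 0 := (congrArg TM.m₁ e4).symm
    have e6 : z.m₂ = 0 := (congrArg TM.m₂ e4).symm
    rw [← e₁]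
    ext <;> simp [e2, e3, e5, e6]
  kap w z hz e := by
    obtain ⟨⟨-, -, -, -, g5, g6, -, -⟩, e4⟩ := mem_P0F.1 hz
    rw [κ_smul] at e
    have e2 : z.a = 0 := congrArg TM.b e
    have e3 : z.p = 0 := congrArg TM.q e
    refine ⟨TM.mk z.b z.q 0 0 0 0 0 0, mem_P0F.2 ⟨⟨g5, g6, zero_mem _, zero_mem _, zero_mem _,
      zero_mem _, zero_mem _, zero_mem _⟩, rfl⟩, ?_⟩
    rw [κ_smul, ← e4]
    ext <;> simp [eR_apply, e2, e3]
  inv hv := by rw [(AddSubgroup.mem_bot).1 hv, smul_zero]; exact zero_mem _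

lemma van_LL_P0 {j : ℤ} (hj : j ≤ 1) (b : Fin 3) (n : ℕ) :
    Van (Gam k) (LL k (j, ((b : ℕ) : ℤ))) (MM (P0F k)) (n + 1) :=
  (P0T k).van_LL (fun _ _ _ hv _ => ⟨0, zero_mem _, by
    rw [(AddSubgroup.mem_bot).1 hv, smul_zero]⟩) b n j hj

lemma van_F_P0 [CharZero k] (n : ℕ) : Van (Gam k) (FF k (-1)) (MM (P0F k)) (n + 2) := by
  have h1 : ∀ n, Van (Gam k) (LL k (1 - 1, 0 + 1)) (MM (P0F k)) (n + 1) :=
    van_LL_P0 (by norm_num) 1
  refine (sesV 1).ses0.van₃ ?_ (van_LL_P0 (j := 1) le_rfl 0 (n + 1))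
  rcases n with _ | n
  · refine (kosY 1 0).ses0.van₃ (van_zero_iff.2 fun ψ => ?_) (van_prod_left (h1 0) (h1 0))
    obtain ⟨v, hv, -, e⟩ := (P0T k).exists_pr (j := 1 - 1 - 1) (by norm_num) 2 ψ
    refine LinearMap.ext fun r => ?_
    obtain ⟨r, rfl⟩ := (isSh_AF _ _).ses.surj r
    exact (LinearMap.congr_fun e r).trans (MM.ext fun _ => rfl)
  · exact (kosY 1 0).ses0.van₃ (van_LL_P0 (j := 1 - 1 - 1) (by norm_num) 2 n)
      (van_prod_left (h1 _) (h1 _))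

variable (k) in
/-- the projective cover -/
noncomputable def P0π : MM (P0F k) →ₗ[Gam k] FF k (-1) :=
  (sesV 1).hg.ρ0 ∘ₗ (AF k (1, 0)).pr ∘ₗ augP k (1, 0) ∘ₗ P0in k

lemma P0π_surjective : Function.Surjective (P0π k) := fun z => by
  obtain ⟨z, rfl⟩ := (sesV 1).ses0.surj z
  obtain ⟨z, rfl⟩ := (isSh_AF 1 0).ses.surj z
  refine ⟨P0out k (secP z), ?_⟩
  change (sesV 1).hg.ρ0 ((AF k (1, 0)).pr (augP k (1, 0) (P0in k (P0out k (secP z))))) = _
  congr 2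

lemma κG_exact (γ : Gam k) (h : κG k * γ = 0) : ∃ γ', κG k * γ' = γ := by
  have : ∀ v w, ∃ t ∈ TF k (deg v - deg w), κ (der k) * t = γ.m v w := fun v w => by
    have e := κG_smul_e (colOut w γ) v
    rw [← map_smul, smul_eq_mul, h, map_zero] at e
    exact (regF_ex 0 0 (deg_fst_le w)).κL v ((colOut w γ).mem v) e.symm
  choose t ht e using this
  refine ⟨Gam.mk (Matrix.of t) (fun v w => ht v w), Gam.ext fun v w => ?_⟩
  rw [map_mul]
  exact (Matrix.diagonal_mul _ _ _ _).trans (e v w)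

variable (k) in
/-- Laurent polynomials with a logarithm -/
def Lg : Type := V k × V k

noncomputable instance : AddCommGroup (Lg k) := inferInstanceAs (AddCommGroup (V k × V k))

noncomputable instance : Module (D k) (Lg k) where
  smul a z := (a • z.1 + dd k 1 a • z.2, a • z.2)
  one_smul z := Prod.ext (by
    change (1 : D k) • z.1 + dd k 1 1 • z.2 = z.1
    simp [dd_one]) (one_smul _ z.2)
  mul_smul a b z := Prod.ext (by
    change (a * b) • z.1 + dd k 1 (a * b) • z.2 =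
      a • (b • z.1 + dd k 1 b • z.2) + dd k 1 a • b • z.2
    simp only [dd_mul, mul_smul, add_smul, smul_add]; abel) (mul_smul a b z.2)
  smul_zero a := Prod.ext (by
    change a • (0 : V k) + dd k 1 a • (0 : V k) = 0
    simp) (smul_zero a)
  smul_add a z w := Prod.ext (by
    change a • (z.1 + w.1) + dd k 1 a • (z.2 + w.2) =
      a • z.1 + dd k 1 a • z.2 + (a • w.1 + dd k 1 a • w.2)
    simp only [smul_add]; abel) (smul_add a z.2 w.2)
  add_smul a b z := Prod.ext (by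
    change (a + b) • z.1 + dd k 1 (a + b) • z.2 =
      a • z.1 + dd k 1 a • z.2 + (b • z.1 + dd k 1 b • z.2)
    simp only [map_add, add_smul]; abel) (add_smul a b z.2)
  zero_smul z := Prod.ext (by
    change (0 : D k) • z.1 + dd k 1 0 • z.2 = 0
    simp) (zero_smul _ z.2)

/-- first component -/
def Lf (z : Z0 k (Lg k)) : V k := z.o.1
/-- second component -/
def Ls (z : Z0 k (Lg k)) : V k := z.o.2
/-- constructor -/
def Lmk (v v' : V k) : Z0 k (Lg k) := Z0.mk ((v, v') : V k × V k)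

@[simp] lemma Lmk_f (v v' : V k) : Lf (Lmk v v') = v := rfl
@[simp] lemma Lmk_s (v v' : V k) : Ls (Lmk v v') = v' := rfl
lemma Lext {z w : Z0 k (Lg k)} (h : Lf z = Lf w) (h' : Ls z = Ls w) : z = w := Prod.ext h h'
@[simp] lemma Lf_add (z w : Z0 k (Lg k)) : Lf (z + w) = Lf z + Lf w := rfl
@[simp] lemma Ls_add (z w : Z0 k (Lg k)) : Ls (z + w) = Ls z + Ls w := rfl
@[simp] lemma Lf_smul (b : B k) (z : Z0 k (Lg k)) :
    Lf (b • z) = b.f • Lf z + dd k 1 b.f • Ls z := rfl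
@[simp] lemma Ls_smul (b : B k) (z : Z0 k (Lg k)) : Ls (b • z) = b.f • Ls z := rfl

variable (k) in
/-- the connection given by the logarithm -/
noncomputable def logL : Log (der k) (Z0 k (V k)) (Z0 k (Lg k)) where
  ι :=
    { toFun := fun v => Lmk v.o 0
      map_add' := fun v w => Lext (by simp) (by simp)
      map_smul' := fun b v => Lext (by simp) (by simp) }
  nab :=
    { toFun := fun v => Lmk 0 (-v.o)
      map_zero' := Lext rfl neg_zero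
      map_add' := fun v w => Lext (by simp) (by simp [add_comm]) }
  leib b v := Lext (by simp) (by simp)

lemma logL_ι (v : Z0 k (V k)) : (logL k).ι v = Lmk v.o 0 := rfl
lemma logL_nab (v : Z0 k (V k)) : (logL k).nab v = Lmk 0 (-v.o) := rfl

variable (k) in
/-- homogeneous elements with a logarithm -/
noncomputable def GLg (d : ℤ × ℤ) : AddSubgroup (Z0 k (Lg k)) :=
  (FV k 1 (d.1 + -1)).toAddSubgroup.prod (FV k 1 (d.1 + -1)).toAddSubgroup

variable (k) in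
/-- homogeneous elements without logarithm -/
noncomputable def GI (s : Fin 2 → ℕ) (d : ℤ × ℤ) : AddSubgroup (Z0 k (Lg k)) :=
  (FV k s (d.1 + -1)).toAddSubgroup.prod ⊥

lemma mem_GL {d : ℤ × ℤ} {z : Z0 k (Lg k)} :
    z ∈ GLg k d ↔ Lf z ∈ FV k 1 (d.1 + -1) ∧ Ls z ∈ FV k 1 (d.1 + -1) := Iff.rfl

lemma mem_GI {s : Fin 2 → ℕ} {d : ℤ × ℤ} {z : Z0 k (Lg k)} :
    z ∈ GI k s d ↔ Lf z ∈ FV k s (d.1 + -1) ∧ Ls z = 0 := Iff.rfl

lemma FV_smul' {s s' t : Fin 2 → ℕ} (h : ∀ i, t i = 0 → s i = 0) (h' : ∀ i, t i = 0 → s' i = 0)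
    {d d' : ℤ × ℤ} {a : D k} {v : V k} (ha : a ∈ Fam k s d) (hv : v ∈ FV k s' (d'.1 + -1)) :
    a • v ∈ FV k t ((d + d').1 + -1) := by
  rw [Prod.fst_add, add_assoc]
  exact FV_smul h ha (FV_mono h' _ hv)

lemma GL_smul {s : Fin 2 → ℕ} {d d' : ℤ × ℤ} {b : B k} {z : Z0 k (Lg k)} (hb : b ∈ FB k s d)
    (hz : z ∈ GLg k d') : b • z ∈ GLg k (d + d') :=
  mem_GL.2 ⟨add_mem (FV_smul' (by simp) (by simp) hb.1 hz.1)
    (FV_smul' (s := s ⊔ 1) (by simp) (by simp) (dd_mem_Fam 1 le_sup_left (by simp) hb.1) hz.2),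
    FV_smul' (by simp) (by simp) hb.1 hz.2⟩

lemma GI_smul {s t : Fin 2 → ℕ} (h : ∀ i, t i = 0 → s i = 0) {d d' : ℤ × ℤ} {b : B k}
    {z : Z0 k (Lg k)} (hb : b ∈ FB k s d) (hz : z ∈ GI k t d') : b • z ∈ GI k t (d + d') := by
  obtain ⟨h1, h2⟩ := mem_GI.1 hz
  exact mem_GI.2 ⟨by
    rw [Lf_smul, h2, smul_zero, add_zero]; exact FV_smul' h (fun _ h => h) hb.1 h1,
    by rw [Ls_smul, h2, smul_zero]⟩

lemma GI_le {s : Fin 2 → ℕ} {d : ℤ × ℤ} {z : Z0 k (Lg k)} (hz : z ∈ GI k s d) : z ∈ GLg k d :=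
  mem_GL.2 ⟨FV_mono (by simp) _ hz.1, by rw [(mem_GI.1 hz).2]; exact zero_mem _⟩

lemma ι_mem_GI {s : Fin 2 → ℕ} {d : ℤ × ℤ} {v : Z0 k (V k)} (hv : v ∈ (VF k s (-1)).z0.G d) :
    (logL k).ι v ∈ GI k s d := ⟨hv, rfl⟩

lemma nab_mem_GL {s : Fin 2 → ℕ} {d : ℤ × ℤ} {v : Z0 k (V k)} (hv : v ∈ (VF k s (-1)).z0.G d) :
    (logL k).nab v ∈ GLg k d :=
  mem_GL.2 ⟨zero_mem _, neg_mem (FV_mono (s := s) (by simp) _ hv)⟩

variable (k) in
/-- the chart where the first coordinate is invertible -/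
noncomputable def vF0 (s₁ : ℕ) : Fam4 (logL k) where
  GV := (VF k ![1, s₁] (-1)).z0.G
  G₁ := GI k ![1, s₁]
  G₂ := GLg k
  GQ := GLg k
  hV hb hv := FV_smul' (by simp) (fun _ h => h) hb.1 hv
  h₁ := GI_smul (by simp)
  h₂ := GL_smul
  hQ := GL_smul
  h₁V hb hv := GI_smul (by simp) hb (ι_mem_GI hv)
  h₂V hb hv := GL_smul hb (GI_le (ι_mem_GI hv))
  hQV hb hv := GL_smul hb (GI_le (ι_mem_GI hv))
  hnab hb hv := GL_smul hb (nab_mem_GL hv)
  le₁ := GI_le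
  le₂ h := h

variable (k) in
/-- the chart where the second coordinate is invertible -/
noncomputable def vF1 : Fam4 (logL k) where
  GV := (VF k ![0, 1] (-1)).z0.G
  G₁ := GLg k
  G₂ := GI k ![0, 1]
  GQ := GLg k
  hV hb hv := FV_smul' (by simp) (fun _ h => h) hb.1 hv
  h₁ := GL_smul
  h₂ := GI_smul (by simp)
  hQ := GL_smul
  h₁V hb hv := GL_smul hb (GI_le (ι_mem_GI hv))
  h₂V hb hv := GI_smul (by simp) hb (ι_mem_GI hv)
  hQV hb hv := GL_smul hb (GI_le (ι_mem_GI hv))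
  hnab hb hv := GL_smul hb (nab_mem_GL hv)
  le₁ h := h
  le₂ := GI_le

lemma vF0_ex (s₁ : ℕ) : (vF0 k s₁).Ex where
  inj _ h := congrArg Lf h
  inf _ n h _ := ⟨Z0.mk (Lf n), h.1, Lext rfl (mem_GI.1 h).2.symm⟩
  sup _ n hn := ⟨0, zero_mem _, -n, neg_mem hn, by simp⟩

lemma vF1_ex : (vF1 k).Ex where
  inj _ h := congrArg Lf h
  inf _ n _ h := ⟨Z0.mk (Lf n), h.1, Lext rfl (mem_GI.1 h).2.symm⟩
  sup _ n hn := ⟨n, hn, 0, zero_mem _, by simp⟩

lemma y_x_smul (i j : Fin 2) (v : V k) :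
    y k i • x k j • v = x k j • y k i • v + if i = j then v else 0 := by
  rw [← mul_smul, y_mul_x, add_smul, mul_smul]
  split_ifs <;> simp

lemma smul_comm_V (c : k) (a : D k) (v : V k) : a • c • v = c • a • v := by
  rw [← algebraMap_smul (D k) c v, ← algebraMap_smul (D k) c (a • v), ← mul_smul, ← mul_smul,
    Algebra.commutes]

lemma van_IF_V [CharZero k] (s : Fin 2 → ℕ) (i : Fin 2) (hi : s i ≠ 0) (Φ : Fam4 (logL k))
    (hΦ : Φ.GV = (VF k s (-1)).z0.G) (h : Φ.Ex) {j : ℤ} (hj : j ≤ 0) (n : ℕ) :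
    Van (Gam k) (IF k (-j)) (MM (VF k s (-1)).z0) n := by
  have hG : ∀ d (v : Z0 k (V k)), v ∈ Φ.GV d ↔ v.o ∈ FV k s (d.1 + -1) := fun d v => by
    rw [hΦ]; rfl
  have hc : ((j + -1 : ℤ) : k) ≠ 0 := Int.cast_ne_zero.2 (by omega)
  have hx : ∀ (l : Fin 2) {m : ℤ} {v : V k}, v ∈ FV k s m → x k l • v ∈ FV k s (1 + m) :=
    fun l _ _ hv => FV_smul (fun _ _ => rfl) (x_mem_Fam 0 l) hv
  have hP : ∀ n, Van (Gam k) (IF k (-j)) (MM Φ.filt) n := by
    refine (Φ.target h i fun hv => (hG _ _).2 (xi_smul_mem_FV i hi ?_)).van_IF (by omega)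
      (fun v hv h0 h1 => ?_) (fun v₀ h₀ v₁ h₁ e => ?_) fun v hv => ?_
    · have := (hG _ _).1 hv
      rw [add_right_comm] at this
      exact this
    · have := euler ((hG _ _).1 hv)
      rw [show y k 0 • v.o = 0 from h0, show y k 1 • v.o = 0 from h1, smul_zero, smul_zero,
        add_zero] at this
      exact (smul_eq_zero.1 this.symm).resolve_left hc
    · replace h₀ := (hG _ _).1 h₀
      replace h₁ := (hG _ _).1 h₁
      replace e : y k 1 • v₀.o = y k 0 • v₁.o := e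
      have c1 : ((j + -1 : ℤ) : k) = ((j - 1 + -1 : ℤ) : k) + 1 := by push_cast; ring
      refine ⟨Z0.mk (((j + -1 : ℤ) : k)⁻¹ • (x k 0 • v₀.o + x k 1 • v₁.o)), (hG _ _).2
        (Submodule.smul_mem _ _ ?_), Z0.ext ?_, Z0.ext ?_⟩
      · rw [show j + -1 = 1 + (j - 1 + -1) by ring]; exact add_mem (hx 0 h₀) (hx 1 h₁)
      · rw [Z0.smul_o, Z0.mk_o, B.mk_f, smul_comm_V, inv_smul_eq_iff₀ hc, c1, add_smul, one_smul,
          ← euler h₀, smul_add, y_x_smul, y_x_smul, e]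
        simp only [if_true, Fin.zero_eq_one_iff, OfNat.ofNat_ne_one, if_false]; abel
      · rw [Z0.smul_o, Z0.mk_o, B.mk_f, smul_comm_V, inv_smul_eq_iff₀ hc, c1, add_smul, one_smul,
          ← euler h₁, smul_add, y_x_smul, y_x_smul, e]
        simp only [if_true, Fin.one_eq_zero_iff, OfNat.ofNat_ne_one, if_false]; abel
    · replace hv := (hG _ _).1 hv
      have c1 : ((j + -1 : ℤ) : k) = ((j - 1 - 1 + -1 : ℤ) : k) + 1 + 1 := by push_cast; ring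
      have hx' : ∀ l, ((j + -1 : ℤ) : k)⁻¹ • x k l • v.o ∈ FV k s (j - 1 + -1) := fun l => by
        rw [show j - 1 + -1 = 1 + (j - 1 - 1 + -1) by ring]
        exact Submodule.smul_mem _ _ (hx l hv)
      refine ⟨Z0.mk _, (hG _ _).2 (hx' 1), Z0.mk _, (hG _ _).2 (neg_mem (hx' 0)), Z0.ext ?_⟩
      rw [Z0.add_o, Z0.smul_o, Z0.smul_o, Z0.mk_o, Z0.mk_o, B.mk_f, B.mk_f, neg_smul, smul_neg,
        neg_neg, smul_comm_V, smul_comm_V, ← smul_add, inv_smul_eq_iff₀ hc, c1, add_smul,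
        add_smul, one_smul, ← euler hv, y_x_smul, y_x_smul]
      simp only [if_true]; abel
  let aug : MM Φ.filt →ₗ[Gam k] MM (VF k s (-1)).z0 := MMmap _ _
    { toFun := fun z => z.a, map_add' := fun _ _ => rfl, map_smul' := fun _ _ => rfl }
    fun d z hz => (hG _ _).1 hz.1
  let inc : MM (VF k s (-1)).z0 →ₗ[Gam k] MM Φ.filt := MMmap _ _
    { toFun := cyc _, map_add' := map_add _, map_smul' := cyc_smul }
    fun d z hz => Φ.cyc_mem ((hG _ _).2 hz)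
  have hper : IsPer Φ.K aug inc :=
    { sq := Φ.K_K
      ex := h.K
      ker := fun z e => MM.ext fun v => h.inj _ (congrArg (fun x : MM Φ.filt => (x.e v).m₁) e)
      sec := fun w => ⟨MM.mk (fun v => TM.mk (w.e v) 0 0 0 0 0 0 0) fun v =>
        ⟨(hG _ _).2 (w.mem v), zero_mem _, zero_mem _, zero_mem _, zero_mem _, zero_mem _,
          zero_mem _, zero_mem _⟩, MM.ext fun _ => rfl, MM.ext fun v => by
        change κR _ (TM.mk (w.e v) 0 0 0 0 0 0 0) = cyc _ (w.e v)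
        ext <;> simp [κR_apply, cyc_apply]⟩ }
  exact hper.right hP n

lemma van_IF_F [CharZero k] {j : ℤ} (hj : j ≤ 0) (n : ℕ) :
    Van (Gam k) (IF k (-j)) (FF k (-1)) n := by
  have hs := MMmap_mv (Z := (VF k 0 (-1)).z0) (Z₀ := (VF k ![0, 1] (-1)).z0)
    (Z₁ := (VF k ![1, 0] (-1)).z0) (Z' := (VF k ![1, 1] (-1)).z0)
    (fun _ _ h => FV_mono (fun _ _ => rfl) _ h) (fun _ _ h => FV_mono (fun _ _ => rfl) _ h)
    (fun _ _ h => FV_mono (by simp) _ h) (fun _ _ h => FV_mono (by simp) _ h)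
    (fun _ _ h h' => FV_mono (by simp) _ (FV_inf h h'))
    (fun v z hz => FV_split (by have := deg_fst_nonneg v; omega) hz)
  have h := fun n => van_prod_right (van_IF_V ![0, 1] 1 (by simp) (vF1 k) rfl vF1_ex hj n)
    (van_IF_V ![1, 0] 0 (by simp) (vF0 k 0) rfl (vF0_ex 0) hj n)
  rcases n with _ | n
  · exact cov₁_zero hs (h 0)
  · exact cov₁ hs (van_IF_V ![1, 1] 0 (by simp) (vF0 k 1) rfl (vF0_ex 1) hj n) (h _)

end Vale.Agent.P195
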