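import Vale.Agent.P195.Poly

/-!
Commutation relations and closure properties of the families of operators.
-/

namespace Vale.Agent.P195

open MvPolynomial

variable {k : Type} [Field k]

namespace FamAAux

lemma dd_sg (i : Fin 2) (α : Z2) (p : R k) : dd k i (sg α p) = sg α (pderiv i p) :=
  D_ext fun γ => by
    rw [co_dd, co_sg, co_sg]
    split_ifs <;> simp

lemma sg_mem {s : Fin 2 → ℕ} {d : ℤ × ℤ} {α : Z2} {p : R k} (h1 : p ∈ F k d.2)
    (h2 : α 0 + α 1 = d.1) (h3 : ∀ i, s i ≤ 1 → -d.2 ≤ α i)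
    (h4 : ∀ i, s i = 0 → ∀ n : ℤ, 0 ≤ n → n < -α i → ev k i (n : k) p = 0) :
    sg α p ∈ Fam k s d := by
  intro γ
  rw [co_sg]
  split_ifs with h
  · subst h
    exact ⟨h1, fun h => absurd h2 h, fun i hi h => absurd (h3 i hi) (not_le.2 h), h4⟩
  · simp

lemma single_sum (i : Fin 2) : (Pi.single i 1 : Z2) 0 + (Pi.single i 1 : Z2) 1 = 1 := by
  fin_cases i <;> simp

lemma single_nonneg (i j : Fin 2) : 0 ≤ (Pi.single i 1 : Z2) j := by
  rw [Pi.single_apply]; split_ifs <;> simp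

lemma single_le (i j : Fin 2) : (Pi.single i 1 : Z2) j ≤ 1 := by
  rw [Pi.single_apply]; split_ifs <;> simp

/-- the part of `a` with exponents satisfying `P` -/
noncomputable def flt (P : Z2 → Prop) [DecidablePred P] (a : D k) : D k := Finsupp.filter P a

lemma co_flt (P : Z2 → Prop) [DecidablePred P] (a : D k) (α : Z2) :
    co α (flt P a) = if P α then co α a else 0 := Finsupp.filter_apply P a α

lemma flt_mem {s t : Fin 2 → ℕ} {d : ℤ × ℤ} {a : D k} (ha : a ∈ Fam k s d) (P : Z2 → Prop)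
    [DecidablePred P] (h : ∀ α i, P α → α 0 + α 1 = d.1 → s i ≤ t i ∨ 0 ≤ α i) :
    flt P a ∈ Fam k t d := by
  intro α
  rw [co_flt]
  split_ifs with hP
  · obtain ⟨h1, h2, h3, h4⟩ := ha α
    by_cases h0 : co α a = 0
    · rw [h0]; simp
    have hw : α 0 + α 1 = d.1 := by by_contra hc; exact h0 (h2 hc)
    have hd := nonneg_of_mem_F h1 h0
    refine ⟨h1, h2, fun i hi hlt => ?_, fun i hi n hn hlt => ?_⟩
    · rcases h α i hP hw with h5 | h5
      · exact h3 i (by omega) hlt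
      · omega
    · rcases h α i hP hw with h5 | h5
      · exact h4 i (by omega) n hn hlt
      · omega
  · simp

end FamAAux

open FamAAux

lemma dd_mul (i : Fin 2) (a b : D k) : dd k i (a * b) = dd k i a * b + a * dd k i b := by
  induction a using D_induction with
  | h0 => simp
  | hadd a a' ha ha' => simp only [add_mul, map_add, ha, ha']; abel
  | hsg α p =>
    induction b using D_induction with
    | h0 => simp
    | hadd b b' hb hb' => simp only [mul_add, map_add, hb, hb']; abel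
    | hsg β q =>
      simp only [sg_mul_sg, dd_sg, ← map_add]
      rw [Derivation.leibniz, pderiv_sh, smul_eq_mul, smul_eq_mul]
      congr 1
      ring

lemma dd_one (i : Fin 2) : dd k i (1 : D k) = 0 := by
  rw [one_eq, dd_sg]; simp

lemma dd_comm (a : D k) : dd k 0 (dd k 1 a) = dd k 1 (dd k 0 a) := by
  refine D_ext fun γ => ?_
  simp only [co_dd]
  generalize co γ a = p
  induction p using MvPolynomial.induction_on with
  | C c => simp
  | add p q hp hq => simp only [map_add, hp, hq]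
  | mul_X p j hp =>
    simp only [Derivation.leibniz, smul_eq_mul, map_add, hp, pderiv_X, Pi.single_apply]
    split_ifs <;> simp <;> ring

lemma dd_x (i j : Fin 2) : dd k i (x k j) = 0 := by
  rw [x, dd_sg]; simp

lemma dd_xi (i j : Fin 2) : dd k i (xi k j) = 0 := by
  rw [xi, dd_sg]; simp

lemma dd_y (i j : Fin 2) : dd k i (y k j) = if i = j then xi k i else 0 := by
  rw [y, dd_sg, pderiv_X]
  split_ifs with h
  · subst h
    rw [Pi.single_eq_same, xi]
  · rw [Pi.single_eq_of_ne (Ne.symm h), map_zero]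

lemma x_mul_xi (i : Fin 2) : x k i * xi k i = 1 := by
  rw [x, xi, sg_mul_sg, one_eq]; simp

lemma xi_mul_x (i : Fin 2) : xi k i * x k i = 1 := by
  rw [x, xi, sg_mul_sg, one_eq]; simp

lemma x_comm (i j : Fin 2) : x k i * x k j = x k j * x k i := by
  simp only [x, sg_mul_sg, map_one]
  rw [add_comm]

lemma xi_x_comm (i j : Fin 2) : xi k i * x k j = x k j * xi k i := by
  simp only [x, xi, sg_mul_sg, map_one]
  rw [add_comm]

lemma xi_comm (i j : Fin 2) : xi k i * xi k j = xi k j * xi k i := by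
  simp only [xi, sg_mul_sg, map_one]
  rw [add_comm]

lemma y_comm (i j : Fin 2) : y k i * y k j = y k j * y k i := by
  by_cases h : i = j
  · rw [h]
  simp only [y, sg_mul_sg, sh_X, Pi.neg_apply, Pi.single_eq_of_ne h,
    Pi.single_eq_of_ne (Ne.symm h), neg_zero, Int.cast_zero, map_zero, add_zero]
  rw [add_comm, mul_comm]

lemma y_mul_x (i j : Fin 2) : y k i * x k j = x k j * y k i + if i = j then 1 else 0 := by
  simp only [x, y, sg_mul_sg, sh_X, map_one, mul_one, one_mul]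
  split_ifs with h
  · subst h
    rw [one_eq]
    simp
  · rw [Pi.single_eq_of_ne h, add_comm (-Pi.single i 1)]
    simp

lemma Fam_mono {s s' : Fin 2 → ℕ} (h : s ≤ s') (d : ℤ × ℤ) : Fam k s d ≤ Fam k s' d := by
  intro a ha α
  obtain ⟨h1, h2, h3, h4⟩ := ha α
  exact ⟨h1, h2, fun i hi => h3 i ((h i).trans hi),
    fun i hi => h4 i (Nat.le_zero.1 ((h i).trans hi.le))⟩

lemma Fam_level {s : Fin 2 → ℕ} {j b b' : ℤ} (h : b ≤ b') : Fam k s (j, b) ≤ Fam k s (j, b') := by
  intro a ha α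
  obtain ⟨h1, h2, h3, h4⟩ := ha α
  exact ⟨F_mono h h1, h2, fun i hi hlt => h3 i hi (by dsimp only at hlt ⊢; omega), h4⟩

lemma Fam_mul {s s' t : Fin 2 → ℕ} (hs : s ≤ t) (hs' : s' ≤ t) {d d' : ℤ × ℤ} {a a' : D k}
    (ha : a ∈ Fam k s d) (ha' : a' ∈ Fam k s' d') : a * a' ∈ Fam k t (d + d') := by
  have hb := Fam_mono hs d ha
  have hb' := Fam_mono hs' d' ha'
  intro γ
  rw [co_mul, Prod.fst_add, Prod.snd_add]
  refine ⟨Submodule.sum_mem _ fun β _ => mul_mem_F (sh_mem_F β (hb _).1) (hb' _).1,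
    fun h => Finset.sum_eq_zero fun β _ => ?_, fun i hi h => Finset.sum_eq_zero fun β _ => ?_,
    fun i hi n hn h => ?_⟩
  · by_cases h1 : β 0 + β 1 = d'.1
    · rw [(hb (γ - β)).2.1 (by simp only [Pi.sub_apply]; omega), map_zero, zero_mul]
    · rw [(hb' β).2.1 h1, mul_zero]
  · by_cases h1 : β i < -d'.2
    · rw [(hb' β).2.2.1 i hi h1, mul_zero]
    · rw [(hb (γ - β)).2.2.1 i hi (by simp only [Pi.sub_apply]; omega), map_zero, zero_mul]
  · rw [map_sum]
    refine Finset.sum_eq_zero fun β _ => ?_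
    rw [map_mul]
    by_cases h1 : n < -β i
    · rw [(hb' β).2.2.2 i hi n hn h1, mul_zero]
    · have := (hb (γ - β)).2.2.2 i hi (n + β i) (by omega) (by simp only [Pi.sub_apply]; omega)
      rw [Int.cast_add] at this
      rw [ev_sh, this, map_zero, zero_mul]

lemma one_mem_Fam (s : Fin 2 → ℕ) {b : ℤ} (hb : 0 ≤ b) : (1 : D k) ∈ Fam k s (0, b) :=
  sg_mem (one_mem_F hb) (by simp) (fun i _ => by simpa using hb)
    (fun i _ n hn h => absurd h (by simpa using hn))

lemma dd_mem_Fam {s t : Fin 2 → ℕ} (i : Fin 2) (hs : s ≤ t) (hi : 1 ≤ t i) {d : ℤ × ℤ} {a : D k}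
    (ha : a ∈ Fam k s d) : dd k i a ∈ Fam k t d := by
  intro α
  obtain ⟨h1, h2, h3, h4⟩ := Fam_mono hs d ha α
  rw [co_dd]
  refine ⟨F_mono (by omega) (pderiv_mem_F i h1), fun h => by rw [h2 h, map_zero],
    fun j hj h => by rw [h3 j hj h, map_zero], fun j hj n hn h => ?_⟩
  have hij : i ≠ j := by
    rintro rfl
    omega
  rw [← pderiv_ev i j hij, h4 j hj n hn h, map_zero]

lemma Fam_inf {s s' : Fin 2 → ℕ} {d : ℤ × ℤ} {a : D k} (ha : a ∈ Fam k s d)
    (ha' : a ∈ Fam k s' d) : a ∈ Fam k (s ⊓ s') d := by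
  intro α
  obtain ⟨h1, h2, h3, h4⟩ := ha α
  obtain ⟨-, -, h3', h4'⟩ := ha' α
  refine ⟨h1, h2, fun i hi => ?_, fun i hi => ?_⟩
  · rw [Pi.inf_apply] at hi
    rcases inf_le_iff.1 hi with h | h
    exacts [h3 i h, h3' i h]
  · rw [Pi.inf_apply] at hi
    rcases inf_le_iff.1 hi.le with h | h
    exacts [h4 i (Nat.le_zero.1 h), h4' i (Nat.le_zero.1 h)]

lemma Fam_split {s : Fin 2 → ℕ} {d : ℤ × ℤ} (hd : -1 ≤ d.1) {a : D k} (ha : a ∈ Fam k s d) :
    ∃ a₀ ∈ Fam k ![0, s 1] d, ∃ a₁ ∈ Fam k ![s 0, 0] d, a = a₀ + a₁ := by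
  refine ⟨flt (fun α => 0 ≤ α 0) a, flt_mem ha _ fun α i h hw => ?_,
    flt (fun α => ¬ 0 ≤ α 0) a, flt_mem ha _ fun α i h hw => ?_, D_ext fun α => ?_⟩
  · fin_cases i
    · exact Or.inr h
    · exact Or.inl le_rfl
  · fin_cases i
    · exact Or.inl le_rfl
    · exact Or.inr (show 0 ≤ α 1 by omega)
  · rw [map_add, co_flt, co_flt]
    split_ifs <;> simp

lemma x_mem_Fam (s : Fin 2 → ℕ) (i : Fin 2) : x k i ∈ Fam k s (1, 0) :=
  sg_mem (one_mem_F le_rfl) (single_sum i) (fun j _ => by simpa using single_nonneg i j)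
    (fun j _ n hn h => absurd h (by have := single_nonneg i j; omega))

lemma y_mem_Fam (s : Fin 2 → ℕ) (i : Fin 2) : y k i ∈ Fam k s (-1, 1) := by
  refine sg_mem (X_mem_F i) (by have := single_sum i; simp only [Pi.neg_apply]; omega)
    (fun j _ => by have := single_le i j; simp only [Pi.neg_apply]; omega) fun j _ n hn h => ?_
  rw [Pi.neg_apply, neg_neg, Pi.single_apply] at h
  split_ifs at h with hj
  · subst hj
    rw [ev_X_self, show n = 0 by omega]
    simp
  · omega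

lemma xi_mem_Fam {s : Fin 2 → ℕ} (i : Fin 2) (hi : 1 ≤ s i) : xi k i ∈ Fam k s (-1, 1) := by
  refine sg_mem (one_mem_F (by norm_num)) (by have := single_sum i; simp only [Pi.neg_apply]; omega)
    (fun j _ => by have := single_le i j; simp only [Pi.neg_apply]; omega) fun j hj n hn h => ?_
  have hij : j ≠ i := by
    rintro rfl
    omega
  rw [Pi.neg_apply, Pi.single_eq_of_ne hij] at h
  omega

lemma xi_mul_mem_Fam {s : Fin 2 → ℕ} (i : Fin 2) (hi : 2 ≤ s i) {j b : ℤ} {a : D k}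
    (ha : a ∈ Fam k s (j + 1, b)) : xi k i * a ∈ Fam k s (j, b) := by
  intro γ
  rw [xi, co_sg_mul, map_one, one_mul, sub_neg_eq_add]
  obtain ⟨h1, h2, h3, h4⟩ := ha (γ + Pi.single i 1)
  have hne : ∀ l, s l ≤ 1 → (γ + Pi.single i 1 : Z2) l = γ l := by
    intro l hl
    have hli : l ≠ i := by
      rintro rfl
      omega
    rw [Pi.add_apply, Pi.single_eq_of_ne hli, add_zero]
  refine ⟨h1, fun h => h2 ?_, fun l hl h => h3 l hl (by rw [hne l hl]; exact h),
    fun l hl n hn h => h4 l hl n hn (by rw [hne l (by omega)]; exact h)⟩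
  have := single_sum i
  simp only [Pi.add_apply] at h ⊢
  omega

lemma Fam_fg (d : ℤ × ℤ) : (Fam k 1 d).FG := by
  classical
  let S : Finset Z2 := (Finset.Icc (-d.2) (d.1 + d.2)).image fun m => ![m, d.1 - m]
  have hT : (S.sup fun α => (F k d.2).map (sg α)).FG :=
    Submodule.fg_finset_sup _ _ fun α _ => (F_fg d.2).map _
  refine hT.of_le fun a ha => ?_
  rw [← sum_sg a]
  refine Submodule.sum_mem _ fun α hα => ?_
  obtain ⟨h1, h2, h3, -⟩ := ha α
  have h0 := mem_supp.1 hα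
  have hw : α 0 + α 1 = d.1 := by by_contra hc; exact h0 (h2 hc)
  have g0 : -d.2 ≤ α 0 := by by_contra hc; exact h0 (h3 0 le_rfl (not_le.1 hc))
  have g1 : -d.2 ≤ α 1 := by by_contra hc; exact h0 (h3 1 le_rfl (not_le.1 hc))
  have hS : α ∈ S := Finset.mem_image.2 ⟨α 0, Finset.mem_Icc.2 ⟨g0, by omega⟩, by
    funext l
    fin_cases l
    · rfl
    · show d.1 - α 0 = α 1
      omega⟩
  exact (Finset.le_sup (f := fun α => (F k d.2).map (sg α)) hS) (Submodule.mem_map_of_mem h1)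

end Vale.Agent.P195
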