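import Vale.Agent.P176.Homol

/-!
More homological lemmas: the second variable, resolutions and mapping cones.
-/

namespace Vale.Agent.P195

open CategoryTheory Abelian Vale.Agent.P176

variable {Γ : Type} [Ring Γ] {X Y M₁ M₂ M₃ : Type} [AddCommGroup X] [Module Γ X]
  [AddCommGroup Y] [Module Γ Y] [AddCommGroup M₁] [Module Γ M₁] [AddCommGroup M₂] [Module Γ M₂]
  [AddCommGroup M₃] [Module Γ M₃] {f : M₁ →ₗ[Γ] M₂} {g : M₂ →ₗ[Γ] M₃}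

lemma van_zero_iff : Van Γ X Y 0 ↔ ∀ φ : X →ₗ[Γ] Y, φ = 0 := by
  constructor
  · intro h φ
    have h1 := h (Ext.mk₀ (ModuleCat.ofHom φ))
    rw [← Ext.mk₀_zero] at h1
    simpa using congrArg ModuleCat.Hom.hom ((Ext.mk₀_bijective _ _).1 h1)
  · intro h e
    obtain ⟨φ, rfl⟩ := (Ext.mk₀_bijective _ _).2 e
    rw [show φ = 0 from ModuleCat.hom_ext (h φ.hom), Ext.mk₀_zero]

lemma van_projective [Module.Projective Γ X] (j : ℕ) : Van Γ X Y (j + 1) :=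
  fun e => e.eq_zero_of_projective

lemma cov₁ (h : SES f g) {j : ℕ} (h₃ : Van Γ X M₃ j) (h₂ : Van Γ X M₂ (j + 1)) :
    Van Γ X M₁ (j + 1) := by
  intro x
  obtain ⟨x₃, rfl⟩ := Ext.covariant_sequence_exact₁ _ h.shortExact x (h₂ _) rfl
  rw [h₃ x₃, Ext.zero_comp]

lemma cov₁_zero (h : SES f g) (h₂ : Van Γ X M₂ 0) : Van Γ X M₁ 0 := by
  rw [van_zero_iff] at h₂ ⊢
  intro φ
  ext x
  exact h.inj ((LinearMap.congr_fun (h₂ (f ∘ₗ φ)) x).trans (map_zero f).symm)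

lemma cov₁_one (h : SES f g) (hlift : ∀ φ : X →ₗ[Γ] M₃, ∃ ψ : X →ₗ[Γ] M₂, g ∘ₗ ψ = φ)
    (h₂ : Van Γ X M₂ 1) : Van Γ X M₁ 1 := by
  intro x
  obtain ⟨x₃, rfl⟩ := Ext.covariant_sequence_exact₁ _ h.shortExact x (h₂ _) (zero_add 1)
  obtain ⟨φ, rfl⟩ := (Ext.mk₀_bijective _ _).2 x₃
  obtain ⟨ψ, hψ⟩ := hlift φ.hom
  have : φ = ModuleCat.ofHom ψ ≫ h.sc.g := by
    ext x; simpa using (LinearMap.congr_fun hψ x).symm
  rw [this, ← Ext.mk₀_comp_mk₀, Ext.comp_assoc_of_second_deg_zero, h.shortExact.comp_extClass,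
    Ext.comp_zero]

lemma cov₂ (h : SES f g) {j : ℕ} (h₁ : Van Γ X M₁ j) (h₃ : Van Γ X M₃ j) : Van Γ X M₂ j := by
  intro x
  obtain ⟨x₁, rfl⟩ := Ext.covariant_sequence_exact₂ _ h.shortExact x (h₃ _)
  rw [h₁ x₁, Ext.zero_comp]

lemma van₂ (h : SES f g) {j : ℕ} (h₁ : Van Γ M₁ Y j) (h₃ : Van Γ M₃ Y j) : Van Γ M₂ Y j := by
  intro x
  obtain ⟨x₃, rfl⟩ := Ext.contravariant_sequence_exact₂ h.shortExact _ x (h₁ _)
  rw [h₃ x₃, Ext.comp_zero]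

lemma van₃_zero (h : SES f g) (h₂ : Van Γ M₂ Y 0) : Van Γ M₃ Y 0 := by
  rw [van_zero_iff] at h₂ ⊢
  intro φ
  ext x
  obtain ⟨y, rfl⟩ := h.surj x
  exact LinearMap.congr_fun (h₂ (φ ∘ₗ g)) y

lemma cov_retract (i : M₁ →ₗ[Γ] M₂) (r : M₂ →ₗ[Γ] M₁) (h : ∀ x, r (i x) = x) {j : ℕ}
    (h₂ : Van Γ X M₂ j) : Van Γ X M₁ j := by
  intro x
  have hr := (retractOf i r h).retract
  rw [← x.comp_mk₀_id, ← hr, ← Ext.mk₀_comp_mk₀, ← Ext.comp_assoc_of_second_deg_zero,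
    h₂ (x.comp (Ext.mk₀ (retractOf i r h).i) (add_zero j)), Ext.zero_comp]

lemma Homol2Aux.ses_prod : SES (LinearMap.inl Γ M₁ M₂) (LinearMap.snd Γ M₁ M₂) :=
  ⟨LinearMap.inl_injective, Function.Exact.inl_snd, LinearMap.snd_surjective⟩

lemma van_prod_left {j : ℕ} (h₁ : Van Γ M₁ Y j) (h₂ : Van Γ M₂ Y j) : Van Γ (M₁ × M₂) Y j :=
  van₂ Homol2Aux.ses_prod h₁ h₂

lemma van_prod_right {j : ℕ} (h₁ : Van Γ X M₁ j) (h₂ : Van Γ X M₂ j) :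
    Van Γ X (M₁ × M₂) j :=
  cov₂ Homol2Aux.ses_prod h₁ h₂

lemma van_pi_right {ι : Type} [Finite ι] {N : ι → Type} [∀ i, AddCommGroup (N i)]
    [∀ i, Module Γ (N i)] {j : ℕ} (h : ∀ i, Van Γ X (N i) j) : Van Γ X (∀ i, N i) j := by
  classical
  have := Fintype.ofFinite ι
  intro x
  have h1 : 𝟙 (ModuleCat.of Γ (∀ i, N i)) = ∑ i, ModuleCat.ofHom (LinearMap.proj i) ≫
      ModuleCat.ofHom (LinearMap.single Γ N i) := by
    refine ModuleCat.hom_ext (LinearMap.ext fun v => ?_)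
    simp [ModuleCat.hom_sum, Finset.univ_sum_single]
  rw [← x.comp_mk₀_id, h1, Ext.mk₀_sum, Ext.comp_sum]
  refine Finset.sum_eq_zero fun i _ => ?_
  rw [← Ext.mk₀_comp_mk₀, ← Ext.comp_assoc_of_second_deg_zero,
    h i (x.comp (Ext.mk₀ _) (add_zero j)), Ext.zero_comp]

section Res

variable {G G' Q X' : Type} [AddCommGroup G] [Module Γ G] [AddCommGroup G'] [Module Γ G']
  [AddCommGroup Q] [Module Γ Q] [AddCommGroup X'] [Module Γ X']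

/-- a projective resolution whose terms are submodules `E n` of one module -/
structure IsRes (E : ℕ → Submodule Γ G) (D : ℕ → G →ₗ[Γ] G) (a : G →ₗ[Γ] X) : Prop where
  proj : ∀ n, Module.Projective Γ (E n)
  D_mem : ∀ n, ∀ z ∈ E (n + 1), D n z ∈ E n
  surj : ∀ w, ∃ z ∈ E 0, a z = w
  aD : ∀ z ∈ E 1, a (D 0 z) = 0
  DD : ∀ n, ∀ z ∈ E (n + 2), D n (D (n + 1) z) = 0
  ex0 : ∀ z ∈ E 0, a z = 0 → ∃ z' ∈ E 1, D 0 z' = z
  ex : ∀ n, ∀ z ∈ E (n + 1), D n z = 0 → ∃ z' ∈ E (n + 2), D (n + 1) z' = z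

lemma Homol2Aux.van_aux (n : ℕ) {E : ℕ → Submodule Γ G} {D : ℕ → G →ₗ[Γ] G} (a : E 0 →ₗ[Γ] X)
    (proj : ∀ n, Module.Projective Γ (E n)) (mem : ∀ n, ∀ z ∈ E (n + 1), D n z ∈ E n)
    (surj : Function.Surjective a)
    (ex0 : ∀ z (hz : z ∈ E 0), a ⟨z, hz⟩ = 0 ↔ ∃ z' ∈ E 1, D 0 z' = z)
    (ex : ∀ n, ∀ z ∈ E (n + 1), D n z = 0 ↔ ∃ z' ∈ E (n + 2), D (n + 1) z' = z)
    (h : ∀ n (φ : E (n + 1) →ₗ[Γ] Y),
      (∀ z (hz : z ∈ E (n + 2)), φ ⟨D (n + 1) z, mem _ z hz⟩ = 0) →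
      ∃ ψ : E n →ₗ[Γ] Y, ∀ z (hz : z ∈ E (n + 1)), φ ⟨z, hz⟩ = ψ ⟨D n z, mem _ z hz⟩) :
    Van Γ X Y (n + 1) := by
  induction n generalizing X E D with
  | zero =>
    have hle : (E 1).map (D 0) ≤ E 0 := by
      rintro _ ⟨z, hz, rfl⟩
      exact mem 0 z hz
    have hs : SES (Submodule.inclusion hle) a := ⟨Submodule.inclusion_injective hle, fun z =>
      (ex0 z.1 z.2).trans ⟨fun hz => ⟨⟨z, hz⟩, rfl⟩, by
        rintro ⟨w, rfl⟩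
        exact w.2⟩, surj⟩
    have := proj 0
    refine hs.van₃_one (fun φ => ?_) (van_projective 0)
    obtain ⟨ψ, hψ⟩ := h 0 (φ ∘ₗ (D 0).submoduleMap (E 1)) (fun z hz => by
      rw [LinearMap.comp_apply, show (D 0).submoduleMap (E 1) ⟨D (0 + 1) z, mem _ z hz⟩ = 0 from
        Subtype.ext ((ex 0 _ (mem _ z hz)).2 ⟨z, hz, rfl⟩), map_zero])
    refine ⟨ψ, LinearMap.ext ?_⟩
    rintro ⟨_, z, hz, rfl⟩
    exact (hψ z hz).symm
  | succ n ih =>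
    have hle : (E 1).map (D 0) ≤ E 0 := by
      rintro _ ⟨z, hz, rfl⟩
      exact mem 0 z hz
    have hs : SES (Submodule.inclusion hle) a := ⟨Submodule.inclusion_injective hle, fun z =>
      (ex0 z.1 z.2).trans ⟨fun hz => ⟨⟨z, hz⟩, rfl⟩, by
        rintro ⟨w, rfl⟩
        exact w.2⟩, surj⟩
    have := proj 0
    exact hs.van₃ (ih (E := fun k => E (k + 1)) (D := fun k => D (k + 1))
      ((D 0).submoduleMap (E 1)) (fun k => proj (k + 1)) (fun k => mem (k + 1))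
      ((D 0).submoduleMap_surjective _) (fun z hz => Subtype.ext_iff.trans (ex 0 z hz))
      (fun k => ex (k + 1)) fun k => h (k + 1)) (van_projective _)

lemma IsRes.van {E : ℕ → Submodule Γ G} {D : ℕ → G →ₗ[Γ] G} {a : G →ₗ[Γ] X}
    (r : IsRes E D a)
    (h : ∀ n (φ : E (n + 1) →ₗ[Γ] Y),
      (∀ z (hz : z ∈ E (n + 2)), φ ⟨D (n + 1) z, r.D_mem _ z hz⟩ = 0) →
      ∃ ψ : E n →ₗ[Γ] Y, ∀ z (hz : z ∈ E (n + 1)), φ ⟨z, hz⟩ = ψ ⟨D n z, r.D_mem _ z hz⟩)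
    (n : ℕ) : Van Γ X Y (n + 1) :=
  Homol2Aux.van_aux n (a ∘ₗ (E 0).subtype) r.proj r.D_mem
    (fun w => by
      obtain ⟨z, hz, rfl⟩ := r.surj w
      exact ⟨⟨z, hz⟩, rfl⟩)
    (fun z hz => ⟨r.ex0 z hz, by
      rintro ⟨z', hz', rfl⟩
      exact r.aD z' hz'⟩)
    (fun n z hz => ⟨r.ex n z hz, by
      rintro ⟨z', hz', rfl⟩
      exact r.DD n z' hz'⟩) h

/-- terms of the mapping cone -/
def coneE (E : ℕ → Submodule Γ G) (E' : ℕ → Submodule Γ G') : ℕ → Submodule Γ (G × G')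
  | 0 => (E 0).prod ⊥
  | n + 1 => (E (n + 1)).prod (E' n)

/-- differential of the mapping cone -/
def coneD (D : ℕ → G →ₗ[Γ] G) (D' : ℕ → G' →ₗ[Γ] G') (τ : ℕ → G' →ₗ[Γ] G) :
    ℕ → G × G' →ₗ[Γ] G × G'
  | 0 => ((D 0).coprod (τ 0)).prod 0
  | n + 1 => ((D (n + 1)).coprod (τ (n + 1))).prod (D' n ∘ₗ LinearMap.snd Γ G G')

lemma Homol2Aux.proj_prod {E : Submodule Γ G} {E' : Submodule Γ G'} (h : Module.Projective Γ E)
    (h' : Module.Projective Γ E') : Module.Projective Γ (E.prod E') :=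
  Module.Projective.of_split (M := E × E')
    ((((LinearMap.fst Γ G G').domRestrict (E.prod E')).codRestrict E fun z => z.2.1).prod
      (((LinearMap.snd Γ G G').domRestrict (E.prod E')).codRestrict E' fun z => z.2.2))
    ((E.subtype.prodMap E'.subtype).codRestrict (E.prod E') fun z => ⟨z.1.2, z.2.2⟩) rfl

lemma IsRes.cone {E : ℕ → Submodule Γ G} {D : ℕ → G →ₗ[Γ] G} {a : G →ₗ[Γ] Q}
    {E' : ℕ → Submodule Γ G'} {D' : ℕ → G' →ₗ[Γ] G'} {a' : G' →ₗ[Γ] X'}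
    (r : IsRes E D a) (r' : IsRes E' D' a') {i : X' →ₗ[Γ] Q} {p : Q →ₗ[Γ] X} (h : SES i p)
    (τ : ℕ → G' →ₗ[Γ] G) (τ_mem : ∀ n, ∀ z ∈ E' n, τ n z ∈ E n)
    (τa : ∀ z ∈ E' 0, a (τ 0 z) = i (a' z))
    (τD : ∀ n, ∀ z ∈ E' (n + 1), D n (τ (n + 1) z) + τ n (D' n z) = 0) :
    IsRes (coneE E E') (coneD D D' τ) (p ∘ₗ a ∘ₗ LinearMap.fst Γ G G') := by
  refine ⟨fun n => ?_, fun n => ?_, fun w => ?_, ?_, fun n => ?_, ?_, fun n => ?_⟩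
  · cases n with
    | zero => exact Homol2Aux.proj_prod (r.proj 0) inferInstance
    | succ n => exact Homol2Aux.proj_prod (r.proj _) (r'.proj _)
  · rintro ⟨z, z'⟩ ⟨hz, hz'⟩
    cases n with
    | zero => exact ⟨add_mem (r.D_mem _ z hz) (τ_mem _ z' hz'), rfl⟩
    | succ n => exact ⟨add_mem (r.D_mem _ z hz) (τ_mem _ z' hz'), r'.D_mem _ z' hz'⟩
  · obtain ⟨q, rfl⟩ := h.surj w
    obtain ⟨z, hz, rfl⟩ := r.surj q
    exact ⟨(z, 0), ⟨hz, rfl⟩, rfl⟩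
  · rintro ⟨z, z'⟩ ⟨hz, hz'⟩
    change p (a (D 0 z + τ 0 z')) = 0
    rw [map_add, r.aD z hz, τa z' hz', zero_add, h.exact.apply_apply_eq_zero]
  · rintro ⟨z, z'⟩ ⟨hz, hz'⟩
    cases n with
    | zero =>
      refine Prod.ext ?_ rfl
      change D 0 (D 1 z + τ 1 z') + τ 0 (D' 0 z') = 0
      rw [map_add, r.DD 0 z hz, zero_add, τD 0 z' hz']
    | succ n =>
      refine Prod.ext ?_ (r'.DD n z' hz')
      change D (n + 1) (D (n + 2) z + τ (n + 2) z') + τ (n + 1) (D' (n + 1) z') = 0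
      rw [map_add, r.DD _ z hz, zero_add, τD _ z' hz']
  · rintro ⟨z, z'⟩ ⟨hz, hz'⟩ h0
    obtain ⟨w, hw⟩ := (h.exact (a z)).1 h0
    obtain ⟨z1, hz1, rfl⟩ := r'.surj w
    obtain ⟨z2, hz2, h2⟩ := r.ex0 (z - τ 0 z1) (sub_mem hz (τ_mem _ _ hz1))
      (by rw [map_sub, τa z1 hz1, hw, sub_self])
    exact ⟨(z2, z1), ⟨hz2, hz1⟩, Prod.ext (eq_sub_iff_add_eq.1 h2) (Eq.symm hz')⟩
  · rintro ⟨z, z'⟩ ⟨hz, hz'⟩ h0
    have h1 : D n z + τ n z' = 0 := by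
      cases n with
      | zero => exact congrArg Prod.fst h0
      | succ n => exact congrArg Prod.fst h0
    obtain ⟨z1, hz1, rfl⟩ : ∃ z1 ∈ E' (n + 1), D' n z1 = z' := by
      cases n with
      | zero =>
        refine r'.ex0 z' hz' (h.inj ?_)
        rw [← τa z' hz', map_zero, ← r.aD z hz, eq_neg_of_add_eq_zero_right h1, map_neg,
          r.aD z hz, neg_zero]
      | succ n => exact r'.ex n z' hz' (congrArg Prod.snd h0)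
    obtain ⟨z2, hz2, h2⟩ := r.ex n (z - τ (n + 1) z1) (sub_mem hz (τ_mem _ _ hz1))
      (by rw [map_sub, eq_neg_of_add_eq_zero_left h1, eq_neg_of_add_eq_zero_left (τD n z1 hz1),
        sub_self])
    exact ⟨(z2, z1), ⟨hz2, hz1⟩, Prod.ext (eq_sub_iff_add_eq.1 h2) rfl⟩

lemma IsRes.prod {E : ℕ → Submodule Γ G} {D : ℕ → G →ₗ[Γ] G} {a : G →ₗ[Γ] Q}
    {E' : ℕ → Submodule Γ G'} {D' : ℕ → G' →ₗ[Γ] G'} {a' : G' →ₗ[Γ] X'}
    (r : IsRes E D a) (r' : IsRes E' D' a') :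
    IsRes (fun n => (E n).prod (E' n)) (fun n => (D n).prodMap (D' n)) (a.prodMap a') := by
  refine ⟨fun n => Homol2Aux.proj_prod (r.proj n) (r'.proj n),
    fun n z hz => ⟨r.D_mem n _ hz.1, r'.D_mem n _ hz.2⟩, fun w => ?_,
    fun z hz => Prod.ext (r.aD _ hz.1) (r'.aD _ hz.2),
    fun n z hz => Prod.ext (r.DD n _ hz.1) (r'.DD n _ hz.2), fun z hz h0 => ?_,
    fun n z hz h0 => ?_⟩
  · obtain ⟨z, hz, h⟩ := r.surj w.1
    obtain ⟨z', hz', h'⟩ := r'.surj w.2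
    exact ⟨(z, z'), ⟨hz, hz'⟩, Prod.ext h h'⟩
  · obtain ⟨u, hu, h⟩ := r.ex0 _ hz.1 (congrArg Prod.fst h0)
    obtain ⟨u', hu', h'⟩ := r'.ex0 _ hz.2 (congrArg Prod.snd h0)
    exact ⟨(u, u'), ⟨hu, hu'⟩, Prod.ext h h'⟩
  · obtain ⟨u, hu, h⟩ := r.ex n _ hz.1 (congrArg Prod.fst h0)
    obtain ⟨u', hu', h'⟩ := r'.ex n _ hz.2 (congrArg Prod.snd h0)
    exact ⟨(u, u'), ⟨hu, hu'⟩, Prod.ext h h'⟩

end Res

lemma Homol2Aux.div_proj {κ : Γ} (hκ' : ∀ γ : Γ, κ * γ = 0 → ∃ γ', κ * γ' = γ)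
    (h : Module.Projective Γ X) (w : X) (hw : κ • w = 0) : ∃ w', κ • w' = w := by
  obtain ⟨s, hs⟩ := Module.projective_def.1 h
  have h1 : ∀ a, κ * s w a = 0 := fun a => by
    rw [← smul_eq_mul, ← Finsupp.smul_apply, ← map_smul, hw, map_zero, Finsupp.zero_apply]
  choose c hc using fun a => hκ' _ (h1 a)
  refine ⟨∑ a ∈ (s w).support, c a • a, ?_⟩
  rw [Finset.smul_sum]
  simp only [smul_smul, hc]
  exact hs w

lemma Homol2Aux.div_ses {κ : Γ} (hκ : κ * κ = 0) (h : SES f g)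
    (h₁ : ∀ w : M₁, κ • w = 0 → ∃ w', κ • w' = w) (h₂ : ∀ w : M₂, κ • w = 0 → ∃ w', κ • w' = w)
    (w : M₃) (hw : κ • w = 0) : ∃ w', κ • w' = w := by
  obtain ⟨v, rfl⟩ := h.surj w
  obtain ⟨u, hu⟩ := (h.exact (κ • v)).1 (by rw [map_smul, hw])
  obtain ⟨u', rfl⟩ := h₁ u (h.inj (by rw [map_smul, hu, smul_smul, hκ, zero_smul, map_zero]))
  obtain ⟨v', hv'⟩ := h₂ (v - f u') (by rw [smul_sub, ← hu, map_smul, sub_self])
  exact ⟨g v', by rw [← map_smul, hv', map_sub, h.exact.apply_apply_eq_zero, sub_zero]⟩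

/-- The criterion: the second syzygy of `X` is the desired module. -/
theorem criterion [IsNoetherianRing Γ] {P : Type} [AddCommGroup P] [Module Γ P]
    [Module.Projective Γ P] [Module.Finite Γ P] (π : P →ₗ[Γ] X) (hπ : Function.Surjective π)
    (κ : Γ) (hκ : κ * κ = 0) (hκ' : ∀ γ : Γ, κ * γ = 0 → ∃ γ', κ * γ' = γ)
    (hX : ∀ w : X, κ • w = 0) [Nontrivial X] (h1 : ∀ n, Van Γ X X (n + 1))
    (h2 : ∀ n, Van Γ X P (n + 2)) (h3 : ∀ n, Van Γ X Γ (n + 3)) :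
    ∃ M : ModuleCat.{0} Γ, Module.Finite Γ M ∧ ¬ Module.Projective Γ M ∧
      ∀ i : ℕ, 1 ≤ i → Subsingleton (Ext M M i) ∧ Subsingleton (Ext M (ModuleCat.of Γ Γ) i) := by
  obtain ⟨n, φ, hφ⟩ := Module.Finite.exists_fin' Γ (LinearMap.ker π)
  have s1 : SES (LinearMap.ker π).subtype π :=
    ⟨Subtype.val_injective, LinearMap.exact_subtype_ker_map π, hπ⟩
  have s2 : SES (LinearMap.ker φ).subtype φ :=
    ⟨Subtype.val_injective, LinearMap.exact_subtype_ker_map φ, hφ⟩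
  have key : ∀ {Y : Type} [AddCommGroup Y] [Module Γ Y], (∀ n, Van Γ X Y (n + 3)) →
      ∀ i, 1 ≤ i → Subsingleton (Ext (ModuleCat.of Γ (LinearMap.ker φ)) (ModuleCat.of Γ Y) i) := by
    intro Y _ _ h i hi
    obtain ⟨j, rfl⟩ := Nat.exists_eq_add_of_le' hi
    exact subsingleton_of_forall_eq 0
      (s2.van₁ (van_projective j) (s1.van₁ (van_projective (j + 1)) (h j)))
  refine ⟨ModuleCat.of Γ (LinearMap.ker φ), inferInstance, fun hM => ?_, fun i hi =>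
    ⟨key (fun j => cov₁ s2 (cov₁ s1 (h1 j) (h2 j)) (van_pi_right fun _ => h3 j)) i hi,
      key h3 i hi⟩⟩
  have h4 := Homol2Aux.div_ses hκ s1 (Homol2Aux.div_ses hκ s2 (Homol2Aux.div_proj hκ' hM)
    (Homol2Aux.div_proj hκ' inferInstance)) (Homol2Aux.div_proj hκ' inferInstance)
  obtain ⟨w, hw⟩ := exists_ne (0 : X)
  obtain ⟨w', h5⟩ := h4 w (hX w)
  exact hw (h5.symm.trans (hX w'))

end Vale.Agent.P195
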