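import Vale.Agent.P195.Charts

/-!
Identities in the Morita ring, and direct summands.
-/

namespace Vale.Agent.P195

open Vale.Agent.P176

section Summand

variable {Γ : Type} [Ring Γ] {G G' X Y : Type} [AddCommGroup G] [Module Γ G] [AddCommGroup G']
  [Module Γ G'] [AddCommGroup X] [Module Γ X] [AddCommGroup Y] [Module Γ Y]

/-- direct summands -/
def IsSm (E : Submodule Γ G) : Prop := ∃ p : G →ₗ[Γ] G, (∀ z, p z ∈ E) ∧ ∀ z ∈ E, p z = z

lemma IsSm.bot : IsSm (⊥ : Submodule Γ G) :=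
  ⟨0, fun _ => zero_mem _, fun _ hz => ((Submodule.mem_bot Γ).1 hz).symm⟩

lemma IsSm.prod {E : Submodule Γ G} {E' : Submodule Γ G'} (h : IsSm E) (h' : IsSm E') :
    IsSm (E.prod E') := by
  obtain ⟨p, h1, h2⟩ := h
  obtain ⟨p', h1', h2'⟩ := h'
  exact ⟨p.prodMap p', fun z => ⟨h1 _, h1' _⟩, fun z hz => Prod.ext (h2 _ hz.1) (h2' _ hz.2)⟩

lemma IsSm.cone {E : ℕ → Submodule Γ G} {E' : ℕ → Submodule Γ G'} (h : ∀ n, IsSm (E n))
    (h' : ∀ n, IsSm (E' n)) : ∀ n, IsSm (coneE E E' n)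
  | 0 => (h 0).prod IsSm.bot
  | n + 1 => (h (n + 1)).prod (h' n)

lemma IsSm.projective [Module.Projective Γ G] {E : Submodule Γ G} (h : IsSm E) :
    Module.Projective Γ E := by
  obtain ⟨p, h1, h2⟩ := h
  exact Module.Projective.of_split E.subtype (p.codRestrict E h1)
    (LinearMap.ext fun z => Subtype.ext (h2 _ z.2))

lemma IsRes.van' {E : ℕ → Submodule Γ G} {D : ℕ → G →ₗ[Γ] G} {a : G →ₗ[Γ] X}
    (r : IsRes E D a) (hs : ∀ n, IsSm (E n))
    (h : ∀ n (φ : G →ₗ[Γ] Y), (∀ z ∈ E (n + 2), φ (D (n + 1) z) = 0) →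
      ∃ ψ : G →ₗ[Γ] Y, ∀ z ∈ E (n + 1), φ z = ψ (D n z)) (n : ℕ) : Van Γ X Y (n + 1) := by
  refine r.van (fun n φ hφ => ?_) n
  obtain ⟨p, h1, h2⟩ := hs (n + 1)
  have e : ∀ z hz, (φ ∘ₗ p.codRestrict _ h1) z = φ ⟨z, hz⟩ := fun z hz =>
    congrArg φ (Subtype.ext (h2 z hz))
  obtain ⟨ψ, hψ⟩ := h n (φ ∘ₗ p.codRestrict _ h1) fun z hz => (e _ _).trans (hφ z hz)
  exact ⟨ψ ∘ₗ (E n).subtype, fun z hz => (e z hz).symm.trans (hψ z hz)⟩

end Summand

variable {k : Type} [Field k]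

variable (k) in
/-- the idempotent of the parity of `n` -/
noncomputable def ee (n : ℕ) : Tk k := if n % 2 = 0 then e₁ (der k) else 1 - e₁ (der k)

/-- diagonal elements with a sign -/
noncomputable def σ (c : D k) : Tk k := sgn (der k) (B.mk c 0)

variable (k) in
/-- first homotopy -/
noncomputable def μ₀ : Tk k := mu (der k) 0 (B.mk (-xi k 1) 0)

variable (k) in
/-- second homotopy -/
noncomputable def μ₁ : Tk k := mu (der k) (B.mk (xi k 0) 0) 0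

lemma ee_even {n : ℕ} (h : n % 2 = 0) : ee k n = e₁ (der k) := if_pos h

lemma ee_odd {n : ℕ} (h : n % 2 = 1) : ee k n = 1 - e₁ (der k) := if_neg (by omega)

lemma ee_ee (n : ℕ) : ee k n * ee k n = ee k n := by
  rcases Nat.mod_two_eq_zero_or_one n with h | h
  · rw [ee_even h]; refine T.ext ?_; ext <;> simp [e₁, act, dd_one]
  · rw [ee_odd h]; refine T.ext ?_; ext <;> simp [e₁, act, dd_one]

lemma ee_κ (n : ℕ) : ee k (n + 1) * κ (der k) = κ (der k) * ee k n := by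
  rcases Nat.mod_two_eq_zero_or_one n with h | h
  · rw [ee_even h, ee_odd (by omega)]; refine T.ext ?_; ext <;> simp [e₁, κ, act]
  · rw [ee_odd h, ee_even (by omega)]; refine T.ext ?_; ext <;> simp [e₁, κ, act]

lemma ee_σ (n : ℕ) (c : D k) : ee k n * σ c = σ c * ee k n := by
  rcases Nat.mod_two_eq_zero_or_one n with h | h
  · rw [ee_even h]; refine T.ext ?_; ext <;> simp [e₁, σ, sgn, act, dd_one]
  · rw [ee_odd h]; refine T.ext ?_; ext <;> simp [e₁, σ, sgn, act, dd_one]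

lemma ee_mu (n : ℕ) (a b : B k) :
    ee k n * mu (der k) a b * ee k (n + 1) = ee k n * mu (der k) a b := by
  rcases Nat.mod_two_eq_zero_or_one n with h | h
  · rw [ee_even h, ee_odd (by omega)]; refine T.ext ?_; ext <;> simp [e₁, mu, act]
  · rw [ee_odd h, ee_even (by omega)]; refine T.ext ?_; ext <;> simp [e₁, mu, act]

lemma ee_two (n : ℕ) : ee k (n + 2) = ee k n := by simp [ee]

lemma ee_mem (n : ℕ) (u : ℤ × ℤ) : ee k n ∈ TF k (u - u) := by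
  rw [sub_self, ee]
  split_ifs
  exacts [e₁_mem_TF, sub_mem (one_mem_TF le_rfl) e₁_mem_TF]

lemma σ_κ (c : D k) : σ c * κ (der k) + κ (der k) * σ c = 0 := by
  refine T.ext ?_; ext <;> simp [κ, σ, sgn, act, dd_one]

lemma σ_x (c : D k) : σ (x k 1) * σ (x k 0 * c) + σ (-x k 0) * σ (x k 1 * c) = 0 := by
  refine T.ext ?_; ext <;> simp [σ, sgn, act, dd_x, ← mul_assoc, x_comm 1 0]

lemma μ₀_κ : μ₀ k * κ (der k) + κ (der k) * μ₀ k + σ (x k 0 * y k 1) * σ (y k 0) +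
    σ (x k 0 * -y k 0) * σ (y k 1) = 0 := by
  refine T.ext ?_
  ext <;> simp [μ₀, mu, κ, σ, sgn, act, dd_x, dd_y, dd_mul, mul_assoc, y_comm 1 0, x_mul_xi]

lemma μ₁_κ : μ₁ k * κ (der k) + κ (der k) * μ₁ k + σ (x k 1 * y k 1) * σ (y k 0) +
    σ (x k 1 * -y k 0) * σ (y k 1) = 0 := by
  have : x k 1 * (xi k 0 * xi k 1) = xi k 0 := by
    rw [xi_comm, ← mul_assoc, x_mul_xi, one_mul]
  refine T.ext ?_
  ext <;> simp [μ₁, mu, κ, σ, sgn, act, dd_x, dd_y, dd_mul, mul_assoc, y_comm 1 0, this]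

lemma σ_μ : σ (x k 1) * μ₀ k + σ (-x k 0) * μ₁ k + mu (der k) 1 1 = 0 := by
  refine T.ext ?_; ext <;> simp [μ₀, μ₁, mu, σ, sgn, act, x_mul_xi]

lemma e₁_κ_mu (a b : B k) : ee k 0 * κ (der k) * mu (der k) a b = 0 := by
  rw [ee_even rfl]; refine T.ext ?_; ext <;> simp [e₁, κ, mu, act]

lemma ee_ω (m : ℕ) : ee k m * (((m + 2) / 2) • (σ 1 * κ (der k)) +
    ((m + 1) / 2) • (κ (der k) * σ 1) - mu (der k) 1 1) = 0 := by
  rw [eq_neg_of_add_eq_zero_right (σ_κ (k := k) 1)]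
  rcases Nat.mod_two_eq_zero_or_one m with h | h
  · rw [ee_even h, show (m + 2) / 2 = (m + 1) / 2 + 1 by omega, add_smul, smul_neg, one_smul,
      add_right_comm, add_neg_cancel, zero_add]
    refine T.ext ?_; ext <;> simp [e₁, κ, mu, σ, sgn, act]
  · rw [ee_odd h, show (m + 2) / 2 = (m + 1) / 2 by omega, smul_neg, add_neg_cancel]
    refine T.ext ?_; ext <;> simp [e₁, mu, act]

lemma σ_mem {d : ℤ × ℤ} {c : D k} (hc : c ∈ Fam k 0 d) : σ c ∈ TF k d :=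
  have h : B.mk c 0 ∈ FB k ![0, 0] d := mk_mem_FB (vec_zero ▸ hc)
  ⟨h, zero_mem _, zero_mem _, zero_mem _, zero_mem _, zero_mem _, neg_mem h, zero_mem _⟩

lemma μ₀_mem : μ₀ k ∈ TF k (-1, 2) :=
  ⟨zero_mem _, zero_mem _, zero_mem _,
    mk_mem_FB (neg_mem (Fam_level (by norm_num) (xi_mem_Fam 1 le_rfl))), zero_mem _, zero_mem _,
    zero_mem _, zero_mem _⟩

lemma μ₁_mem : μ₁ k ∈ TF k (-1, 2) :=
  ⟨zero_mem _, zero_mem _, mk_mem_FB (Fam_level (by norm_num) (xi_mem_Fam 0 le_rfl)), zero_mem _,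
    zero_mem _, zero_mem _, zero_mem _, zero_mem _⟩

end Vale.Agent.P195
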