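import Vale.Agent.P195.Poly

/-!
Exactness of the two Koszul complexes for regular differential operators.
-/

namespace Vale.Agent.P195

open MvPolynomial

variable {k : Type} [Field k]

namespace KosAux

lemma co_mul_x (a : D k) (i : Fin 2) (g : Z2) :
    co g (a * x k i) = sh k (Pi.single i 1) (co (g - Pi.single i 1) a) := by
  rw [x, co_mul_sg, mul_one]

lemma co_mul_xi (a : D k) (i : Fin 2) (g : Z2) :
    co g (a * xi k i) = sh k (-Pi.single i 1) (co (g + Pi.single i 1) a) := by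
  rw [xi, co_mul_sg, mul_one, sub_neg_eq_add]

lemma co_mul_y (a : D k) (i : Fin 2) (g : Z2) :
    co g (a * y k i) = sh k (-Pi.single i 1) (co (g + Pi.single i 1) a) * X i := by
  rw [y, co_mul_sg, sub_neg_eq_add]

lemma x_xi (i : Fin 2) : x k i * xi k i = 1 := by
  rw [x, xi, sg_mul_sg, one_eq]; simp

lemma xi_x (i : Fin 2) : xi k i * x k i = 1 := by
  rw [x, xi, sg_mul_sg, one_eq]; simp

lemma x_x (i j : Fin 2) : x k i * x k j = x k j * x k i := by
  rw [x, x, sg_mul_sg, sg_mul_sg, add_comm]; simp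

lemma y_y : y k 0 * y k 1 = y k 1 * y k 0 := by
  rw [y, y, sg_mul_sg, sg_mul_sg, add_comm]; simp [mul_comm]

lemma sh_eq_zero {β : Z2} {p : R k} (h : sh k β p = 0) : p = 0 :=
  sh_injective β (by rw [h, map_zero])

lemma wt_add (α : Z2) (i : Fin 2) :
    (α + Pi.single i 1 : Z2) 0 + (α + Pi.single i 1 : Z2) 1 = α 0 + α 1 + 1 := by
  fin_cases i <;> simp <;> ring

lemma wt_sub (α : Z2) (i : Fin 2) :
    (α - Pi.single i 1 : Z2) 0 + (α - Pi.single i 1 : Z2) 1 = α 0 + α 1 - 1 := by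
  fin_cases i <;> simp <;> ring

/-- the two conditions in one direction -/
def Dir (i : Fin 2) (b : ℤ) (c : D k) : Prop :=
  ∀ α : Z2, (α i < -b → co α c = 0) ∧
    ∀ n : ℤ, 0 ≤ n → n < -α i → ev k i (n : k) (co α c) = 0

lemma Dir.neg {i : Fin 2} {b : ℤ} {c : D k} (h : Dir i b c) : Dir i b (-c) := fun α =>
  ⟨fun h' => by rw [map_neg, (h α).1 h', neg_zero],
    fun n hn hn' => by rw [map_neg, map_neg, (h α).2 n hn hn', neg_zero]⟩

lemma mem_Fam_of_dir {j b : ℤ} {c : D k} (h1 : ∀ α, co α c ∈ F k b)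
    (h2 : ∀ α : Z2, α 0 + α 1 ≠ j → co α c = 0) (h : ∀ i, Dir i b c) : c ∈ Fam k 0 (j, b) :=
  fun α => ⟨h1 α, h2 α, fun i _ hi => (h i α).1 hi, fun i _ n hn hn' => (h i α).2 n hn hn'⟩

lemma xi_F {j b : ℤ} {a : D k} (ha : a ∈ Fam k 0 (j, b)) (i : Fin 2) (α : Z2) :
    co α (a * xi k i) ∈ F k b := by
  rw [co_mul_xi]; exact sh_mem_F _ (ha _).1

lemma xi_wt {j b : ℤ} {a : D k} (ha : a ∈ Fam k 0 (j + 1, b)) (i : Fin 2) (α : Z2)
    (h : α 0 + α 1 ≠ j) : co α (a * xi k i) = 0 := by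
  rw [co_mul_xi, (ha _).2.1 (by rw [wt_add]; simpa using h), map_zero]

lemma xi_dir {j b : ℤ} {a : D k} (ha : a ∈ Fam k 0 (j, b)) {i l : Fin 2} (hil : l ≠ i) :
    Dir l b (a * xi k i) := by
  intro α
  have e : (α + Pi.single i 1 : Z2) l = α l := by simp [hil]
  refine ⟨fun h => ?_, fun n hn hn' => ?_⟩
  · rw [co_mul_xi, (ha _).2.2.1 l (by simp) (by rw [e]; exact h), map_zero]
  · rw [co_mul_xi, ev_sh]
    have : (n : k) + ((-Pi.single i 1 : Z2) l : k) = n := by simp [hil]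
    rw [this, (ha _).2.2.2 l rfl n hn (by rw [e]; exact hn'), map_zero]

lemma xi_dir_self {j b : ℤ} {a : D k} (ha : a ∈ Fam k 0 (j, b)) (i : Fin 2)
    (h : ∀ α : Z2, α i ≤ 0 → co α a = 0) : Dir i b (a * xi k i) := by
  intro α
  have key : α i < 0 → co α (a * xi k i) = 0 := fun h' => by
    rw [co_mul_xi, h _ (by simp; omega), map_zero]
  refine ⟨fun h' => ?_, fun n hn hn' => ?_⟩
  · by_contra hne
    have := nonneg_of_mem_F (xi_F ha i α) hne
    exact hne (key (by omega))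
  · rw [key (by omega), map_zero]

lemma xi_mem {j b : ℤ} {a : D k} (ha : a ∈ Fam k 0 (j + 1, b)) (i : Fin 2)
    (h : ∀ α : Z2, α i ≤ 0 → co α a = 0) : a * xi k i ∈ Fam k 0 (j, b) :=
  mem_Fam_of_dir (xi_F ha i) (xi_wt ha i) fun l => by
    by_cases hl : l = i
    · subst hl; exact xi_dir_self ha l h
    · exact xi_dir ha hl

/-- keep the terms whose exponent satisfies `P` -/
noncomputable def flt (P : Z2 → Prop) [DecidablePred P] (a : D k) : D k := Finsupp.filter P a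

lemma co_flt (P : Z2 → Prop) [DecidablePred P] (a : D k) (α : Z2) :
    co α (flt P a) = if P α then co α a else 0 := Finsupp.filter_apply P a α

lemma flt_mem (P : Z2 → Prop) [DecidablePred P] {s : Fin 2 → ℕ} {d : ℤ × ℤ} {a : D k}
    (ha : a ∈ Fam k s d) : flt P a ∈ Fam k s d := by
  intro α
  rw [co_flt]
  split_ifs
  · exact ha α
  · simp

lemma mem_Fam0 [CharZero k] {j b : ℤ} {c : D k} (h1 : ∀ α, co α c ∈ F k b)
    (h2 : ∀ α : Z2, α 0 + α 1 ≠ j → co α c = 0)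
    (h4 : ∀ (i : Fin 2) (α : Z2) (n : ℤ), 0 ≤ n → n < -α i → ev k i (n : k) (co α c) = 0) :
    c ∈ Fam k 0 (j, b) :=
  mem_Fam_of_dir h1 h2 fun i α => ⟨fun h => by
    refine eq_zero_of_ev i (-α i).toNat (b := b) (by omega) (h1 α) fun n hn hn' => ?_
    exact h4 i α n hn (by omega), h4 i α⟩

lemma co_sub_mul_y (c : D k) (i : Fin 2) (α : Z2) :
    co (α - Pi.single i 1) (c * y k i) = sh k (-Pi.single i 1) (co α c) * X i := by
  rw [co_mul_y, sub_add_cancel]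

lemma mem_of_mul_y [CharZero k] (i : Fin 2) {j b b' : ℤ} {c : D k}
    (h : c * y k i ∈ Fam k 0 (j, b')) (h1 : ∀ α, co α c ∈ F k b) : c ∈ Fam k 0 (j + 1, b) := by
  refine mem_Fam0 h1 (fun α hα => ?_) fun l α n hn hn' => ?_
  · have := (h (α - Pi.single i 1)).2.1 (by rw [wt_sub]; simp; omega)
    rw [co_sub_mul_y] at this
    exact sh_eq_zero ((mul_eq_zero.1 this).resolve_right (X_ne_zero i))
  · by_cases hl : l = i
    · subst hl
      have := (h (α - Pi.single l 1)).2.2.2 l rfl (n + 1) (by omega) (by simp; omega)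
      rw [co_sub_mul_y, map_mul, ev_sh, ev_X_self] at this
      have e : ((n + 1 : ℤ) : k) + ((-Pi.single l 1 : Z2) l : k) = n := by simp
      rw [e] at this
      refine sh_eq_zero ((mul_eq_zero.1 this).resolve_right ?_)
      rw [C_eq_zero, Int.cast_eq_zero]
      omega
    · have := (h (α - Pi.single i 1)).2.2.2 l rfl n hn (by simpa [hl] using hn')
      rw [co_sub_mul_y, map_mul, ev_sh, ev_X, if_neg (Ne.symm hl)] at this
      have e : (n : k) + ((-Pi.single i 1 : Z2) l : k) = n := by simp [hl]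
      rw [e] at this
      exact sh_eq_zero ((mul_eq_zero.1 this).resolve_right (X_ne_zero i))

lemma div_y (i : Fin 2) {b : ℤ} {a : D k} (h1 : ∀ α, co α a ∈ F k (b + 1))
    (h : ∀ α, ev k i 0 (co α a) = 0) : ∃ c : D k, (∀ α, co α c ∈ F k b) ∧ a = c * y k i := by
  have : ∀ α, ∃ r ∈ F k b, co α a = r * X i := fun α => by
    obtain ⟨q, hq, e⟩ := exists_div i 0 (h1 α)
    refine ⟨q, by simpa using hq, ?_⟩
    rw [h α] at e
    rw [e]; simp [mul_comm]
  choose r hr e using this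
  refine ⟨∑ α ∈ supp a, sg (α + Pi.single i 1) (sh k (Pi.single i 1) (r α)), fun β => ?_, ?_⟩
  · rw [map_sum]
    refine Submodule.sum_mem _ fun α _ => ?_
    rw [co_sg]
    split_ifs
    · exact sh_mem_F _ (hr α)
    · exact zero_mem _
  · rw [Finset.sum_mul]
    conv_lhs => rw [← sum_sg a]
    refine Finset.sum_congr rfl fun α _ => ?_
    rw [y, sg_mul_sg, sh_sh, add_neg_cancel, sh_zero, add_neg_cancel_right, e]

lemma ev_ev (p : R k) : ev k 1 0 (ev k 0 0 p) = C (aeval (fun _ => (0 : k)) p) := by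
  have : (ev k 1 0).comp (ev k 0 0)
      = (Algebra.ofId k (R k)).comp (aeval (fun _ => (0 : k))) := by
    ext l : 1
    fin_cases l <;> simp [ev_X]
  exact congrArg (fun f : R k →ₐ[k] R k => f p) this

lemma incV_v0 : incV k (v0 k) = 1 := D_ext fun γ => by
  rw [co_incV, v0, cv_sv, one_eq, co_sg]
  split_ifs <;> simp

/-- substitute zero for the first Euler operator in every coefficient -/
noncomputable def ev0 (a : D k) : D k := Finsupp.mapRange (ev k 0 0) (map_zero _) a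

lemma co_ev0 (a : D k) (α : Z2) : co α (ev0 a) = ev k 0 0 (co α a) := rfl

lemma ev0_mem {d : ℤ × ℤ} {a : D k} (ha : a ∈ Fam k 0 d) : ev0 a ∈ Fam k 0 d := by
  intro α
  obtain ⟨h1, h2, h3, h4⟩ := ha α
  rw [co_ev0]
  refine ⟨ev_mem_F _ _ h1, fun h => by rw [h2 h, map_zero],
    fun i hi h => by rw [h3 i hi h, map_zero], fun i hi n hn hn' => ?_⟩
  by_cases h : i = 0
  · subst h
    have := h4 0 rfl 0 le_rfl (by omega)
    rw [Int.cast_zero] at this
    rw [this, map_zero]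
  · rw [ev_comm _ _ h, h4 i hi n hn hn', map_zero]

end KosAux

open KosAux

lemma kosx_inj {a : D k} (i : Fin 2) (h : a * x k i = 0) : a = 0 := by
  rw [← mul_one a, ← x_xi i, ← mul_assoc, h, zero_mul]

lemma kosx_mid {j b : ℤ} {a₀ a₁ : D k} (h₀ : a₀ ∈ Fam k 0 (j + 1, b))
    (h₁ : a₁ ∈ Fam k 0 (j + 1, b)) (h : a₀ * x k 0 + a₁ * x k 1 = 0) :
    ∃ c ∈ Fam k 0 (j, b), a₀ = c * x k 1 ∧ a₁ = -(c * x k 0) := by
  have e₀ : a₀ = a₀ * xi k 1 * x k 1 := by rw [mul_assoc, xi_x, mul_one]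
  have e₁ : a₁ = -(a₀ * xi k 1 * x k 0) := by
    rw [← add_eq_zero_iff_eq_neg]
    apply kosx_inj 1
    rw [add_mul, mul_assoc (a₀ * xi k 1), x_x 0 1, ← mul_assoc, ← e₀, add_comm, h]
  have e₂ : a₀ * xi k 1 = -(a₁ * xi k 0) := by
    rw [e₁, neg_mul, neg_neg, mul_assoc (a₀ * xi k 1), x_xi, mul_one]
  refine ⟨a₀ * xi k 1, mem_Fam_of_dir (xi_F h₀ 1) (xi_wt h₀ 1) fun l => ?_, e₀, e₁⟩
  by_cases hl : l = 1
  · rw [e₂]; exact (xi_dir h₁ (by rw [hl]; decide)).neg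
  · exact xi_dir h₀ hl

lemma kosx_surj {j b : ℤ} (hj : 0 ≤ j) {a : D k} (ha : a ∈ Fam k 0 (j + 1, b)) :
    ∃ a₀ ∈ Fam k 0 (j, b), ∃ a₁ ∈ Fam k 0 (j, b), a = a₀ * x k 0 + a₁ * x k 1 := by
  refine ⟨flt (fun α => 1 ≤ α 0) a * xi k 0, xi_mem (flt_mem _ ha) 0 fun α hα => ?_,
    flt (fun α => ¬ 1 ≤ α 0) a * xi k 1, xi_mem (flt_mem _ ha) 1 fun α hα => ?_, ?_⟩
  · rw [co_flt, if_neg (by omega)]
  · rw [co_flt]
    split_ifs with h
    · rfl
    · exact (ha α).2.1 (by simp; omega)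
  · rw [mul_assoc, mul_assoc, xi_x, xi_x, mul_one, mul_one]
    refine D_ext fun α => ?_
    rw [map_add, co_flt, co_flt]
    split_ifs <;> simp

lemma kosy_inj {a : D k} (i : Fin 2) (h : a * y k i = 0) : a = 0 := D_ext fun α => by
  have := co_sub_mul_y a i α
  rw [h, map_zero] at this
  rw [map_zero]
  exact sh_eq_zero ((mul_eq_zero.1 this.symm).resolve_right (X_ne_zero i))

lemma kosy_mid [CharZero k] {j b : ℤ} {a₀ a₁ : D k} (h₀ : a₀ ∈ Fam k 0 (j, b + 1))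
    (h₁ : a₁ ∈ Fam k 0 (j, b + 1)) (h : a₀ * y k 0 + a₁ * y k 1 = 0) :
    ∃ c ∈ Fam k 0 (j + 1, b), a₀ = c * y k 1 ∧ a₁ = -(c * y k 0) := by
  have _h₁ := h₁
  obtain ⟨c, hc, e⟩ := div_y 1 (a := a₀) (b := b) (fun α => (h₀ α).1) fun α => by
    have := congrArg (fun z => ev k 1 0 (co (α - Pi.single 0 1) z)) h
    simp only [map_add, map_zero] at this
    rw [co_sub_mul_y, co_mul_y, map_mul, map_mul, ev_X_self, ev_X, if_neg (by decide), ev_sh,
      map_zero, mul_zero, add_zero] at this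
    have e : (0 : k) + ((-Pi.single 0 1 : Z2) 1 : k) = 0 := by simp
    rw [e] at this
    exact sh_eq_zero ((mul_eq_zero.1 this).resolve_right (X_ne_zero 0))
  refine ⟨c, mem_of_mul_y 1 (e ▸ h₀) hc, e, ?_⟩
  rw [← add_eq_zero_iff_eq_neg]
  apply kosy_inj 1
  rw [add_mul, mul_assoc c, y_y, ← mul_assoc, ← e, add_comm, h]

lemma kosy_ex [CharZero k] {j b : ℤ} {a : D k} (ha : a ∈ Fam k 0 (j, b + 1))
    (h : a • v0 k = 0) :
    ∃ a₀ ∈ Fam k 0 (j + 1, b), ∃ a₁ ∈ Fam k 0 (j + 1, b), a = a₀ * y k 0 + a₁ * y k 1 := by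
  rw [V_smul_def, incV_v0, mul_one] at h
  have h₁ := ev0_mem ha
  have h₀ := sub_mem ha h₁
  obtain ⟨c₀, hc₀, e₀⟩ := div_y 0 (a := a - ev0 a) (b := b) (fun α => (h₀ α).1) fun α => by
    rw [map_sub, map_sub, co_ev0, ev_ev_self, sub_self]
  obtain ⟨c₁, hc₁, e₁⟩ := div_y 1 (a := ev0 a) (b := b) (fun α => (h₁ α).1) fun α => by
    rw [co_ev0, ev_ev, ← cv_evV, h, map_zero, map_zero]
  exact ⟨c₀, mem_of_mul_y 0 (e₀ ▸ h₀) hc₀, c₁, mem_of_mul_y 1 (e₁ ▸ h₁) hc₁,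
    by rw [← e₀, ← e₁, sub_add_cancel]⟩

end Vale.Agent.P195
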