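import Vale.Agent.P195.Mods

/-!
Homomorphisms and extensions from the line bundle modules into good targets.
-/

namespace Vale.Agent.P195

open Vale.Agent.P176

section Per

variable {Γ : Type} [Ring Γ] {P X Y : Type} [AddCommGroup P] [Module Γ P] [AddCommGroup X]
  [Module Γ X] [AddCommGroup Y] [Module Γ Y]

/-- a module with an exact square-zero endomorphism whose image contains `X` as a summand -/
structure IsPer (K : P →ₗ[Γ] P) (aug : P →ₗ[Γ] X) (inc : X →ₗ[Γ] P) : Prop where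
  sq : ∀ z, K (K z) = 0
  ex : ∀ z, K z = 0 → ∃ z', K z' = z
  ker : ∀ z, K z = 0 → aug z = 0
  sec : ∀ w, ∃ z, aug z = w ∧ K z = inc w

variable {K : P →ₗ[Γ] P} {aug : P →ₗ[Γ] X} {inc : X →ₗ[Γ] P}

lemma IsPer.ses (h : IsPer K aug inc) : SES (LinearMap.range K).subtype K.rangeRestrict where
  inj := Subtype.val_injective
  exact z := by
    constructor
    · intro e
      obtain ⟨z', hz'⟩ := h.ex z (congrArg Subtype.val e)
      exact ⟨⟨z, z', hz'⟩, rfl⟩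
    · rintro ⟨⟨_, z', rfl⟩, rfl⟩
      exact Subtype.ext (h.sq z')
  surj := K.surjective_rangeRestrict

lemma IsPer.retract (h : IsPer K aug inc) :
    ∃ (i : X →ₗ[Γ] LinearMap.range K) (r : LinearMap.range K →ₗ[Γ] X), ∀ w, r (i w) = w := by
  refine ⟨inc.codRestrict _ fun w => (h.sec w).imp fun _ hz => hz.2,
    (LinearMap.ker K).liftQ aug h.ker ∘ₗ K.quotKerEquivRange.symm.toLinearMap, fun w => ?_⟩
  obtain ⟨z, hz, hz'⟩ := h.sec w
  have : (inc.codRestrict _ fun w => (h.sec w).imp fun _ hz => hz.2) w =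
      K.quotKerEquivRange (Submodule.Quotient.mk z) := Subtype.ext hz'.symm
  rw [this, LinearMap.comp_apply, LinearEquiv.coe_coe, LinearEquiv.symm_apply_apply]
  exact hz

lemma IsPer.left (h : IsPer K aug inc) [Module.Projective Γ P]
    (hext : ∀ φ : P →ₗ[Γ] Y, φ ∘ₗ K = 0 → ∃ ψ : P →ₗ[Γ] Y, ψ ∘ₗ K = φ) (n : ℕ) :
    Van Γ X Y (n + 1) := by
  obtain ⟨i, r, hr⟩ := h.retract
  refine Van.of_retract i r hr ?_
  induction n with
  | zero =>
    refine h.ses.van₃_one (fun φ => ?_) (van_projective _)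
    obtain ⟨ψ, hψ⟩ := hext (φ ∘ₗ K.rangeRestrict) (LinearMap.ext fun z => by
      have : K.rangeRestrict (K z) = 0 := Subtype.ext (h.sq z)
      simp [this])
    refine ⟨ψ, LinearMap.ext ?_⟩
    rintro ⟨_, z, rfl⟩
    exact LinearMap.congr_fun hψ z
  | succ n ih => exact h.ses.van₃ ih (van_projective _)

lemma IsPer.right (h : IsPer K aug inc) (hY : ∀ n, Van Γ Y P n) (n : ℕ) : Van Γ Y X n := by
  obtain ⟨i, r, hr⟩ := h.retract
  refine cov_retract i r hr ?_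
  induction n with
  | zero => exact cov₁_zero h.ses (hY 0)
  | succ n ih => exact cov₁ h.ses ih (hY _)

end Per

variable {k : Type} [Field k]

section Ex

variable {V Q : Type} [AddCommGroup V] [Module (B k) V] [AddCommGroup Q] [Module (B k) Q]
  {L : Log (der k) V Q} (Φ : Fam4 L)

lemma Fam4.ι₁ {d : ℤ × ℤ} {v : V} (hv : v ∈ Φ.GV d) : L.ι v ∈ Φ.G₁ d := by
  have := Φ.h₁V (one_mem_FB _ le_rfl) hv
  rwa [one_smul, Prod.mk_zero_zero, zero_add] at this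

lemma Fam4.ι₂ {d : ℤ × ℤ} {v : V} (hv : v ∈ Φ.GV d) : L.ι v ∈ Φ.G₂ d := by
  have := Φ.h₂V (one_mem_FB _ le_rfl) hv
  rwa [one_smul, Prod.mk_zero_zero, zero_add] at this

/-- exactness of the Cech complex in the degrees of the vertices -/
structure Fam4.Ex : Prop where
  inj : ∀ v, L.ι v = 0 → v = 0
  inf : ∀ d n, n ∈ Φ.G₁ d → n ∈ Φ.G₂ d → ∃ v ∈ Φ.GV d, L.ι v = n
  sup : ∀ w, ∀ n ∈ Φ.GQ (deg w), ∃ n₁ ∈ Φ.G₁ (deg w), ∃ n₂ ∈ Φ.G₂ (deg w), n = n₁ - n₂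

lemma Fam4.κR_mem (d : ℤ × ℤ) (z : TM L) (hz : z ∈ Φ.G d) : κR L z ∈ Φ.G d := by
  obtain ⟨g1, -, g3, g4, -, -, g7, g8⟩ := hz
  exact ⟨zero_mem _, sub_mem (Φ.le₁ g3) (Φ.le₂ g4), Φ.ι₁ g1, Φ.ι₂ g1, g7, g8, zero_mem _,
    zero_mem _⟩

/-- the right action of `κ` on the module of a family -/
noncomputable def Fam4.K : MM Φ.filt →ₗ[Gam k] MM Φ.filt := MMmap _ _ (κR L) Φ.κR_mem

lemma Fam4.K_e (z : MM Φ.filt) (v : W) : (Φ.K z).e v = κR L (z.e v) := rfl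

lemma Fam4.K_K (z : MM Φ.filt) : Φ.K (Φ.K z) = 0 := MM.ext fun v => by
  rw [Fam4.K_e, Fam4.K_e]; ext <;> simp [κR_apply]

variable {Φ}

lemma Fam4.Ex.κR (h : Φ.Ex) (w : W) {z : TM L} (hz : z ∈ Φ.G (deg w)) (e : κR L z = 0) :
    ∃ z' ∈ Φ.G (deg w), κR L z' = z := by
  obtain ⟨-, g2, g3, g4, g5, g6, -, -⟩ := hz
  have e1 : z.m₁ = z.m₂ := sub_eq_zero.1 (congrArg TM.p e)
  have e2 : z.a = 0 := h.inj _ (congrArg TM.m₁ e)
  have e3 : z.c = 0 := congrArg TM.b e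
  have e4 : z.r = 0 := congrArg TM.q e
  obtain ⟨v, hv, ev⟩ := h.inf _ _ g3 (e1 ▸ g4)
  obtain ⟨n₁, h₁, n₂, h₂, en⟩ := h.sup w _ g2
  refine ⟨TM.mk v 0 n₁ n₂ 0 0 z.b z.q,
    ⟨hv, zero_mem _, h₁, h₂, zero_mem _, zero_mem _, g5, g6⟩, ?_⟩
  ext <;> simp [κR_apply, e2, e3, e4, ev, en, e1]

lemma Fam4.Ex.K (h : Φ.Ex) (z : MM Φ.filt) (e : Φ.K z = 0) : ∃ z', Φ.K z' = z := by
  choose q hq hq' using fun v => h.κR v (z.mem v) (congrArg (fun x : MM Φ.filt => x.e v) e)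
  exact ⟨MM.mk q hq, MM.ext hq'⟩

lemma Fam4.Ex.κL (h : Φ.Ex) (w : W) {z : TM L} (hz : z ∈ Φ.G (deg w)) (e : κ (der k) • z = 0) :
    ∃ z' ∈ Φ.G (deg w), κ (der k) • z' = z := by
  obtain ⟨-, -, g3, g4, g5, g6, -, g8⟩ := hz
  rw [κ_smul] at e
  have e1 : z.m₁ = z.m₂ := sub_eq_zero.1 (congrArg TM.r e)
  have e2 : z.c = 0 := h.inj _ (congrArg TM.m₁ e)
  have e3 : z.a = 0 := congrArg TM.b e
  have e4 : z.p = 0 := congrArg TM.q e
  obtain ⟨v, hv, ev⟩ := h.inf _ _ g3 (e1 ▸ g4)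
  obtain ⟨n₁, h₁, n₂, h₂, en⟩ := h.sup w _ g8
  refine ⟨TM.mk z.b z.q n₁ n₂ 0 0 v 0,
    ⟨g5, g6, h₁, h₂, zero_mem _, zero_mem _, hv, zero_mem _⟩, ?_⟩
  rw [κ_smul]
  ext <;> simp [e2, e3, e4, ev, en, e1]

end Ex

lemma vec_inf (a b a' b' : ℕ) : (![a, b] ⊓ ![a', b'] : Fin 2 → ℕ) = ![min a a', min b b'] := by
  ext i; fin_cases i <;> rfl

lemma regF_ex (s₀ s₁ : ℕ) {u : ℤ × ℤ} (hu : u.1 ≤ 1) : (regF k s₀ s₁ u).Ex where
  inj _ h := h
  inf d n h₁ h₂ := ⟨n, by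
    have := FB_inf h₁ h₂
    rwa [vec_inf, min_eq_right (le_max_left _ _), min_eq_left (le_max_left _ _)] at this, rfl⟩
  sup w n hn := by
    obtain ⟨a₀, h₀, a₁, h₁, e⟩ := FB_split
      (by have := deg_fst_nonneg w; simp only [Prod.fst_sub]; omega) hn
    exact ⟨a₁, FB_mono (vec_le (by simp) (by omega)) h₁, -a₀,
      neg_mem (FB_mono (vec_le (by omega) (by simp)) h₀), by rw [e]; abel⟩

/-- scalar matrices -/
noncomputable def diagG (t : Tk k) (ht : t ∈ TF k 0) : Gam k :=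
  Gam.mk (Matrix.diagonal fun _ => t) fun v w => by
    rw [Matrix.diagonal_apply]
    split_ifs with h
    · subst h; rw [sub_self]; exact ht
    · exact zero_mem _

lemma diagG_smul_e {U : Type} [AddCommGroup U] [Module (Tk k) U] {Z : Filt k U} (t : Tk k) (ht)
    (z : MM Z) (v : W) : (diagG t ht • z).e v = t • z.e v := by
  simp [MM.smul_e, diagG, Matrix.diagonal_apply]

lemma e₁_mem_TF : e₁ (der k) ∈ TF k 0 :=
  ⟨one_mem_FB _ le_rfl, zero_mem _, zero_mem _, zero_mem _, zero_mem _,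
    zero_mem _, zero_mem _, zero_mem _⟩

lemma δ_mem_TF : δ (der k) ∈ TF k 0 :=
  ⟨zero_mem _, zero_mem _, zero_mem _, zero_mem _, one_mem_FB _ le_rfl,
    zero_mem _, zero_mem _, zero_mem _⟩

/-- identification with dual numbers -/
def toB (z : Z1 k (D k)) : B k := B.mk z.f z.s

/-- identification with dual numbers -/
def ofB (b : B k) : Z1 k (D k) := Z1.mk b.f b.s

@[simp] lemma toB_f (z : Z1 k (D k)) : (toB z).f = z.f := rfl
@[simp] lemma toB_s (z : Z1 k (D k)) : (toB z).s = z.s := rfl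
@[simp] lemma ofB_f (z : B k) : (ofB z).f = z.f := rfl
@[simp] lemma ofB_s (z : B k) : (ofB z).s = z.s := rfl

lemma toB_smul (t : Tk k) (z : Z1 k (D k)) : toB (t • z) = T.π t * toB z := by
  ext <;> simp [T.π_apply]

lemma toB_add (z w : Z1 k (D k)) : toB (z + w) = toB z + toB w := rfl

lemma toB_mem {u d : ℤ × ℤ} {z : Z1 k (D k)} (hz : z ∈ (AF k u).z1.G d) :
    toB z ∈ FB k ![0, 0] (d - u) := by
  rw [vec_zero]
  exact ⟨hz.1, Fam_cast hz.2 (by simp; omega) (by simp)⟩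

lemma ofB_mem {u d : ℤ × ℤ} {b : B k} (hb : b ∈ FB k ![0, 0] (d - u)) :
    ofB b ∈ (AF k u).z1.G d := by
  rw [vec_zero] at hb
  exact ⟨hb.1, Fam_cast hb.2 (by simp; omega) (by simp)⟩

variable (k) in
/-- the augmentation -/
noncomputable def augT : TM (regL (der k)) →ₗ[Tk k] Z1 k (D k) where
  toFun z := ofB z.a
  map_add' _ _ := rfl
  map_smul' t z := by ext <;> simp [TM.smul_def, act]

variable (k) in
/-- the kernel of the crossed module -/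
noncomputable def incT : Z1 k (D k) →ₗ[Tk k] TM (regL (der k)) where
  toFun z := TM.mk 0 0 (toB z) (toB z) 0 0 0 0
  map_add' z w := by ext <;> simp
  map_smul' t z := by ext <;> simp [TM.smul_def, act]

variable (k) in
/-- the line bundle modules over the dual numbers -/
abbrev J (u : ℤ × ℤ) : Type := MM (AF k u).z1

variable (k) in
/-- the line bundle modules -/
abbrev LL (u : ℤ × ℤ) : Type := MM (AF k u).z0

variable (k) in
/-- the augmentation -/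
noncomputable def augP (u : ℤ × ℤ) : MM (PF k u) →ₗ[Gam k] J k u :=
  MMmap _ _ (augT k) fun _ _ hz => ofB_mem hz.1

lemma augP_e (u : ℤ × ℤ) (z : MM (PF k u)) (v : W) : (augP k u z).e v = ofB (z.e v).a := rfl

variable (k) in
/-- the kernel of the crossed module -/
noncomputable def incP (u : ℤ × ℤ) : J k u →ₗ[Gam k] MM (PF k u) :=
  MMmap _ _ (incT k) fun _ _ hz => ⟨zero_mem _, zero_mem _, (regF k 0 0 u).ι₁ (toB_mem hz),
    (regF k 0 0 u).ι₂ (toB_mem hz), zero_mem _, zero_mem _, zero_mem _, zero_mem _⟩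

/-- a lift along the augmentation -/
noncomputable def secP {u : ℤ × ℤ} (z : J k u) : MM (PF k u) :=
  MM.mk (fun v => TM.mk (toB (z.e v)) 0 0 0 0 0 0 0) fun v => ⟨toB_mem (z.mem v), zero_mem _,
    zero_mem _, zero_mem _, zero_mem _, zero_mem _, zero_mem _, zero_mem _⟩

lemma augP_secP {u : ℤ × ℤ} (z : J k u) : augP k u (secP z) = z := MM.ext fun _ => rfl

lemma isPer_P {u : ℤ × ℤ} (hu : u.1 ≤ 1) : IsPer (regF k 0 0 u).K (augP k u) (incP k u) where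
  sq := Fam4.K_K _
  ex := (regF_ex 0 0 hu).K
  ker z h := MM.ext fun v => by
    have : (z.e v).a = 0 := congrArg (fun x : MM (PF k u) => (x.e v).m₁) h
    rw [augP_e, this]; rfl
  sec w := ⟨secP w, augP_secP w, MM.ext fun v => by
    change κR _ (TM.mk (toB (w.e v)) 0 0 0 0 0 0 0) = TM.mk 0 0 (toB (w.e v)) (toB (w.e v)) 0 0 0 0
    ext <;> simp [κR_apply]⟩

section Target

variable {U H : Type} [AddCommGroup U] [Module (Tk k) U] [AddCommGroup H] [Module (B k) H]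

variable (H) in
/-- good targets -/
structure Target (Z : Filt k U) where
  /-- the degrees on the cycles -/
  G : ℤ × ℤ → AddSubgroup H
  /-- the inclusion of the cycles -/
  h : H →+ U
  /-- the invertible coordinate -/
  i : Fin 2
  h_smul : ∀ (t : Tk k) v, h (T.π t • v) = t • h v
  h_mem : ∀ {d v}, v ∈ G d → h v ∈ Z.G d
  smul_mem : ∀ {d d' b v}, b ∈ FB k ![0, 0] d → v ∈ G d' → b • v ∈ G (d + d')
  inj : ∀ {d v}, v ∈ G d → h v = 0 → v = 0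
  ker : ∀ w, ∀ z ∈ Z.G (deg w), e₁ (der k) • z = z → δ (der k) • z = 0 → ∃ v ∈ G (deg w), h v = z
  kap : ∀ w, ∀ z ∈ Z.G (deg w), κ (der k) • z = 0 → ∃ z' ∈ Z.G (deg w), κ (der k) • z' = z
  inv : ∀ {j b v}, v ∈ G (j + 1, b) → B.mk (xi k i) 0 • v ∈ G (j, b)

variable {Z : Filt k U} (τ : Target H Z)

/-- the map defined by a cycle -/
noncomputable def Target.φT (v : H) : Z1 k (D k) →ₗ[Tk k] U where
  toFun r := τ.h (toB r • v)
  map_add' r r' := by rw [toB_add, add_smul, map_add]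
  map_smul' t r := by rw [toB_smul, mul_smul, τ.h_smul]; rfl

/-- the map defined by a cycle -/
noncomputable def Target.φ (u : ℤ × ℤ) (v : H) (hv : v ∈ τ.G u) : J k u →ₗ[Gam k] MM Z :=
  MMmap _ _ (τ.φT v) fun d r hr => τ.h_mem (by simpa using τ.smul_mem (toB_mem hr) hv)

lemma Target.φ_e (u : ℤ × ℤ) (v : H) (hv) (r : J k u) (w : W) :
    (τ.φ u v hv r).e w = τ.h (toB (r.e w) • v) := rfl

lemma Target.mul_mem {u u' : ℤ × ℤ} {c : D k} (hc : c ∈ Fam k 0 (u - u')) {v : H}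
    (hv : v ∈ τ.G u') : B.mk c 0 • v ∈ τ.G u := by
  have := τ.smul_mem (mk_mem_FB (vec_zero ▸ hc)) hv
  rwa [sub_add_cancel] at this

lemma Target.φ_rm {u u' : ℤ × ℤ} {c : D k} (hc : c ∈ Fam k 0 (u - u')) (v : H) (hv)
    (r : J k u) : τ.φ u' v hv ((isF_rm hc).ρ1 r) = τ.φ u (B.mk c 0 • v) (τ.mul_mem hc hv) r :=
  MM.ext fun w => by
    rw [τ.φ_e, τ.φ_e, ← mul_smul]
    congr 2
    ext <;> simp

lemma Target.φ_add (u : ℤ × ℤ) (v v' : H) (hv hv') (r : J k u) :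
    τ.φ u (v + v') (add_mem hv hv') r = τ.φ u v hv r + τ.φ u v' hv' r :=
  MM.ext fun w => by simp [τ.φ_e]

lemma Target.φ_congr (u : ℤ × ℤ) {v v' : H} (e : v = v') (hv hv') :
    τ.φ u v hv = τ.φ u v' hv' := by subst e; rfl

lemma Target.φ_zero (u : ℤ × ℤ) (hv) : τ.φ u 0 hv = 0 :=
  LinearMap.ext fun r => MM.ext fun w => by simp [τ.φ_e]

/-- the three properties -/
structure Target.KP (u : ℤ × ℤ) : Prop where
  van : ∀ n, Van (Gam k) (J k u) (MM Z) (n + 1)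
  surj : ∀ ψ : J k u →ₗ[Gam k] MM Z, ∃ v hv, ψ = τ.φ u v hv
  inj : ∀ v hv, τ.φ u v hv = 0 → v = 0

lemma Target.kp_base (w : W) : τ.KP (deg w) where
  van := (isPer_P (deg_fst_le w)).left fun ψ hψ => by
    obtain ⟨z, hz, rfl⟩ := exists_evP w ψ
    have hK : ∀ (z' : U) hz' (s : MM (PF k (deg w))) v,
        (evP Z (deg w) z' hz' ((regF k 0 0 (deg w)).K s)).e v = (s.e v).t • κ (der k) • z' := by
      intro z' hz' s v
      rw [evP_e, Fam4.K_e, ← evT_κ, ← mul_smul]; rfl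
    have h1 : κ (der k) • z = 0 := by
      have := congrArg (fun x : MM Z => x.e w) (LinearMap.congr_fun hψ (colOut w 1))
      simp only [LinearMap.comp_apply, hK, colOut_e, map_one, Matrix.one_apply_eq, T.t_o,
        one_smul] at this
      exact this
    obtain ⟨z', hz', e⟩ := τ.kap w z hz h1
    exact ⟨evP Z _ z' hz', LinearMap.ext fun s => MM.ext fun v => by
      rw [LinearMap.comp_apply, hK, e, evP_e]⟩
  surj ψ := by
    obtain ⟨z, hz, e⟩ := exists_evP w (ψ ∘ₗ augP k _)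
    have ez : (ψ (augP k _ (colOut w 1))).e w = z := by
      rw [← evP_gen Z w z hz, ← e]; rfl
    have h1 : e₁ (der k) • z = z := by
      rw [← ez, ← diagG_smul_e _ e₁_mem_TF, ← map_smul]
      congr 2
      exact MM.ext fun v => by rw [diagG_smul_e]; ext <;> simp [e₁]
    have h2 : δ (der k) • z = 0 := by
      rw [← ez, ← diagG_smul_e _ δ_mem_TF, ← map_smul]
      have : diagG _ δ_mem_TF • augP k _ (colOut w 1) = 0 :=
        MM.ext fun v => by rw [diagG_smul_e]; ext <;> simp [δ]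
      rw [this, map_zero]; rfl
    obtain ⟨v, hv, rfl⟩ := τ.ker w z hz h1 h2
    refine ⟨v, hv, LinearMap.ext fun r => MM.ext fun w' => ?_⟩
    rw [← augP_secP r, ← LinearMap.comp_apply, e, evP_e, ← τ.h_smul]; rfl
  inj v hv e := by
    have := congrArg (fun x : MM Z => x.e w) (LinearMap.congr_fun e (augP k _ (colOut w 1)))
    simp only [τ.φ_e, augP_e, colOut_e, map_one, Matrix.one_apply_eq] at this
    exact τ.inj hv (by simpa using (congrArg τ.h (one_smul (B k) v)).symm.trans this)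

lemma mk_mul_mk (a b : D k) : B.mk a 0 * B.mk b 0 = B.mk (a * b) 0 := by ext <;> simp

lemma mk_one : B.mk (1 : D k) 0 = 1 := rfl

lemma mk_neg (a : D k) : B.mk (-a) 0 = -B.mk a 0 := by ext <;> simp

lemma xi_x_smul (i : Fin 2) (v : H) : B.mk (xi k i) 0 • B.mk (x k i) 0 • v = v := by
  rw [← mul_smul, mk_mul_mk, xi_mul_x, mk_one, one_smul]

lemma x_xi_smul (i : Fin 2) (v : H) : B.mk (x k i) 0 • B.mk (xi k i) 0 • v = v := by
  rw [← mul_smul, mk_mul_mk, x_mul_xi, mk_one, one_smul]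

lemma x_xi_smul_comm (i j : Fin 2) (v : H) :
    B.mk (x k j) 0 • B.mk (xi k i) 0 • v = B.mk (xi k i) 0 • B.mk (x k j) 0 • v := by
  rw [← mul_smul, ← mul_smul, mk_mul_mk, mk_mul_mk, xi_x_comm]

lemma Target.kp_step {j : ℤ} (hj : j ≤ -1) (b : ℤ) (h2 : τ.KP (j + 1 + 1, b))
    (h1 : τ.KP (j + 1, b)) : τ.KP (j, b) where
  van n := by
    refine (?_ : ∀ n, Van (Gam k) (J k (j, b)) (MM Z) (n + 1)) n
    rintro (_ | n)
    · refine (kosX hj b).ses1.van₃_one (fun ψ => ?_) (van_prod_left (h1.van 0) (h1.van 0))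
      obtain ⟨v, hv, rfl⟩ := h2.surj ψ
      have hi := τ.inv hv
      by_cases h : τ.i = 0
      · rw [h] at hi
        refine ⟨(0 : J k (j + 1, b) →ₗ[Gam k] MM Z).coprod (τ.φ _ _ (neg_mem hi)),
          LinearMap.ext fun r => ?_⟩
        simp only [LinearMap.comp_apply, LinearMap.prod_apply, Function.prod, LinearMap.coprod_apply,
          LinearMap.zero_apply, zero_add]
        rw [τ.φ_rm (neg_mem (x_mem' 0 _ _))]
        exact LinearMap.congr_fun (τ.φ_congr _ (by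
          rw [mk_neg, neg_smul, smul_neg, neg_neg, x_xi_smul]) _ _) r
      · rw [show τ.i = 1 by omega] at hi
        refine ⟨(τ.φ _ _ hi).coprod (0 : J k (j + 1, b) →ₗ[Gam k] MM Z),
          LinearMap.ext fun r => ?_⟩
        simp only [LinearMap.comp_apply, LinearMap.prod_apply, Function.prod, LinearMap.coprod_apply,
          LinearMap.zero_apply, add_zero]
        rw [τ.φ_rm (x_mem' 1 _ _)]
        exact LinearMap.congr_fun (τ.φ_congr _ (x_xi_smul 1 v) _ _) r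
    · exact (kosX hj b).ses1.van₃ (h2.van n) (van_prod_left (h1.van _) (h1.van _))
  surj ψ := by
    obtain ⟨v₀, hv₀, e₀⟩ := h1.surj (ψ ∘ₗ (kosX hj b).hg₀.ρ1)
    obtain ⟨v₁, hv₁, e₁⟩ := h1.surj (ψ ∘ₗ (kosX hj b).hg₁.ρ1)
    have e : B.mk (x k 1) 0 • v₀ = B.mk (x k 0) 0 • v₁ := by
      rw [← sub_eq_zero, sub_eq_add_neg, ← neg_smul, ← mk_neg]
      refine h2.inj _ (add_mem (τ.mul_mem (x_mem' 1 _ _) hv₀)
        (τ.mul_mem (neg_mem (x_mem' 0 _ _)) hv₁)) (LinearMap.ext fun r => ?_)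
      rw [τ.φ_add _ _ _ (τ.mul_mem (x_mem' 1 _ _) hv₀) (τ.mul_mem (neg_mem (x_mem' 0 _ _)) hv₁),
        ← τ.φ_rm (x_mem' 1 _ _) v₀ hv₀, ← τ.φ_rm (neg_mem (x_mem' 0 _ _)) v₁ hv₁, ← e₀, ← e₁,
        LinearMap.comp_apply, LinearMap.comp_apply, ← map_add]
      exact (congrArg ψ ((kosX hj b).ses1.exact.apply_apply_eq_zero r)).trans (map_zero ψ)
    have key : ∃ v ∈ τ.G (j, b), B.mk (x k 0) 0 • v = v₀ ∧ B.mk (x k 1) 0 • v = v₁ := by
      by_cases h : τ.i = 0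
      · exact ⟨_, τ.inv hv₀, by rw [h, x_xi_smul], by rw [h, x_xi_smul_comm, e, xi_x_smul]⟩
      · have h' : τ.i = 1 := by omega
        exact ⟨_, τ.inv hv₁, by rw [h', x_xi_smul_comm, ← e, xi_x_smul], by rw [h', x_xi_smul]⟩
    obtain ⟨v, hv, rfl, rfl⟩ := key
    refine ⟨v, hv, LinearMap.ext fun r => ?_⟩
    obtain ⟨⟨r₀, r₁⟩, rfl⟩ := (kosX hj b).ses1.surj r
    rw [LinearMap.coprod_apply, map_add, map_add, τ.φ_rm (x_mem' 0 _ _), τ.φ_rm (x_mem' 1 _ _),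
      ← e₀, ← e₁]
    rfl
  inj v hv e := by
    have := h1.inj _ (τ.mul_mem (x_mem' τ.i _ _) hv) (LinearMap.ext fun r => by
      rw [← τ.φ_rm (x_mem' τ.i _ _) v hv, e]; rfl)
    rw [← xi_x_smul (k := k) τ.i v, this, smul_zero]

lemma Target.kp {j : ℤ} (hj : j ≤ 1) (b : Fin 3) : τ.KP (j, ((b : ℕ) : ℤ)) := by
  have : ∀ n : ℕ, τ.KP (-n + 1, ((b : ℕ) : ℤ)) ∧ τ.KP (-n, ((b : ℕ) : ℤ)) := by
    intro n
    induction n with
    | zero => exact ⟨τ.kp_base (1, b), τ.kp_base (0, b)⟩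
    | succ n ih =>
      have e : -((n + 1 : ℕ) : ℤ) + 1 = -n := by push_cast; ring
      refine ⟨e ▸ ih.2, τ.kp_step (by push_cast; omega) _ ?_ (e ▸ ih.2)⟩
      rw [e]; exact ih.1
  obtain ⟨n, hn⟩ := Int.eq_ofNat_of_zero_le (by omega : 0 ≤ 1 - j)
  rw [show j = -n + 1 by omega]
  exact (this n).1

variable (k) in
/-- the dual number -/
noncomputable def η : B k := B.mk 0 1

lemma η_mem : η k ∈ FB k ![0, 0] (-1, 0) := ⟨zero_mem _, one_mem_Fam _ le_rfl⟩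

lemma Target.η_mem' {j b : ℤ} {v : H} (hv : v ∈ τ.G (j, b)) : η k • v ∈ τ.G (j - 1, b) := by
  simpa [neg_add_eq_sub] using τ.smul_mem η_mem hv

lemma Target.φ_inc {j b : ℤ} (v : H) (hv) (r : J k (j - 1, b)) :
    τ.φ (j, b) v hv ((isSh_AF j b).inc ((AF k _).pr r)) = τ.φ _ (η k • v) (τ.η_mem' hv) r :=
  MM.ext fun w => by
    rw [τ.φ_e, τ.φ_e, ← mul_smul]
    congr 2
    ext
    · simp [η]; rfl
    · simp [η]; rfl

lemma Target.exists_pr {j : ℤ} (hj : j ≤ 1) (b : Fin 3)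
    (ψ : LL k (j, ((b : ℕ) : ℤ)) →ₗ[Gam k] MM Z) :
    ∃ v hv, η k • v = 0 ∧ ψ ∘ₗ (AF k _).pr = τ.φ _ v hv := by
  obtain ⟨v, hv, e⟩ := (τ.kp hj b).surj (ψ ∘ₗ (AF k _).pr)
  refine ⟨v, hv, (τ.kp (by omega) b).inj _ (τ.η_mem' hv) (LinearMap.ext fun r => ?_), e⟩
  rw [← τ.φ_inc v hv, ← e, LinearMap.comp_apply, (isSh_AF j _).ses.exact.apply_apply_eq_zero,
    map_zero]
  rfl

lemma Target.van_LL
    (hη : ∀ j b v, v ∈ τ.G (j - 1, b) → η k • v = 0 → ∃ v' ∈ τ.G (j, b), η k • v' = v)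
    (b : Fin 3) (n : ℕ) : ∀ j ≤ 1, Van (Gam k) (LL k (j, ((b : ℕ) : ℤ))) (MM Z) (n + 1) := by
  induction n with
  | zero =>
    intro j hj
    refine (isSh_AF j _).ses.van₃_one (fun ψ => ?_) ((τ.kp hj b).van 0)
    obtain ⟨v, hv, h0, e⟩ := τ.exists_pr (by omega) b ψ
    obtain ⟨v', hv', rfl⟩ := hη _ _ v hv h0
    refine ⟨τ.φ _ v' hv', LinearMap.ext fun r => ?_⟩
    obtain ⟨r, rfl⟩ := (isSh_AF (j - 1) _).ses.surj r
    rw [LinearMap.comp_apply, τ.φ_inc, ← e]; rfl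
  | succ n ih => exact fun j hj => (isSh_AF j _).ses.van₃ (ih _ (by omega)) ((τ.kp hj b).van _)

/-- the map defined by a cycle killed by the dual number -/
noncomputable def Target.φ0 (u : ℤ × ℤ) (v : H) (hv : v ∈ τ.G u) (h0 : η k • v = 0) :
    LL k u →ₗ[Gam k] MM Z :=
  MMmap _ _
    { toFun := fun r => τ.h (B.mk r.o 0 • v)
      map_add' := fun r r' => by
        rw [← map_add, ← add_smul]; congr 2; ext <;> simp
      map_smul' := fun t r => by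
        rw [RingHom.id_apply, ← τ.h_smul, ← mul_smul,
          show T.π t * B.mk r.o 0 = B.mk (t • r).o 0 + B.mk (t.o.a.s * r.o) 0 * η k by
            ext <;> simp [η, T.π_apply], add_smul, mul_smul, h0, smul_zero, add_zero] }
    fun _ _ hr => τ.h_mem (τ.mul_mem hr hv)

lemma Target.φ0_pr (u : ℤ × ℤ) (v : H) (hv h0) (r : J k u) :
    τ.φ0 u v hv h0 ((AF k u).pr r) = τ.φ u v hv r := MM.ext fun w => by
  change τ.h (B.mk (r.e w).f 0 • v) = τ.h (toB (r.e w) • v)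
  rw [show toB (r.e w) = B.mk (r.e w).f 0 + B.mk (r.e w).s 0 * η k by ext <;> simp [η],
    add_smul, mul_smul, h0, smul_zero, add_zero]

variable (k) in
/-- the modules of homogeneous polynomials -/
abbrev FF (m : ℤ) : Type := MM (VF k 0 m).z0

variable (k) in
/-- the induced modules -/
abbrev IF (m : ℤ) : Type := MM (VF k 0 m).z1

lemma Target.van_IF [CharZero k] {j : ℤ} (hj : j ≤ 1)
    (y0 : ∀ v ∈ τ.G (j, 0), B.mk (y k 0) 0 • v = 0 → B.mk (y k 1) 0 • v = 0 → v = 0)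
    (y1 : ∀ v₀ ∈ τ.G (j - 1, 0 + 1), ∀ v₁ ∈ τ.G (j - 1, 0 + 1),
      B.mk (y k 1) 0 • v₀ = B.mk (y k 0) 0 • v₁ →
      ∃ v ∈ τ.G (j, 0), B.mk (y k 0) 0 • v = v₀ ∧ B.mk (y k 1) 0 • v = v₁)
    (y2 : ∀ v ∈ τ.G (j - 1 - 1, 0 + 1 + 1), ∃ v₀ ∈ τ.G (j - 1, 0 + 1), ∃ v₁ ∈ τ.G (j - 1, 0 + 1),
      B.mk (y k 1) 0 • v₀ + B.mk (-y k 0) 0 • v₁ = v) (n : ℕ) :
    Van (Gam k) (IF k (-j)) (MM Z) n := by
  have k0 : τ.KP (j, 0) := τ.kp hj 0
  have k1 : τ.KP (j - 1, 0 + 1) := τ.kp (by omega) 1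
  have k2 : τ.KP (j - 1 - 1, 0 + 1 + 1) := τ.kp (by omega) 2
  have hg : ∀ (i : Fin 2) (h : IsF (AF k (j - 1, 0 + 1)) (KF k (j, 0)) (rm (y k i))) r,
      (sesV j).hf.ρ1 (h.ρ1 r) = (isF_rm (y_mem' i j 0)).ρ1 r := fun _ _ _ => MM.ext fun _ => rfl
  have hK : ∀ n, Van (Gam k) (MM (KF k (j, 0)).z1) (MM Z) (n + 1) := by
    rintro (_ | n)
    · refine (kosY j 0).ses1.van₃_one (fun ψ => ?_) (van_prod_left (k1.van 0) (k1.van 0))
      obtain ⟨v, hv, rfl⟩ := k2.surj ψ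
      obtain ⟨v₀, h₀, v₁, h₁, rfl⟩ := y2 v hv
      refine ⟨(τ.φ _ _ h₀).coprod (τ.φ _ _ h₁), LinearMap.ext fun r => ?_⟩
      simp only [LinearMap.comp_apply, LinearMap.prod_apply, Function.prod, LinearMap.coprod_apply]
      rw [τ.φ_rm (y_mem' 1 _ _), τ.φ_rm (neg_mem (y_mem' 0 _ _)), ← τ.φ_add]
    · exact (kosY j 0).ses1.van₃ (k2.van n) (van_prod_left (k1.van _) (k1.van _))
  rcases n with _ | _ | n
  · refine van_zero_iff.2 fun ψ => ?_
    obtain ⟨v, hv, e⟩ := k0.surj (ψ ∘ₗ (sesV j).hg.ρ1)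
    have h : ∀ (i : Fin 2) (h : IsF (AF k (j - 1, 0 + 1)) (KF k (j, 0)) (rm (y k i))),
        B.mk (y k i) 0 • v = 0 := fun i h =>
      k1.inj _ (τ.mul_mem (y_mem' i _ _) hv) (LinearMap.ext fun r => by
        rw [← τ.φ_rm (y_mem' i _ _) v hv, ← e, ← hg i h, LinearMap.comp_apply,
          (sesV j).ses1.exact.apply_apply_eq_zero, map_zero]; rfl)
    obtain rfl := y0 v hv (h 0 (kosY j 0).hg₀) (h 1 (kosY j 0).hg₁)
    refine LinearMap.ext fun r => ?_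
    obtain ⟨r, rfl⟩ := (sesV j).ses1.surj r
    exact (LinearMap.congr_fun e r).trans (LinearMap.congr_fun (τ.φ_zero _ _) r)
  · refine (sesV j).ses1.van₃_one (fun ψ => ?_) (k0.van 0)
    obtain ⟨v₀, hv₀, e₀⟩ := k1.surj (ψ ∘ₗ (kosY j 0).hg₀.ρ1)
    obtain ⟨v₁, hv₁, e₁⟩ := k1.surj (ψ ∘ₗ (kosY j 0).hg₁.ρ1)
    have e : B.mk (y k 1) 0 • v₀ = B.mk (y k 0) 0 • v₁ := by
      rw [← sub_eq_zero, sub_eq_add_neg, ← neg_smul, ← mk_neg]
      refine k2.inj _ (add_mem (τ.mul_mem (y_mem' 1 _ _) hv₀)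
        (τ.mul_mem (neg_mem (y_mem' 0 _ _)) hv₁)) (LinearMap.ext fun r => ?_)
      rw [τ.φ_add _ _ _ (τ.mul_mem (y_mem' 1 _ _) hv₀) (τ.mul_mem (neg_mem (y_mem' 0 _ _)) hv₁),
        ← τ.φ_rm (y_mem' 1 _ _) v₀ hv₀, ← τ.φ_rm (neg_mem (y_mem' 0 _ _)) v₁ hv₁, ← e₀, ← e₁,
        LinearMap.comp_apply, LinearMap.comp_apply, ← map_add]
      exact (congrArg ψ ((kosY j 0).ses1.exact.apply_apply_eq_zero r)).trans (map_zero ψ)
    obtain ⟨v, hv, rfl, rfl⟩ := y1 v₀ hv₀ v₁ hv₁ e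
    refine ⟨τ.φ _ v hv, LinearMap.ext fun r => ?_⟩
    obtain ⟨⟨r₀, r₁⟩, rfl⟩ := (kosY j 0).ses1.surj r
    rw [LinearMap.comp_apply, LinearMap.coprod_apply, map_add, map_add, map_add, hg, hg,
      τ.φ_rm (y_mem' 0 _ _), τ.φ_rm (y_mem' 1 _ _), ← e₀, ← e₁]
    rfl
  · exact (sesV j).ses1.van₃ (hK n) (k0.van _)

end Target

end Vale.Agent.P195
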