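import Vale.Agent.P195.V4

/-!
The counterexample.
-/

namespace Vale.Agent.P195

open Vale.Agent.P176 CategoryTheory Abelian

variable {k : Type} [Field k] [CharZero k]

lemma van_F_F_nonneg (n : ℕ) : ∀ m : ℤ, 0 ≤ m → Van (Gam k) (FF k m) (FF k (-1)) n := by
  have h : ∀ m : ℤ, 0 ≤ m → ∀ n, Van (Gam k) (IF k m) (FF k (-1)) n := fun m hm n => by
    have := van_IF_F (k := k) (j := -m) (by omega) n
    rwa [neg_neg] at this
  induction n with
  | zero => exact fun m hm => van₃_zero (isSh_VF 0 m).ses (h m hm 0)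
  | succ n ih => exact fun m hm => (isSh_VF 0 m).ses.van₃ (ih _ (by omega)) (h m hm _)

lemma van_F_F (n : ℕ) : Van (Gam k) (FF k (-1)) (FF k (-1)) (n + 1) :=
  (isSh_VF 0 (-1)).ses.van₃ (van_F_F_nonneg n _ (by norm_num)) (van_IF_F_one n)

omit [CharZero k] in
lemma κG_smul_F (w : FF k (-1)) : κG k • w = 0 := MM.ext fun v => Z0.ext <| by
  rw [κG_smul_e]
  exact zero_smul (D k) (w.e v).o

omit [CharZero k] in
lemma nontrivial_F : Nontrivial (FF k (-1)) := by
  refine ⟨MM.mk (fun v => if v.1 = 1 then Z0.mk (v0 k) else 0) fun v => ?_, 0, fun h => ?_⟩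
  · split_ifs with hv
    · have : (deg v).1 + -1 = 0 := by simp [deg, hv]
      rw [mem_z0, mem_VF, this]
      exact v0_mem 0
    · exact zero_mem _
  · exact v0_ne_zero (congrArg (fun x : FF k (-1) => (x.e (1, 0)).o) h)

variable (k) in
theorem main : ∃ M : ModuleCat.{0} (Gam k), Module.Finite (Gam k) M ∧
    ¬ Module.Projective (Gam k) M ∧ ∀ i : ℕ, 1 ≤ i → Subsingleton (Ext M M i) ∧
      Subsingleton (Ext M (ModuleCat.of (Gam k) (Gam k)) i) :=
  have := nontrivial_F (k := k)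
  criterion (P0π k) P0π_surjective (κG k) κG_mul_κG κG_exact κG_smul_F van_F_F van_F_P0 van_F_Gam

end Vale.Agent.P195
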