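import Vale.Agent.P195.Poly

/-!
The module of Laurent polynomials.
-/

namespace Vale.Agent.P195

open MvPolynomial

variable {k : Type} [Field k]

namespace VmodAux

lemma cv_smul (a : D k) (v : V k) (γ : Z2) : cv γ (a • v) = ∑ β ∈ supp (incV k v),
    aeval (fun _ => (0 : k)) (sh k β (co (γ - β) a)) * cv β v := by
  rw [V_smul_def, cv_evV, co_mul, map_sum]
  refine Finset.sum_congr rfl fun β _ => ?_
  rw [map_mul, co_incV]
  simp

lemma cv_sg_smul (α γ : Z2) (p : R k) (v : V k) :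
    cv γ (sg α p • v) = aeval (fun _ => (0 : k)) (sh k (γ - α) p) * cv (γ - α) v := by
  rw [V_smul_def, cv_evV, co_sg_mul, map_mul, co_incV]
  simp

lemma aeval_ev (i : Fin 2) (p : R k) :
    aeval (fun _ => (0 : k)) (ev k i 0 p) = aeval (fun _ => (0 : k)) p := by
  have : (aeval (fun _ => (0 : k)) : R k →ₐ[k] k).comp (ev k i 0) = aeval (fun _ => (0 : k)) := by
    ext j : 1
    simp only [AlgHom.comp_apply, ev_X]
    split_ifs <;> simp
  exact congrArg (fun f : R k →ₐ[k] k => f p) this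

lemma cv_xy (i : Fin 2) (v : V k) (γ : Z2) : cv γ (x k i • y k i • v) = (γ i : k) * cv γ v := by
  rw [x, y, cv_sg_smul, cv_sg_smul]
  have h : γ - Pi.single i 1 - -Pi.single i 1 = γ := by abel
  rw [h]
  simp

end VmodAux

open VmodAux

lemma FV_smul {s s' : Fin 2 → ℕ} (h : ∀ i, s' i = 0 → s i = 0) {d : ℤ × ℤ} {j : ℤ} {a : D k}
    {v : V k} (ha : a ∈ Fam k s d) (hv : v ∈ FV k s' j) : a • v ∈ FV k s' (d.1 + j) := by
  intro γ
  rw [cv_smul]
  refine ⟨fun hγ => Finset.sum_eq_zero fun β _ => ?_, fun i hi hγ => Finset.sum_eq_zero fun β _ => ?_⟩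
  · by_cases hβ : β 0 + β 1 = j
    · rw [(ha (γ - β)).2.1 (by simp only [Pi.sub_apply]; omega)]
      simp
    · rw [(hv β).1 hβ, mul_zero]
  · by_cases hβ : β i < 0
    · rw [(hv β).2 i hi hβ, mul_zero]
    · have h1 := (ha (γ - β)).2.2.2 i (h i hi) (β i) (by omega)
        (by simp only [Pi.sub_apply]; omega)
      rw [← aeval_ev i, ev_sh, zero_add, h1]
      simp

lemma FV_mono {s s' : Fin 2 → ℕ} (h : ∀ i, s' i = 0 → s i = 0) (j : ℤ) :
    FV k s j ≤ FV k s' j :=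
  fun _ hv γ => ⟨(hv γ).1, fun i hi => (hv γ).2 i (h i hi)⟩

lemma FV_inf {s s' : Fin 2 → ℕ} {j : ℤ} {v : V k} (hv : v ∈ FV k s j) (hv' : v ∈ FV k s' j) :
    v ∈ FV k (s ⊓ s') j := by
  refine fun γ => ⟨(hv γ).1, fun i hi hγ => ?_⟩
  rw [Pi.inf_apply] at hi
  by_cases h : s i = 0
  · exact (hv γ).2 i h hγ
  · exact (hv' γ).2 i (by omega) hγ

lemma FV_split {s : Fin 2 → ℕ} {j : ℤ} (hj : -1 ≤ j) {v : V k} (hv : v ∈ FV k s j) :
    ∃ v₀ ∈ FV k ![0, s 1] j, ∃ v₁ ∈ FV k ![s 0, 0] j, v = v₀ + v₁ := by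
  obtain ⟨w, hw⟩ : ∃ w : V k, ∀ γ, cv γ w = if 0 ≤ γ 0 then cv γ v else 0 :=
    ⟨Finsupp.filter (fun γ : Z2 => 0 ≤ γ 0) v,
      fun γ => Finsupp.filter_apply (fun γ : Z2 => 0 ≤ γ 0) (v : Z2 →₀ k) γ⟩
  refine ⟨w, fun γ => ⟨fun h => ?_, fun i hi h => ?_⟩, v - w,
    fun γ => ⟨fun h => ?_, fun i hi h => ?_⟩, by abel⟩
  · rw [hw, (hv γ).1 h, ite_self]
  · rw [hw]
    split_ifs with h0
    · fin_cases i
      · exact absurd h (not_lt.2 h0)
      · exact (hv γ).2 1 hi h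
    · rfl
  · rw [map_sub, hw, (hv γ).1 h, ite_self, sub_zero]
  · rw [map_sub, hw]
    split_ifs with h0
    · exact sub_self _
    · rw [sub_zero]
      fin_cases i
      · exact (hv γ).2 0 hi h
      · refine (hv γ).1 ?_
        have h1 : γ 1 < 0 := h
        omega

lemma xi_smul_mem_FV {s : Fin 2 → ℕ} (i : Fin 2) (hi : s i ≠ 0) {j : ℤ} {v : V k}
    (hv : v ∈ FV k s (j + 1)) : xi k i • v ∈ FV k s j := by
  intro γ
  rw [xi, cv_sg_smul]
  refine ⟨fun h => ?_, fun l hl h => ?_⟩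
  · rw [(hv _).1, mul_zero]
    fin_cases i <;> simp <;> omega
  · rw [(hv _).2 l hl, mul_zero]
    have h1 : l ≠ i := fun h => hi (h ▸ hl)
    simpa [h1] using h

lemma euler {s : Fin 2 → ℕ} {j : ℤ} {v : V k} (hv : v ∈ FV k s j) :
    x k 0 • y k 0 • v + x k 1 • y k 1 • v = (j : k) • v := by
  refine V_ext fun γ => ?_
  rw [map_add, cv_xy, cv_xy, map_smul, smul_eq_mul, ← add_mul]
  by_cases h : γ 0 + γ 1 = j
  · rw [← h, Int.cast_add]
  · rw [(hv γ).1 h, mul_zero, mul_zero]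

lemma v0_mem (s : Fin 2 → ℕ) : v0 k ∈ FV k s 0 := by
  intro γ
  rw [v0, cv_sv]
  refine ⟨fun h => if_neg ?_, fun i _ h => if_neg ?_⟩
  · rintro rfl
    simp at h
  · rintro rfl
    simp at h

lemma v0_ne_zero : v0 k ≠ 0 := by
  intro h
  have h1 := congrArg (cv 0) h
  rw [v0, cv_sv] at h1
  simp at h1

lemma y_smul_v0 (i : Fin 2) : y k i • v0 k = 0 := by
  refine V_ext fun γ => ?_
  rw [y, cv_sg_smul, v0, cv_sv]
  split_ifs with h
  · rw [← h]
    simp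
  · simp

lemma FV_neg {j : ℤ} (hj : j < 0) {v : V k} (hv : v ∈ FV k 0 j) : v = 0 := by
  refine V_ext fun γ => ?_
  rw [map_zero]
  by_cases h0 : γ 0 < 0
  · exact (hv γ).2 0 rfl h0
  by_cases h1 : γ 1 < 0
  · exact (hv γ).2 1 rfl h1
  exact (hv γ).1 (by omega)

lemma kosy_surj {j b : ℤ} (hb : 0 ≤ b) {v : V k} (hv : v ∈ FV k 0 j) :
    ∃ a ∈ Fam k 0 (j, b), a • v0 k = v := by
  refine ⟨incV k v, fun α => ?_, ?_⟩
  · rw [co_incV]
    refine ⟨C_mem_F hb _, fun h => by rw [(hv α).1 h, map_zero], fun i _ h => ?_,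
      fun i _ n h h' => ?_⟩
    · rw [(hv α).2 i rfl (by simp only at h; omega), map_zero]
    · rw [(hv α).2 i rfl (by omega), map_zero, map_zero]
  · have h1 : incV k (v0 k) = 1 := D_ext fun γ => by
      rw [co_incV, v0, cv_sv, one_eq, co_sg]
      split_ifs <;> simp
    rw [V_smul_def, h1, mul_one, evV_incV]

end Vale.Agent.P195
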