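import Vale.Agent.P195.Win
import Vale.Agent.P195.Kos
import Vale.Agent.P195.Vmod

/-!
Modules coming from filtered modules over the ring of regular operators, and their Koszul
sequences.
-/

namespace Vale.Agent.P195

open Vale.Agent.P176

variable {k : Type} [Field k]

/-- the first component as a ring map -/
noncomputable def B.fHom : B k →+* D k where
  toFun := B.f
  map_one' := rfl
  map_mul' _ _ := rfl
  map_zero' := rfl
  map_add' _ _ := rfl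

lemma vec_zero : (![0, 0] : Fin 2 → ℕ) = 0 := by ext i; fin_cases i <;> rfl

section

variable (k) (U : Type)

/-- a module on which the dual number acts by zero -/
def Z0 (_k : Type) (U : Type) : Type := U

/-- the module induced to the dual numbers -/
def Z1 (_k : Type) (U : Type) : Type := U × U

variable [AddCommGroup U] [Module (D k) U]

instance : AddCommGroup (Z0 k U) := inferInstanceAs (AddCommGroup U)
instance : AddCommGroup (Z1 k U) := inferInstanceAs (AddCommGroup (U × U))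

noncomputable instance : Module (B k) (Z0 k U) := Module.compHom U (B.fHom (k := k))
noncomputable instance : Module (Tk k) (Z0 k U) := Module.compHom (Z0 k U) (T.π (𝒟 := der k))

end

variable {U U₁ U₂ U₃ : Type} [AddCommGroup U] [Module (D k) U] [AddCommGroup U₁]
  [Module (D k) U₁] [AddCommGroup U₂] [Module (D k) U₂] [AddCommGroup U₃] [Module (D k) U₃]

/-- the underlying vector -/
def Z0.o (z : Z0 k U) : U := z
/-- constructor -/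
def Z0.mk (u : U) : Z0 k U := u
/-- first component -/
def Z1.f (z : Z1 k U) : U := z.1
/-- second component -/
def Z1.s (z : Z1 k U) : U := z.2
/-- constructor -/
def Z1.mk (u u' : U) : Z1 k U := (u, u')

section
omit [Field k] [Module (D k) U]
@[simp] lemma Z0.add_o (z w : Z0 k U) : (z + w).o = z.o + w.o := rfl
@[simp] lemma Z0.sub_o (z w : Z0 k U) : (z - w).o = z.o - w.o := rfl
@[simp] lemma Z0.neg_o (z : Z0 k U) : (-z).o = -z.o := rfl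
@[simp] lemma Z0.zero_o : (0 : Z0 k U).o = 0 := rfl
@[simp] lemma Z1.add_f (z w : Z1 k U) : (z + w).f = z.f + w.f := rfl
@[simp] lemma Z1.add_s (z w : Z1 k U) : (z + w).s = z.s + w.s := rfl
@[simp] lemma Z1.sub_f (z w : Z1 k U) : (z - w).f = z.f - w.f := rfl
@[simp] lemma Z1.sub_s (z w : Z1 k U) : (z - w).s = z.s - w.s := rfl
@[simp] lemma Z1.neg_f (z : Z1 k U) : (-z).f = -z.f := rfl
@[simp] lemma Z1.neg_s (z : Z1 k U) : (-z).s = -z.s := rfl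
@[simp] lemma Z1.zero_f : (0 : Z1 k U).f = 0 := rfl
@[simp] lemma Z1.zero_s : (0 : Z1 k U).s = 0 := rfl
omit [AddCommGroup U]
@[simp] lemma Z0.mk_o (u : U) : (Z0.mk u : Z0 k U).o = u := rfl
@[ext] lemma Z0.ext {z w : Z0 k U} (h : z.o = w.o) : z = w := h
@[simp] lemma Z1.mk_f (u u' : U) : (Z1.mk u u' : Z1 k U).f = u := rfl
@[simp] lemma Z1.mk_s (u u' : U) : (Z1.mk u u' : Z1 k U).s = u' := rfl
@[ext] lemma Z1.ext {z w : Z1 k U} (h : z.f = w.f) (h' : z.s = w.s) : z = w := Prod.ext h h'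
end

noncomputable instance : Module (B k) (Z1 k U) where
  smul b z := Z1.mk (b.f • z.f) (b.f • z.s + b.s • z.f)
  one_smul z := Z1.ext (one_smul _ z.f) (by
    change (1 : D k) • z.s + (0 : D k) • z.f = z.s
    simp)
  mul_smul a b z := Z1.ext (mul_smul a.f b.f z.f) (by
    change (a * b).f • z.s + (a * b).s • z.f = a.f • (b.f • z.s + b.s • z.f) + a.s • b.f • z.f
    simp only [B.mul_f, B.mul_s, mul_smul, add_smul, smul_add, add_assoc])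
  smul_zero a := Z1.ext (smul_zero a.f) (by
    change a.f • (0 : U) + a.s • (0 : U) = 0
    simp)
  smul_add a z w := Z1.ext (smul_add a.f z.f w.f) (by
    change a.f • (z.s + w.s) + a.s • (z.f + w.f) = a.f • z.s + a.s • z.f + (a.f • w.s + a.s • w.f)
    simp only [smul_add]; abel)
  add_smul a b z := Z1.ext (add_smul a.f b.f z.f) (by
    change (a.f + b.f) • z.s + (a.s + b.s) • z.f = a.f • z.s + a.s • z.f + (b.f • z.s + b.s • z.f)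
    simp only [add_smul]; abel)
  zero_smul z := Z1.ext (zero_smul _ z.f) (by
    change (0 : D k) • z.s + (0 : D k) • z.f = 0
    simp)

noncomputable instance : Module (Tk k) (Z1 k U) := Module.compHom (Z1 k U) (T.π (𝒟 := der k))

@[simp] lemma Z0.smul_o (b : B k) (z : Z0 k U) : (b • z).o = b.f • z.o := rfl
@[simp] lemma Z0.tsmul_o (t : Tk k) (z : Z0 k U) : (t • z).o = t.o.a.f • z.o := rfl
@[simp] lemma Z1.smul_f (b : B k) (z : Z1 k U) : (b • z).f = b.f • z.f := rfl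
@[simp] lemma Z1.smul_s (b : B k) (z : Z1 k U) : (b • z).s = b.f • z.s + b.s • z.f := rfl
@[simp] lemma Z1.tsmul_f (t : Tk k) (z : Z1 k U) : (t • z).f = t.o.a.f • z.f := rfl
@[simp] lemma Z1.tsmul_s (t : Tk k) (z : Z1 k U) :
    (t • z).s = t.o.a.f • z.s + t.o.a.s • z.f := rfl

variable (k U) in
/-- a family of subgroups compatible with the degrees of regular operators -/
structure DF where
  /-- the family -/
  G : ℤ × ℤ → AddSubgroup U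
  smul_mem : ∀ {d d' a u}, a ∈ Fam k 0 d → u ∈ G d' → a • u ∈ G (d + d')

lemma TF_f {d : ℤ × ℤ} {t : Tk k} (ht : t ∈ TF k d) : t.o.a.f ∈ Fam k 0 d := vec_zero ▸ ht.1.1

lemma TF_s {d : ℤ × ℤ} {t : Tk k} (ht : t ∈ TF k d) : t.o.a.s ∈ Fam k 0 (d + (1, 0)) :=
  vec_zero ▸ ht.1.2

/-- the filtration on the inflated module -/
noncomputable def DF.z0 (Z : DF k U) : Filt k (Z0 k U) where
  G d := Z.G d
  smul_mem ht hz := Z.smul_mem (TF_f ht) hz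

/-- the filtration on the induced module -/
noncomputable def DF.z1 (Z : DF k U) : Filt k (Z1 k U) where
  G d := (Z.G d).prod (Z.G (d + (1, 0)))
  smul_mem := by
    rintro d d' t z ht ⟨h1, h2⟩
    refine ⟨Z.smul_mem (TF_f ht) h1, add_mem ?_ ?_⟩
    · rw [add_assoc]; exact Z.smul_mem (TF_f ht) h2
    · rw [add_right_comm]; exact Z.smul_mem (TF_s ht) h1

lemma mem_z0 {Z : DF k U} {d : ℤ × ℤ} {z : Z0 k U} : z ∈ Z.z0.G d ↔ z.o ∈ Z.G d := Iff.rfl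

lemma mem_z1 {Z : DF k U} {d : ℤ × ℤ} {z : Z1 k U} :
    z ∈ Z.z1.G d ↔ z.f ∈ Z.G d ∧ z.s ∈ Z.G (d + (1, 0)) := Iff.rfl

/-- functoriality -/
noncomputable def map0 (f : U₁ →ₗ[D k] U₂) : Z0 k U₁ →ₗ[Tk k] Z0 k U₂ where
  toFun z := Z0.mk (f z.o)
  map_add' z w := by ext; simp
  map_smul' t z := by ext; simp

/-- functoriality -/
noncomputable def map1 (f : U₁ →ₗ[D k] U₂) : Z1 k U₁ →ₗ[Tk k] Z1 k U₂ where
  toFun z := Z1.mk (f z.f) (f z.s)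
  map_add' z w := by ext <;> simp
  map_smul' t z := by ext <;> simp

@[simp] lemma map0_o (f : U₁ →ₗ[D k] U₂) (z : Z0 k U₁) : (map0 f z).o = f z.o := rfl
@[simp] lemma map1_f (f : U₁ →ₗ[D k] U₂) (z : Z1 k U₁) : (map1 f z).f = f z.f := rfl
@[simp] lemma map1_s (f : U₁ →ₗ[D k] U₂) (z : Z1 k U₁) : (map1 f z).s = f z.s := rfl

/-- filtered maps -/
def IsF (Z₁ : DF k U₁) (Z₂ : DF k U₂) (f : U₁ →ₗ[D k] U₂) : Prop :=
  ∀ d z, z ∈ Z₁.G d → f z ∈ Z₂.G d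

variable {Z₁ : DF k U₁} {Z₂ : DF k U₂} {Z₃ : DF k U₃}

/-- functoriality -/
noncomputable def IsF.ρ0 {f : U₁ →ₗ[D k] U₂} (h : IsF Z₁ Z₂ f) :
    MM Z₁.z0 →ₗ[Gam k] MM Z₂.z0 := MMmap _ _ (map0 f) fun d z hz => h d z.o hz

/-- functoriality -/
noncomputable def IsF.ρ1 {f : U₁ →ₗ[D k] U₂} (h : IsF Z₁ Z₂ f) :
    MM Z₁.z1 →ₗ[Gam k] MM Z₂.z1 :=
  MMmap _ _ (map1 f) fun d z hz => ⟨h d z.f hz.1, h _ z.s hz.2⟩

@[simp] lemma IsF.ρ0_e {f : U₁ →ₗ[D k] U₂} (h : IsF Z₁ Z₂ f) (z : MM Z₁.z0) (v : W) :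
    (h.ρ0 z).e v = map0 f (z.e v) := rfl

@[simp] lemma IsF.ρ1_e {f : U₁ →ₗ[D k] U₂} (h : IsF Z₁ Z₂ f) (z : MM Z₁.z1) (v : W) :
    (h.ρ1 z).e v = map1 f (z.e v) := rfl

lemma deg_fst_nonneg (v : W) : 0 ≤ (deg v).1 := by simp [deg]
lemma deg_snd_nonneg (v : W) : 0 ≤ (deg v).2 := by simp [deg]
lemma deg_fst_le (v : W) : (deg v).1 ≤ 1 := by simp only [deg]; omega

/-- short exact sequences of filtered modules -/
structure SesD (Z₁ : DF k U₁) (Z₂ : DF k U₂) (Z₃ : DF k U₃) (f : U₁ →ₗ[D k] U₂)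
    (g : U₂ →ₗ[D k] U₃) : Prop where
  hf : IsF Z₁ Z₂ f
  hg : IsF Z₂ Z₃ g
  inj : ∀ z, f z = 0 → z = 0
  zero : ∀ d, ∀ z ∈ Z₁.G d, g (f z) = 0
  ex : ∀ d, ∀ z ∈ Z₂.G d, g z = 0 → ∃ z' ∈ Z₁.G d, f z' = z
  surj : ∀ d : ℤ × ℤ, 0 ≤ d.2 → ∀ z ∈ Z₃.G d, ∃ z' ∈ Z₂.G d, g z' = z

lemma SesD.ses0 {f : U₁ →ₗ[D k] U₂} {g : U₂ →ₗ[D k] U₃} (h : SesD Z₁ Z₂ Z₃ f g) :
    SES h.hf.ρ0 h.hg.ρ0 :=
  MMmap_ses _ _ _ _ (fun z => h.inj z.o) (fun _ z => h.zero _ z.o) (fun _ z => h.ex _ z.o)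
    fun v z => h.surj _ (deg_snd_nonneg v) z.o

lemma SesD.ses1 {f : U₁ →ₗ[D k] U₂} {g : U₂ →ₗ[D k] U₃} (h : SesD Z₁ Z₂ Z₃ f g) :
    SES h.hf.ρ1 h.hg.ρ1 := by
  refine MMmap_ses _ _ _ _ (fun z hz => ?_) (fun v z hz => ?_) (fun v z hz e => ?_)
    fun v z hz => ?_
  · exact Z1.ext (h.inj _ (congrArg Z1.f hz)) (h.inj _ (congrArg Z1.s hz))
  · exact Z1.ext (h.zero _ _ hz.1) (h.zero _ _ hz.2)
  · obtain ⟨u, hu, e1⟩ := h.ex _ _ hz.1 (congrArg Z1.f e)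
    obtain ⟨u', hu', e2⟩ := h.ex _ _ hz.2 (congrArg Z1.s e)
    exact ⟨Z1.mk u u', ⟨hu, hu'⟩, Z1.ext e1 e2⟩
  · obtain ⟨u, hu, e1⟩ := h.surj _ (deg_snd_nonneg v) _ hz.1
    obtain ⟨u', hu', e2⟩ := h.surj _ (by simpa using deg_snd_nonneg v) _ hz.2
    exact ⟨Z1.mk u u', ⟨hu, hu'⟩, Z1.ext e1 e2⟩

/-- Koszul sequences of filtered modules -/
structure KosD (Z₁ : DF k U₁) (Z₂ : DF k U₂) (Z₃ : DF k U₃) (f₀ f₁ : U₁ →ₗ[D k] U₂)
    (g₀ g₁ : U₂ →ₗ[D k] U₃) : Prop where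
  hf₀ : IsF Z₁ Z₂ f₀
  hf₁ : IsF Z₁ Z₂ f₁
  hg₀ : IsF Z₂ Z₃ g₀
  hg₁ : IsF Z₂ Z₃ g₁
  inj : ∀ z, f₀ z = 0 → z = 0
  zero : ∀ z, g₀ (f₀ z) + g₁ (f₁ z) = 0
  ex : ∀ d, ∀ z₀ ∈ Z₂.G d, ∀ z₁ ∈ Z₂.G d, g₀ z₀ + g₁ z₁ = 0 →
    ∃ z' ∈ Z₁.G d, f₀ z' = z₀ ∧ f₁ z' = z₁
  surj : ∀ d : ℤ × ℤ, 0 ≤ d.1 → ∀ z ∈ Z₃.G d, ∃ z₀ ∈ Z₂.G d, ∃ z₁ ∈ Z₂.G d, g₀ z₀ + g₁ z₁ = z

lemma KosD.ses0 {f₀ f₁ : U₁ →ₗ[D k] U₂} {g₀ g₁ : U₂ →ₗ[D k] U₃}
    (h : KosD Z₁ Z₂ Z₃ f₀ f₁ g₀ g₁) :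
    SES (h.hf₀.ρ0.prod h.hf₁.ρ0) (h.hg₀.ρ0.coprod h.hg₁.ρ0) :=
  MMmap_kos _ _ _ _ _ _ _ _ (fun z => h.inj z.o) (fun z => h.zero z.o)
    (fun _ z hz z' => h.ex _ z.o hz z'.o) fun v z => h.surj _ (deg_fst_nonneg v) z.o

lemma KosD.ses1 {f₀ f₁ : U₁ →ₗ[D k] U₂} {g₀ g₁ : U₂ →ₗ[D k] U₃}
    (h : KosD Z₁ Z₂ Z₃ f₀ f₁ g₀ g₁) :
    SES (h.hf₀.ρ1.prod h.hf₁.ρ1) (h.hg₀.ρ1.coprod h.hg₁.ρ1) := by
  refine MMmap_kos _ _ _ _ _ _ _ _ (fun z hz => ?_) (fun z => ?_) (fun v z hz z' hz' e => ?_)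
    fun v z hz => ?_
  · exact Z1.ext (h.inj _ (congrArg Z1.f hz)) (h.inj _ (congrArg Z1.s hz))
  · exact Z1.ext (h.zero _) (h.zero _)
  · obtain ⟨u, hu, e1, e1'⟩ := h.ex _ _ hz.1 _ hz'.1 (congrArg Z1.f e)
    obtain ⟨u', hu', e2, e2'⟩ := h.ex _ _ hz.2 _ hz'.2 (congrArg Z1.s e)
    exact ⟨Z1.mk u u', ⟨hu, hu'⟩, Z1.ext e1 e2, Z1.ext e1' e2'⟩
  · obtain ⟨u, hu, u₁, hu₁, e1⟩ := h.surj _ (deg_fst_nonneg v) _ hz.1
    obtain ⟨u', hu', u₁', hu₁', e2⟩ := h.surj _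
      (by have := deg_fst_nonneg v; simp only [Prod.fst_add]; omega) _ hz.2
    exact ⟨Z1.mk u u', ⟨hu, hu'⟩, Z1.mk u₁ u₁', ⟨hu₁, hu₁'⟩, Z1.ext e1 e2⟩

variable (k U) in
/-- inclusion of the second component -/
noncomputable def inS : Z0 k U →ₗ[Tk k] Z1 k U where
  toFun z := Z1.mk 0 z.o
  map_add' z w := by ext <;> simp
  map_smul' t z := by ext <;> simp

variable (k U) in
/-- projection to the first component -/
noncomputable def prF : Z1 k U →ₗ[Tk k] Z0 k U where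
  toFun z := Z0.mk z.f
  map_add' z w := by ext; simp
  map_smul' t z := by ext; simp

/-- `Z'` is the shift of `Z` -/
def IsSh (Z' Z : DF k U) : Prop := ∀ d u, u ∈ Z'.G d ↔ u ∈ Z.G (d + (1, 0))

/-- inclusion of the second component -/
noncomputable def IsSh.inc {Z' Z : DF k U} (h : IsSh Z' Z) : MM Z'.z0 →ₗ[Gam k] MM Z.z1 :=
  MMmap _ _ (inS k U) fun d z hz => ⟨zero_mem _, (h d z.o).1 hz⟩

/-- projection to the first component -/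
noncomputable def DF.pr (Z : DF k U) : MM Z.z1 →ₗ[Gam k] MM Z.z0 :=
  MMmap _ _ (prF k U) fun _ _ hz => hz.1

lemma IsSh.ses {Z' Z : DF k U} (h : IsSh Z' Z) : SES h.inc Z.pr :=
  MMmap_ses _ _ _ _ (fun _ hz => congrArg Z1.s hz) (fun _ _ _ => rfl)
    (fun _ z hz e => ⟨Z0.mk z.s, (h _ _).2 hz.2, Z1.ext (congrArg Z0.o e).symm rfl⟩)
    fun _ z hz => ⟨Z1.mk z.o 0, ⟨hz, zero_mem _⟩, rfl⟩

variable (k)

/-- regular operators, with generator in degree `u` -/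
noncomputable def AF (u : ℤ × ℤ) : DF k (D k) where
  G d := (Fam k 0 (d - u)).toAddSubgroup
  smul_mem ha hu := by rw [add_sub_assoc]; exact Fam_mul le_rfl le_rfl ha hu

/-- regular operators killing the constants -/
noncomputable def KF (u : ℤ × ℤ) : DF k (D k) where
  G d := (Fam k 0 (d - u)).toAddSubgroup ⊓
    (LinearMap.ker (LinearMap.toSpanSingleton (D k) (V k) (v0 k))).toAddSubgroup
  smul_mem ha hu := ⟨by rw [add_sub_assoc]; exact Fam_mul le_rfl le_rfl ha hu.1,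
    Submodule.smul_mem _ _ hu.2⟩

/-- Laurent polynomials, shifted by `m` -/
noncomputable def VF (s : Fin 2 → ℕ) (m : ℤ) : DF k (V k) where
  G d := (FV k s (d.1 + m)).toAddSubgroup
  smul_mem ha hu := by
    rw [Prod.fst_add, add_assoc]; exact FV_smul (fun _ _ => rfl) ha hu

variable {k}

lemma mem_AF {u d : ℤ × ℤ} {a : D k} : a ∈ (AF k u).G d ↔ a ∈ Fam k 0 (d - u) := Iff.rfl

lemma mem_KF {u d : ℤ × ℤ} {a : D k} :
    a ∈ (KF k u).G d ↔ a ∈ Fam k 0 (d - u) ∧ a • v0 k = 0 := Iff.rfl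

lemma mem_VF {s : Fin 2 → ℕ} {m : ℤ} {d : ℤ × ℤ} {v : V k} :
    v ∈ (VF k s m).G d ↔ v ∈ FV k s (d.1 + m) := Iff.rfl

lemma isSh_AF (j b : ℤ) : IsSh (AF k (j - 1, b)) (AF k (j, b)) := fun d u => by
  rw [mem_AF, mem_AF, show d - (j - 1, b) = d + (1, 0) - (j, b) from
    Prod.ext (by simp; omega) (by simp)]

lemma isSh_VF (s : Fin 2 → ℕ) (m : ℤ) : IsSh (VF k s (m + 1)) (VF k s m) := fun d u => by
  rw [mem_VF, mem_VF, show d.1 + (m + 1) = (d + (1, 0)).1 + m by simp; omega]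

/-- right multiplication -/
noncomputable abbrev rm (c : D k) : D k →ₗ[D k] D k := LinearMap.toSpanSingleton (D k) (D k) c

lemma rm_apply (c a : D k) : rm c a = a * c := rfl

lemma isF_rm {u u' : ℤ × ℤ} {c : D k} (hc : c ∈ Fam k 0 (u - u')) :
    IsF (AF k u) (AF k u') (rm c) := fun d a ha => by
  rw [mem_AF, ← sub_add_sub_cancel d u u']
  exact Fam_mul le_rfl le_rfl ha hc

lemma Fam_cast {s : Fin 2 → ℕ} {d d' : ℤ × ℤ} {a : D k} (h : a ∈ Fam k s d) (h1 : d.1 = d'.1)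
    (h2 : d.2 = d'.2) : a ∈ Fam k s d' := Prod.ext h1 h2 ▸ h

lemma x_mem' (i : Fin 2) (j b : ℤ) : x k i ∈ Fam k 0 ((j + 1, b) - (j, b)) :=
  Fam_cast (x_mem_Fam 0 i) (by simp) (by simp)

lemma y_mem' (i : Fin 2) (j b : ℤ) : y k i ∈ Fam k 0 ((j - 1, b + 1) - (j, b)) :=
  Fam_cast (y_mem_Fam 0 i) (by simp) (by simp)

lemma kosX {j : ℤ} (hj : j ≤ -1) (b : ℤ) :
    KosD (AF k (j + 1 + 1, b)) (AF k (j + 1, b)) (AF k (j, b)) (rm (x k 1)) (rm (-x k 0))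
      (rm (x k 0)) (rm (x k 1)) where
  hf₀ := isF_rm (x_mem' 1 _ _)
  hf₁ := isF_rm (neg_mem (x_mem' 0 _ _))
  hg₀ := isF_rm (x_mem' 0 _ _)
  hg₁ := isF_rm (x_mem' 1 _ _)
  inj _ h := kosx_inj 1 h
  zero z := by simp only [rm_apply, mul_assoc, neg_mul, mul_neg, x_comm 1 0, add_neg_cancel]
  ex d z₀ h₀ z₁ h₁ e := by
    obtain ⟨c, hc, e₀, e₁⟩ := kosx_mid (j := d.1 - j - 2) (b := d.2 - b)
      (Fam_cast h₀ (by simp; omega) (by simp)) (Fam_cast h₁ (by simp; omega) (by simp)) e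
    exact ⟨c, Fam_cast hc (by simp; omega) (by simp), e₀.symm, by rw [e₁, rm_apply, mul_neg]⟩
  surj d hd z hz := by
    obtain ⟨a₀, h₀, a₁, h₁, e⟩ := kosx_surj (j := d.1 - j - 1) (b := d.2 - b) (by omega)
      (Fam_cast hz (by simp) (by simp))
    exact ⟨a₀, Fam_cast h₀ (by simp; omega) (by simp), a₁, Fam_cast h₁ (by simp; omega) (by simp),
      e.symm⟩

lemma kosY [CharZero k] (j b : ℤ) :
    KosD (AF k (j - 1 - 1, b + 1 + 1)) (AF k (j - 1, b + 1)) (KF k (j, b)) (rm (y k 1))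
      (rm (-y k 0)) (rm (y k 0)) (rm (y k 1)) where
  hf₀ := isF_rm (y_mem' 1 _ _)
  hf₁ := isF_rm (neg_mem (y_mem' 0 _ _))
  hg₀ d a ha := mem_KF.2 ⟨isF_rm (y_mem' 0 _ _) d a ha, by
    rw [rm_apply, mul_smul, y_smul_v0, smul_zero]⟩
  hg₁ d a ha := mem_KF.2 ⟨isF_rm (y_mem' 1 _ _) d a ha, by
    rw [rm_apply, mul_smul, y_smul_v0, smul_zero]⟩
  inj _ h := kosy_inj 1 h
  zero z := by simp only [rm_apply, mul_assoc, neg_mul, mul_neg, y_comm 1 0, add_neg_cancel]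
  ex d z₀ h₀ z₁ h₁ e := by
    obtain ⟨c, hc, e₀, e₁⟩ := kosy_mid (j := d.1 - j + 1) (b := d.2 - b - 2)
      (Fam_cast h₀ (by simp; omega) (by simp; omega))
      (Fam_cast h₁ (by simp; omega) (by simp; omega)) e
    exact ⟨c, Fam_cast hc (by simp; omega) (by simp; omega), e₀.symm,
      by rw [e₁, rm_apply, mul_neg]⟩
  surj d _ z hz := by
    obtain ⟨a₀, h₀, a₁, h₁, e⟩ := kosy_ex (j := d.1 - j) (b := d.2 - b - 1)
      (Fam_cast hz.1 (by simp) (by simp)) hz.2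
    exact ⟨a₀, Fam_cast h₀ (by simp; omega) (by simp; omega), a₁,
      Fam_cast h₁ (by simp; omega) (by simp; omega), e.symm⟩

lemma sesV (j : ℤ) : SesD (KF k (j, 0)) (AF k (j, 0)) (VF k 0 (-j)) LinearMap.id
    (LinearMap.toSpanSingleton (D k) (V k) (v0 k)) where
  hf _ _ h := h.1
  hg d a ha := by
    have := FV_smul (s := 0) (s' := 0) (fun _ _ => rfl) ha (v0_mem 0)
    rw [mem_VF]
    simpa [sub_eq_add_neg] using this
  inj _ h := h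
  zero _ _ h := h.2
  ex _ z hz e := ⟨z, ⟨hz, e⟩, rfl⟩
  surj d hd z hz := by
    obtain ⟨a, ha, e⟩ := kosy_surj hd hz
    exact ⟨a, Fam_cast ha (by simp [sub_eq_add_neg]) (by simp), e⟩

end Vale.Agent.P195
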