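import Vale.Agent.P195.Skew

/-!
The degree filtration on polynomials in two variables.
-/

namespace Vale.Agent.P195

open MvPolynomial

variable {k : Type} [Field k]

lemma F_neg {b : ℤ} (h : b < 0) : F k b = ⊥ := by simp [F, h]

lemma F_nat (n : ℕ) : F k n = F1 k ^ n := by simp [F]

lemma one_mem_F1 : (1 : R k) ∈ F1 k := Submodule.subset_span (by simp)

lemma X_mem_F1 (i : Fin 2) : (X i : R k) ∈ F1 k :=
  Submodule.subset_span (by fin_cases i <;> simp)

lemma C_mem_F1 (c : k) : (C c : R k) ∈ F1 k := by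
  rw [C_eq_smul_one]; exact Submodule.smul_mem _ _ one_mem_F1

lemma F_one : F k 1 = F1 k := by simpa using F_nat (k := k) 1

lemma F_zero : F k 0 = 1 := by simpa using F_nat (k := k) 0

lemma X_mem_F (i : Fin 2) : (X i : R k) ∈ F k 1 := F_one (k := k) ▸ X_mem_F1 i

lemma mul_mem_F {a b : ℤ} {u v : R k} (hu : u ∈ F k a) (hv : v ∈ F k b) :
    u * v ∈ F k (a + b) := by
  by_cases ha : a < 0
  · rw [F_neg ha] at hu; simp at hu; simp [hu]
  by_cases hb : b < 0
  · rw [F_neg hb] at hv; simp at hv; simp [hv]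
  obtain ⟨a, rfl⟩ := Int.eq_ofNat_of_zero_le (not_lt.1 ha)
  obtain ⟨b, rfl⟩ := Int.eq_ofNat_of_zero_le (not_lt.1 hb)
  rw [F_nat] at hu hv
  rw [← Nat.cast_add, F_nat, pow_add]
  exact Submodule.mul_mem_mul hu hv

lemma one_mem_F_nat (n : ℕ) : (1 : R k) ∈ F k n := by
  induction n with
  | zero => rw [Nat.cast_zero, F_zero]; exact Submodule.one_le.1 le_rfl
  | succ n ih =>
    have := mul_mem_F ih (F_one (k := k) ▸ one_mem_F1)
    simpa using this

lemma F_mono {a b : ℤ} (h : a ≤ b) : F k a ≤ F k b := by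
  intro u hu
  have := mul_mem_F hu (one_mem_F_nat (k := k) (b - a).toNat)
  rwa [mul_one, Int.toNat_of_nonneg (by omega), add_sub_cancel] at this

lemma one_mem_F {n : ℤ} (h : 0 ≤ n) : (1 : R k) ∈ F k n :=
  F_mono h (by simpa using one_mem_F_nat (k := k) 0)

lemma C_mem_F {n : ℤ} (h : 0 ≤ n) (c : k) : (C c : R k) ∈ F k n := by
  rw [C_eq_smul_one]; exact Submodule.smul_mem _ _ (one_mem_F h)

lemma F_fg (n : ℤ) : (F k n).FG := by
  unfold F
  split_ifs
  · exact Submodule.fg_bot
  · apply Submodule.FG.pow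
    exact Submodule.fg_span (Set.toFinite _)

lemma nonneg_of_mem_F {b : ℤ} {p : R k} (hp : p ∈ F k b) (h : p ≠ 0) : 0 ≤ b := by
  by_contra hb
  rw [F_neg (by omega)] at hp
  exact h hp

/-- induction principle for the filtration -/
lemma F_induction {P : ℤ → R k → Prop} (h0 : ∀ b, P b 0) (hC : ∀ c : k, P 0 (C c))
    (hadd : ∀ b p q, P b p → P b q → P b (p + q))
    (hup : ∀ b p, 0 ≤ b → p ∈ F k b → P b p → P (b + 1) p)
    (hX : ∀ b p i, 0 ≤ b → p ∈ F k b → P b p → P (b + 1) (p * X i))
    {b : ℤ} {p : R k} (hp : p ∈ F k b) : P b p := by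
  by_cases hb : b < 0
  · rw [F_neg hb] at hp; rw [(Submodule.mem_bot k).1 hp]; exact h0 b
  obtain ⟨n, rfl⟩ := Int.eq_ofNat_of_zero_le (not_lt.1 hb)
  clear hb
  induction n generalizing p with
  | zero =>
    rw [Nat.cast_zero, F_zero, Submodule.mem_one] at hp
    obtain ⟨c, rfl⟩ := hp
    exact hC c
  | succ n ih =>
    rw [F_nat, pow_succ, ← F_nat] at hp
    push_cast
    refine Submodule.mul_induction_on hp ?_ (hadd _)
    intro a ha b hb
    induction hb using Submodule.span_induction generalizing a with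
    | mem z hz =>
      rcases hz with rfl | rfl | rfl
      · rw [mul_one]; exact hup _ _ (by omega) ha (ih ha)
      · exact hX _ _ _ (by omega) ha (ih ha)
      · exact hX _ _ _ (by omega) ha (ih ha)
    | zero => rw [mul_zero]; exact h0 _
    | add z z' _ _ hz hz' => rw [mul_add]; exact hadd _ _ _ (hz a ha) (hz' a ha)
    | smul c z _ hz =>
      rw [mul_smul_comm, ← smul_mul_assoc]; exact hz _ (Submodule.smul_mem _ _ ha)

lemma algHom_mem_F (f : R k →ₐ[k] R k) (hf : ∀ i, f (X i) ∈ F k 1) {b : ℤ} {p : R k}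
    (hp : p ∈ F k b) : f p ∈ F k b := by
  refine F_induction (P := fun b p => f p ∈ F k b) (fun b => by simp) (fun c => ?_)
    (fun b p q h h' => by rw [map_add]; exact add_mem h h')
    (fun b p _ _ h => F_mono (by omega) h)
    (fun b p i _ _ h => by rw [map_mul]; exact mul_mem_F h (hf i)) hp
  rw [algHom_C]; exact C_mem_F le_rfl c

lemma sh_mem_F (β : Z2) {b : ℤ} {p : R k} (hp : p ∈ F k b) : sh k β p ∈ F k b :=
  algHom_mem_F _ (fun i => by rw [sh_X]; exact add_mem (X_mem_F i) (C_mem_F (by norm_num) _)) hp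

lemma ev_X (i j : Fin 2) (c : k) : ev k i c (X j) = if j = i then C c else X j := by simp [ev]

@[simp] lemma ev_X_self (i : Fin 2) (c : k) : ev k i c (X i) = C c := by simp [ev]

@[simp] lemma ev_C (i : Fin 2) (c c' : k) : ev k i c (C c') = C c' := by simp [ev]

lemma ev_mem_F (i : Fin 2) (c : k) {b : ℤ} {p : R k} (hp : p ∈ F k b) : ev k i c p ∈ F k b :=
  algHom_mem_F _ (fun j => by
    rw [ev_X]; split_ifs
    exacts [C_mem_F (by norm_num) _, X_mem_F j]) hp

lemma pderiv_mem_F (i : Fin 2) {b : ℤ} {p : R k} (hp : p ∈ F k b) :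
    pderiv i p ∈ F k (b - 1) := by
  refine F_induction (P := fun b p => pderiv i p ∈ F k (b - 1)) (fun b => by simp)
    (fun c => by simp) (fun b p q h h' => by rw [map_add]; exact add_mem h h')
    (fun b p _ _ h => F_mono (by omega) h) (fun b p j _ hp h => ?_) hp
  rw [Derivation.leibniz, smul_eq_mul, smul_eq_mul, add_sub_cancel_right]
  refine add_mem ?_ ?_
  · rw [pderiv_X, Pi.single_apply]; split_ifs
    · simpa using hp
    · simp
  · simpa using mul_mem_F (X_mem_F j) h

/-- division with remainder by `X i - c`, with control of the degree -/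
lemma exists_div (i : Fin 2) (c : k) {b : ℤ} {p : R k} (hp : p ∈ F k b) :
    ∃ q ∈ F k (b - 1), p = ev k i c p + (X i - C c) * q := by
  refine F_induction (P := fun b p => ∃ q ∈ F k (b - 1), p = ev k i c p + (X i - C c) * q)
    (fun b => ⟨0, zero_mem _, by simp⟩) (fun c => ⟨0, zero_mem _, by simp⟩) ?_ ?_ ?_ hp
  · rintro b p q ⟨u, hu, h⟩ ⟨v, hv, h'⟩
    exact ⟨u + v, add_mem hu hv, by rw [map_add]; linear_combination h + h'⟩
  · rintro b p - - ⟨u, hu, h⟩
    exact ⟨u, F_mono (by omega) hu, h⟩
  · rintro b p j - hp ⟨u, hu, h⟩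
    have hu' : u * X j ∈ F k (b + 1 - 1) := by simpa using mul_mem_F hu (X_mem_F j)
    by_cases hj : j = i
    · subst hj
      refine ⟨u * X j + ev k j c p, add_mem hu' (by simpa using ev_mem_F j c hp), ?_⟩
      rw [map_mul, ev_X_self]; linear_combination (X j) * h
    · refine ⟨u * X j, hu', ?_⟩
      rw [map_mul, ev_X, if_neg hj]; linear_combination (X j) * h

lemma X_sub_C_ne_zero (i : Fin 2) (c : k) : (X i - C c : R k) ≠ 0 := by
  intro h
  have := congrArg (pderiv i) h
  simp at this

/-- cancellation of a linear factor lowers the degree -/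
lemma mem_F_of_mul (i : Fin 2) (c : k) {b : ℤ} {q : R k} (h : (X i - C c) * q ∈ F k b) :
    q ∈ F k (b - 1) := by
  obtain ⟨q', hq', e⟩ := exists_div i c h
  rw [map_mul, map_sub, ev_X_self, ev_C, sub_self, zero_mul, zero_add] at e
  rwa [mul_left_cancel₀ (X_sub_C_ne_zero i c) e]

lemma ev_ev_self (i : Fin 2) (c c' : k) (p : R k) : ev k i c (ev k i c' p) = ev k i c' p := by
  have : (ev k i c).comp (ev k i c') = ev k i c' := by
    ext j : 1
    simp only [AlgHom.comp_apply, ev_X]
    split_ifs with h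
    · simp
    · rw [ev_X, if_neg h]
  exact congrArg (fun f : R k →ₐ[k] R k => f p) this

lemma ev_comm (i j : Fin 2) (hij : i ≠ j) (c c' : k) (p : R k) :
    ev k i c (ev k j c' p) = ev k j c' (ev k i c p) := by
  have : (ev k i c).comp (ev k j c') = (ev k j c').comp (ev k i c) := by
    ext l : 1
    simp only [AlgHom.comp_apply, ev_X]
    by_cases h : l = j
    · subst h; simp [hij.symm]
    · by_cases h' : l = i
      · subst h'; simp [h]
      · simp [h, h', ev_X]
  exact congrArg (fun f : R k →ₐ[k] R k => f p) this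

lemma ev_sh (i : Fin 2) (c : k) (β : Z2) (p : R k) :
    ev k i c (sh k β p) = sh k β (ev k i (c + β i) p) := by
  have : (ev k i c).comp (sh k β) = (sh k β).comp (ev k i (c + β i)) := by
    ext l : 1
    simp only [AlgHom.comp_apply, ev_X, sh_X, map_add, ev_C]
    split_ifs with h
    · subst h; simp
    · simp
  exact congrArg (fun f : R k →ₐ[k] R k => f p) this

lemma sh_injective (β : Z2) : Function.Injective (sh k β) := fun p q h => by
  have := congrArg (sh k (-β)) h
  rwa [sh_sh, sh_sh, add_neg_cancel, sh_zero, sh_zero] at this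

lemma pderiv_sh (i : Fin 2) (β : Z2) (p : R k) : pderiv i (sh k β p) = sh k β (pderiv i p) := by
  induction p using MvPolynomial.induction_on with
  | C c => simp
  | add p q hp hq => simp only [map_add, hp, hq]
  | mul_X p j hp =>
    simp only [map_mul, Derivation.leibniz, smul_eq_mul, hp, map_add, sh_X, pderiv_C, add_zero,
      pderiv_X, Pi.single_apply]
    split_ifs <;> simp

lemma pderiv_ev (i j : Fin 2) (hij : i ≠ j) (c : k) (p : R k) :
    pderiv i (ev k j c p) = ev k j c (pderiv i p) := by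
  induction p using MvPolynomial.induction_on with
  | C c => simp
  | add p q hp hq => simp only [map_add, hp, hq]
  | mul_X p l hp =>
    simp only [map_mul, Derivation.leibniz, smul_eq_mul, hp, map_add, ev_X, pderiv_X,
      Pi.single_apply]
    by_cases h : l = j
    · subst h; simp [hij.symm]
    · simp only [if_neg h, pderiv_X, Pi.single_apply]
      split_ifs <;> simp

/-- a polynomial of degree at most `b` vanishing on more than `b` parallel lines is zero -/
lemma eq_zero_of_ev [CharZero k] (i : Fin 2) (N : ℕ) {b : ℤ} (hb : b < N) {p : R k}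
    (hp : p ∈ F k b) (h : ∀ n : ℤ, 0 ≤ n → n < N → ev k i (n : k) p = 0) : p = 0 := by
  induction N generalizing b p with
  | zero => rw [F_neg (by simpa using hb)] at hp; exact hp
  | succ N ih =>
    obtain ⟨q, hq, e⟩ := exists_div i ((N : ℤ) : k) hp
    rw [h N (by omega) (by push_cast; omega), zero_add] at e
    have : q = 0 := ih (by push_cast at hb; omega) hq fun n hn hn' => by
      have h1 := h n hn (by push_cast; omega)
      rw [e, map_mul, map_sub, ev_X_self, ev_C, ← map_sub] at h1
      refine (mul_eq_zero.1 h1).resolve_left ?_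
      rw [C_eq_zero, sub_eq_zero, Int.cast_inj]
      omega
    rw [e, this, mul_zero]

end Vale.Agent.P195
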