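import Mathlib

/-!
The ring of differential operators on the two-dimensional torus, written as a skew Laurent ring
over the polynomial ring in the two Euler operators: an element is a finite sum of terms
`x ^ α * p (θ)`, with `θ i * x j = x j * (θ i + δ i j)`.
-/

namespace Vale.Agent.P195

open MvPolynomial

variable (k : Type) [Field k]

/-- polynomials in the two Euler operators -/
abbrev R : Type := MvPolynomial (Fin 2) k

/-- exponents -/
abbrev Z2 : Type := Fin 2 → ℤ

/-- the shift `θ ↦ θ + β` -/
noncomputable def sh (β : Z2) : R k →ₐ[k] R k := aeval fun i => X i + C (β i : k)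

/-- substitute the constant `c` for the variable `i` -/
noncomputable def ev (i : Fin 2) (c : k) : R k →ₐ[k] R k :=
  aeval fun j => if j = i then C c else X j

/-- polynomials of degree at most one -/
noncomputable def F1 : Submodule k (R k) := Submodule.span k {1, X 0, X 1}

/-- polynomials of degree at most `b` -/
noncomputable def F (b : ℤ) : Submodule k (R k) := if b < 0 then ⊥ else F1 k ^ b.toNat

/-- the skew Laurent ring -/
def D : Type := Z2 →₀ R k

noncomputable instance : AddCommGroup (D k) := inferInstanceAs (AddCommGroup (Z2 →₀ R k))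
noncomputable instance : Module k (D k) := inferInstanceAs (Module k (Z2 →₀ R k))

variable {k}

@[simp] lemma sh_X (β : Z2) (i : Fin 2) : sh k β (X i) = X i + C (β i : k) := by simp [sh]

@[simp] lemma sh_C (β : Z2) (c : k) : sh k β (C c) = C c := by simp [sh]

lemma sh_zero (p : R k) : sh k 0 p = p := by
  have : sh k 0 = AlgHom.id k (R k) := by ext i : 1; simp
  rw [this]; rfl

lemma sh_sh (β γ : Z2) (p : R k) : sh k γ (sh k β p) = sh k (β + γ) p := by
  have : (sh k γ).comp (sh k β) = sh k (β + γ) := by
    ext i : 1; simp [add_assoc, add_comm]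
  exact congrArg (fun f : R k →ₐ[k] R k => f p) this

/-- the term `x ^ α * p` -/
noncomputable def sg (α : Z2) : R k →ₗ[k] D k := Finsupp.lsingle α

/-- the coefficient of `x ^ α` -/
noncomputable def co (α : Z2) : D k →ₗ[k] R k := Finsupp.lapply α

lemma co_sg (α β : Z2) (p : R k) : co β (sg α p) = if α = β then p else 0 :=
  Finsupp.single_apply

lemma D_ext {a b : D k} (h : ∀ α, co α a = co α b) : a = b := Finsupp.ext h

lemma D_induction {P : D k → Prop} (h0 : P 0) (hadd : ∀ a b, P a → P b → P (a + b))
    (hsg : ∀ α p, P (sg α p)) (a : D k) : P a :=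
  Finsupp.induction_linear a h0 hadd hsg

/-- the finite set of exponents that occur -/
noncomputable def supp (a : D k) : Finset Z2 := Finsupp.support a

lemma mem_supp {a : D k} {α : Z2} : α ∈ supp a ↔ co α a ≠ 0 := Finsupp.mem_support_iff

lemma sum_sg (a : D k) : ∑ α ∈ supp a, sg α (co α a) = a := Finsupp.sum_single a

/-- the multiplication, as a bilinear map -/
noncomputable def mulL : D k →ₗ[k] D k →ₗ[k] D k :=
  Finsupp.lsum k fun α => LinearMap.flip <| Finsupp.lsum k fun β =>
    LinearMap.flip <| ((LinearMap.mul k (R k)).compr₂ (sg (α + β))) ∘ₗ (sh k β).toLinearMap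

lemma mulL_sg (α β : Z2) (p q : R k) : mulL (sg α p) (sg β q) = sg (α + β) (sh k β p * q) := by
  unfold mulL
  erw [Finsupp.lsum_single, LinearMap.flip_apply, Finsupp.lsum_single]
  rfl

noncomputable instance : Ring (D k) :=
  { (inferInstance : AddCommGroup (D k)) with
    mul := fun a b => mulL a b
    one := sg 0 1
    left_distrib := fun a b c => map_add (mulL a) b c
    right_distrib := fun a b c => LinearMap.map_add₂ mulL a b c
    zero_mul := fun a => LinearMap.map_zero₂ mulL a
    mul_zero := fun a => map_zero (mulL a)
    one_mul := fun a => by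
      change mulL (sg 0 1) a = a
      induction a using D_induction with
      | h0 => simp
      | hadd a b ha hb => rw [map_add, ha, hb]
      | hsg α p => simp [mulL_sg]
    mul_one := fun a => by
      change mulL a (sg 0 1) = a
      induction a using D_induction with
      | h0 => simp
      | hadd a b ha hb => rw [LinearMap.map_add₂, ha, hb]
      | hsg α p => simp [mulL_sg, sh_zero]
    mul_assoc := fun a b c => by
      change mulL (mulL a b) c = mulL a (mulL b c)
      induction a using D_induction with
      | h0 => simp
      | hadd a a' ha ha' => simp only [map_add, LinearMap.add_apply, ha, ha']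
      | hsg α p =>
        induction b using D_induction with
        | h0 => simp
        | hadd b b' hb hb' => simp only [map_add, LinearMap.add_apply, hb, hb']
        | hsg β q =>
          induction c using D_induction with
          | h0 => simp
          | hadd c c' hc hc' => simp only [map_add, hc, hc']
          | hsg γ r => simp only [mulL_sg, map_mul, sh_sh, add_assoc, mul_assoc] }

lemma sg_mul_sg (α β : Z2) (p q : R k) : sg α p * sg β q = sg (α + β) (sh k β p * q) :=
  mulL_sg α β p q

lemma one_eq : (1 : D k) = sg 0 1 := rfl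

noncomputable instance : Algebra k (D k) :=
  Algebra.ofModule (fun c a b => LinearMap.map_smul₂ mulL c a b)
    (fun c a b => map_smul (mulL a) c b)

lemma co_mul (a b : D k) (γ : Z2) :
    co γ (a * b) = ∑ β ∈ supp b, sh k β (co (γ - β) a) * co β b := by
  conv_lhs => rw [← sum_sg b]
  rw [Finset.mul_sum, map_sum]
  refine Finset.sum_congr rfl fun β _ => ?_
  generalize co β b = q
  induction a using D_induction with
  | h0 => simp
  | hadd a a' ha ha' => simp only [add_mul, map_add, ha, ha']
  | hsg α p =>
    rw [sg_mul_sg, co_sg, co_sg]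
    by_cases h : α + β = γ
    · rw [if_pos h, if_pos (by rw [← h]; simp)]
    · rw [if_neg h, if_neg (fun h' => h (by rw [h']; simp))]; simp

lemma co_mul_sg (a : D k) (β γ : Z2) (q : R k) :
    co γ (a * sg β q) = sh k β (co (γ - β) a) * q := by
  induction a using D_induction with
  | h0 => simp
  | hadd a a' ha ha' => simp only [add_mul, map_add, ha, ha']
  | hsg α p =>
    rw [sg_mul_sg, co_sg, co_sg]
    by_cases h : α + β = γ
    · rw [if_pos h, if_pos (by rw [← h]; simp)]
    · rw [if_neg h, if_neg (fun h' => h (by rw [h']; simp))]; simp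

lemma co_sg_mul (α γ : Z2) (p : R k) (b : D k) :
    co γ (sg α p * b) = sh k (γ - α) p * co (γ - α) b := by
  induction b using D_induction with
  | h0 => simp
  | hadd a a' ha ha' => simp only [mul_add, map_add, ha, ha']
  | hsg β q =>
    rw [sg_mul_sg, co_sg, co_sg]
    by_cases h : α + β = γ
    · rw [if_pos h, if_pos (by rw [← h]; simp), ← h]; simp
    · rw [if_neg h, if_neg (fun h' => h (by rw [h']; simp))]; simp

variable (k)

/-- the derivation that differentiates the coefficients in the variable `i` -/
noncomputable def dd (i : Fin 2) : D k →ₗ[k] D k :=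
  Finsupp.mapRange.linearMap (pderiv i : Derivation k (R k) (R k)).toLinearMap

/-- the coordinate functions -/
noncomputable def x (i : Fin 2) : D k := sg (Pi.single i 1) 1

/-- the inverses of the coordinate functions -/
noncomputable def xi (i : Fin 2) : D k := sg (-Pi.single i 1) 1

/-- the coordinate vector fields -/
noncomputable def y (i : Fin 2) : D k := sg (-Pi.single i 1) (X i)

/-- Operators of weight `d.1` and order at most `d.2`; in the direction `i` they are regular when
`s i = 0`, have poles of order at most `d.2` when `s i ≤ 1`, and are unrestricted otherwise. -/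
noncomputable def Fam (s : Fin 2 → ℕ) (d : ℤ × ℤ) : Submodule k (D k) where
  carrier := {a | ∀ α, co α a ∈ F k d.2 ∧ (α 0 + α 1 ≠ d.1 → co α a = 0) ∧
    (∀ i, s i ≤ 1 → α i < -d.2 → co α a = 0) ∧
    (∀ i, s i = 0 → ∀ n : ℤ, 0 ≤ n → n < -α i → ev k i (n : k) (co α a) = 0)}
  add_mem' := by
    intro a b ha hb α
    obtain ⟨h1, h2, h3, h4⟩ := ha α
    obtain ⟨h1', h2', h3', h4'⟩ := hb α
    rw [map_add]
    exact ⟨add_mem h1 h1', fun h => by rw [h2 h, h2' h, add_zero],
      fun i hi h => by rw [h3 i hi h, h3' i hi h, add_zero],
      fun i hi n h h' => by rw [map_add, h4 i hi n h h', h4' i hi n h h', add_zero]⟩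
  zero_mem' α := by simp
  smul_mem' := by
    intro c a ha α
    obtain ⟨h1, h2, h3, h4⟩ := ha α
    rw [map_smul]
    exact ⟨Submodule.smul_mem _ _ h1, fun h => by rw [h2 h, smul_zero],
      fun i hi h => by rw [h3 i hi h, smul_zero],
      fun i hi n h h' => by rw [map_smul, h4 i hi n h h', smul_zero]⟩

/-- Laurent polynomials in two variables -/
def V : Type := Z2 →₀ k

noncomputable instance : AddCommGroup (V k) := inferInstanceAs (AddCommGroup (Z2 →₀ k))
noncomputable instance : Module k (V k) := inferInstanceAs (Module k (Z2 →₀ k))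

/-- apply an operator to the constant function `1` -/
noncomputable def evV : D k →ₗ[k] V k :=
  Finsupp.mapRange.linearMap (aeval (fun _ => 0) : R k →ₐ[k] k).toLinearMap

/-- a Laurent polynomial as a multiplication operator -/
noncomputable def incV : V k →ₗ[k] D k := Finsupp.mapRange.linearMap (Algebra.linearMap k (R k))

variable {k}

/-- monomials -/
noncomputable def sv (γ : Z2) : k →ₗ[k] V k := Finsupp.lsingle γ

/-- coefficients -/
noncomputable def cv (γ : Z2) : V k →ₗ[k] k := Finsupp.lapply γ

lemma V_ext {v w : V k} (h : ∀ γ, cv γ v = cv γ w) : v = w := Finsupp.ext h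

lemma cv_sv (α β : Z2) (c : k) : cv β (sv α c) = if α = β then c else 0 := Finsupp.single_apply

lemma cv_evV (a : D k) (γ : Z2) : cv γ (evV k a) = aeval (fun _ => (0 : k)) (co γ a) := rfl

lemma co_incV (v : V k) (γ : Z2) : co γ (incV k v) = C (cv γ v) := rfl

lemma co_dd (i : Fin 2) (a : D k) (γ : Z2) : co γ (dd k i a) = pderiv i (co γ a) := rfl

lemma evV_incV (v : V k) : evV k (incV k v) = v := V_ext fun γ => by simp [cv_evV, co_incV]

lemma evV_mul (a b : D k) : evV k (a * incV k (evV k b)) = evV k (a * b) := by
  induction b using D_induction with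
  | h0 => simp
  | hadd b b' hb hb' => simp only [map_add, mul_add, hb, hb']
  | hsg β q =>
    have : incV k (evV k (sg β q)) = sg β (C (aeval (fun _ => (0 : k)) q)) := D_ext fun γ => by
      rw [co_incV, cv_evV, co_sg, co_sg]; split_ifs <;> simp
    rw [this]
    exact V_ext fun γ => by simp [cv_evV, co_mul_sg]

noncomputable instance : Module (D k) (V k) where
  smul a v := evV k (a * incV k v)
  one_smul v := by change evV k (1 * _) = _; rw [one_mul, evV_incV]
  mul_smul a b v := by
    change evV k (a * b * _) = evV k (a * incV k (evV k (b * _)))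
    rw [evV_mul, mul_assoc]
  smul_zero a := by change evV k (a * incV k 0) = _; simp
  smul_add a v w := by
    change evV k (a * incV k (v + w)) = evV k (a * _) + evV k (a * _)
    rw [map_add, mul_add, map_add]
  add_smul a b v := by
    change evV k ((a + b) * _) = evV k (a * _) + evV k (b * _)
    rw [add_mul, map_add]
  zero_smul v := by change evV k (0 * _) = _; simp

lemma V_smul_def (a : D k) (v : V k) : a • v = evV k (a * incV k v) := rfl

instance : IsScalarTower k (D k) (V k) where
  smul_assoc c a v := by rw [V_smul_def, V_smul_def, smul_mul_assoc, map_smul]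

variable (k)

/-- the constant function `1` -/
noncomputable def v0 : V k := sv 0 1

/-- homogeneous Laurent polynomials of degree `j`, regular in the direction `i` when `s i = 0` -/
noncomputable def FV (s : Fin 2 → ℕ) (j : ℤ) : Submodule k (V k) where
  carrier := {v | ∀ γ, (γ 0 + γ 1 ≠ j → cv γ v = 0) ∧ ∀ i, s i = 0 → γ i < 0 → cv γ v = 0}
  add_mem' := by
    intro a b ha hb γ
    rw [map_add]
    exact ⟨fun h => by rw [(ha γ).1 h, (hb γ).1 h, add_zero],
      fun i hi h => by rw [(ha γ).2 i hi h, (hb γ).2 i hi h, add_zero]⟩
  zero_mem' γ := by simp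
  smul_mem' := by
    intro c a ha γ
    rw [map_smul]
    exact ⟨fun h => by rw [(ha γ).1 h, smul_zero], fun i hi h => by rw [(ha γ).2 i hi h, smul_zero]⟩

end Vale.Agent.P195
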