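import Mathlib

/-!
The Morita ring of the crossed extension defined by the cup product of two derivations, and its
modules of octuples.
-/

namespace Vale.Agent.P195

/-- two derivations -/
structure Der (k B : Type) [Field k] [Ring B] [Algebra k B] where
  /-- first derivation -/
  d₁ : B →ₗ[k] B
  /-- second derivation -/
  d₂ : B →ₗ[k] B
  l₁ : ∀ a b, d₁ (a * b) = d₁ a * b + a * d₁ b
  l₂ : ∀ a b, d₂ (a * b) = d₂ a * b + a * d₂ b

variable {k B : Type} [Field k] [Ring B] [Algebra k B]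

@[simp] lemma Der.d₁_one (𝒟 : Der k B) : 𝒟.d₁ 1 = 0 := by simpa using 𝒟.l₁ 1 1

@[simp] lemma Der.d₂_one (𝒟 : Der k B) : 𝒟.d₂ 1 = 0 := by simpa using 𝒟.l₂ 1 1

/-- a module map together with a connection along the second derivation -/
structure Log (𝒟 : Der k B) (V Q : Type) [AddCommGroup V] [Module B V] [AddCommGroup Q]
    [Module B Q] where
  /-- the module map -/
  ι : V →ₗ[B] Q
  /-- the connection -/
  nab : V →+ Q
  leib : ∀ (b : B) v, nab (b • v) = 𝒟.d₂ b • ι v + b • nab v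

/-- the regular data -/
def regL (𝒟 : Der k B) : Log 𝒟 B B := ⟨LinearMap.id, 𝒟.d₂.toAddMonoidHom, 𝒟.l₂⟩

variable {𝒟 : Der k B} {V Q : Type} [AddCommGroup V] [Module B V] [AddCommGroup Q] [Module B Q]

@[simp] lemma regL_ι (b : B) : (regL 𝒟).ι b = b := rfl
@[simp] lemma regL_nab (b : B) : (regL 𝒟).nab b = 𝒟.d₂ b := rfl

/-- octuples -/
def TM (_L : Log 𝒟 V Q) : Type := (V × Q) × (Q × Q) × (V × Q) × (V × Q)

variable {L : Log 𝒟 V Q}

instance : AddCommGroup (TM L) :=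
  inferInstanceAs (AddCommGroup ((V × Q) × (Q × Q) × (V × Q) × (V × Q)))

namespace TM

/-- constructor -/
def mk (a : V) (p m₁ m₂ : Q) (b : V) (q : Q) (c : V) (r : Q) : TM L :=
  ((a, p), (m₁, m₂), (b, q), (c, r))

/-- component -/
def a (z : TM L) : V := z.1.1
/-- component -/
def p (z : TM L) : Q := z.1.2
/-- component -/
def m₁ (z : TM L) : Q := z.2.1.1
/-- component -/
def m₂ (z : TM L) : Q := z.2.1.2
/-- component -/
def b (z : TM L) : V := z.2.2.1.1
/-- component -/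
def q (z : TM L) : Q := z.2.2.1.2
/-- component -/
def c (z : TM L) : V := z.2.2.2.1
/-- component -/
def r (z : TM L) : Q := z.2.2.2.2

section
variable (a' : V) (p' m₁' m₂' : Q) (b' : V) (q' : Q) (c' : V) (r' : Q)
@[simp] lemma mk_a : (mk a' p' m₁' m₂' b' q' c' r' : TM L).a = a' := rfl
@[simp] lemma mk_p : (mk a' p' m₁' m₂' b' q' c' r' : TM L).p = p' := rfl
@[simp] lemma mk_m₁ : (mk a' p' m₁' m₂' b' q' c' r' : TM L).m₁ = m₁' := rfl
@[simp] lemma mk_m₂ : (mk a' p' m₁' m₂' b' q' c' r' : TM L).m₂ = m₂' := rfl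
@[simp] lemma mk_b : (mk a' p' m₁' m₂' b' q' c' r' : TM L).b = b' := rfl
@[simp] lemma mk_q : (mk a' p' m₁' m₂' b' q' c' r' : TM L).q = q' := rfl
@[simp] lemma mk_c : (mk a' p' m₁' m₂' b' q' c' r' : TM L).c = c' := rfl
@[simp] lemma mk_r : (mk a' p' m₁' m₂' b' q' c' r' : TM L).r = r' := rfl
end

section
variable (z w : TM L)
@[simp] lemma add_a : (z + w).a = z.a + w.a := rfl
@[simp] lemma add_p : (z + w).p = z.p + w.p := rfl
@[simp] lemma add_m₁ : (z + w).m₁ = z.m₁ + w.m₁ := rfl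
@[simp] lemma add_m₂ : (z + w).m₂ = z.m₂ + w.m₂ := rfl
@[simp] lemma add_b : (z + w).b = z.b + w.b := rfl
@[simp] lemma add_q : (z + w).q = z.q + w.q := rfl
@[simp] lemma add_c : (z + w).c = z.c + w.c := rfl
@[simp] lemma add_r : (z + w).r = z.r + w.r := rfl
@[simp] lemma sub_a : (z - w).a = z.a - w.a := rfl
@[simp] lemma sub_p : (z - w).p = z.p - w.p := rfl
@[simp] lemma sub_m₁ : (z - w).m₁ = z.m₁ - w.m₁ := rfl
@[simp] lemma sub_m₂ : (z - w).m₂ = z.m₂ - w.m₂ := rfl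
@[simp] lemma sub_b : (z - w).b = z.b - w.b := rfl
@[simp] lemma sub_q : (z - w).q = z.q - w.q := rfl
@[simp] lemma sub_c : (z - w).c = z.c - w.c := rfl
@[simp] lemma sub_r : (z - w).r = z.r - w.r := rfl
@[simp] lemma neg_a : (-z).a = -z.a := rfl
@[simp] lemma neg_p : (-z).p = -z.p := rfl
@[simp] lemma neg_m₁ : (-z).m₁ = -z.m₁ := rfl
@[simp] lemma neg_m₂ : (-z).m₂ = -z.m₂ := rfl
@[simp] lemma neg_b : (-z).b = -z.b := rfl
@[simp] lemma neg_q : (-z).q = -z.q := rfl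
@[simp] lemma neg_c : (-z).c = -z.c := rfl
@[simp] lemma neg_r : (-z).r = -z.r := rfl
@[simp] lemma zero_a : (0 : TM L).a = 0 := rfl
@[simp] lemma zero_p : (0 : TM L).p = 0 := rfl
@[simp] lemma zero_m₁ : (0 : TM L).m₁ = 0 := rfl
@[simp] lemma zero_m₂ : (0 : TM L).m₂ = 0 := rfl
@[simp] lemma zero_b : (0 : TM L).b = 0 := rfl
@[simp] lemma zero_q : (0 : TM L).q = 0 := rfl
@[simp] lemma zero_c : (0 : TM L).c = 0 := rfl
@[simp] lemma zero_r : (0 : TM L).r = 0 := rfl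
end

@[ext] lemma ext {z w : TM L} (ha : z.a = w.a) (hp : z.p = w.p) (h₁ : z.m₁ = w.m₁)
    (h₂ : z.m₂ = w.m₂) (hb : z.b = w.b) (hq : z.q = w.q) (hc : z.c = w.c) (hr : z.r = w.r) :
    z = w :=
  Prod.ext (Prod.ext ha hp) (Prod.ext (Prod.ext h₁ h₂) (Prod.ext (Prod.ext hb hq) (Prod.ext hc hr)))

end TM

/-- the action -/
def act (t : TM (regL 𝒟)) (z : TM L) : TM L :=
  TM.mk (t.a • z.a) (t.a • z.p + t.p • L.ι z.a + 𝒟.d₁ t.a • L.nab z.a + (t.m₁ - t.m₂) • L.ι z.b)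
    (t.a • z.m₁ + t.m₁ • L.ι z.c) (t.a • z.m₂ + t.m₂ • L.ι z.c)
    (t.b • z.a + t.c • z.b)
    (t.b • z.p + t.q • L.ι z.a + 𝒟.d₁ t.b • L.nab z.a +
      (t.c • z.q + t.r • L.ι z.b + 𝒟.d₁ t.c • L.nab z.b))
    (t.c • z.c) (t.b • (z.m₁ - z.m₂) + (t.c • z.r + t.r • L.ι z.c + 𝒟.d₁ t.c • L.nab z.c))

lemma act_act (s t : TM (regL 𝒟)) (z : TM L) : act (act s t) z = act s (act t z) := by
  ext <;>
    simp only [act, TM.mk_a, TM.mk_p, TM.mk_m₁, TM.mk_m₂, TM.mk_b, TM.mk_q, TM.mk_c, TM.mk_r,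
      regL_ι, regL_nab, smul_eq_mul, map_add, map_smul, 𝒟.l₁, L.leib, add_smul, sub_smul,
      mul_smul, smul_add, smul_sub, mul_sub, sub_mul] <;> abel

lemma act_add (t : TM (regL 𝒟)) (z w : TM L) : act t (z + w) = act t z + act t w := by
  ext <;> simp [act, smul_sub] <;> abel

lemma add_act (s t : TM (regL 𝒟)) (z : TM L) : act (s + t) z = act s z + act t z := by
  ext <;> simp [act, add_smul, sub_smul] <;> abel

lemma act_zero (t : TM (regL 𝒟)) : act t (0 : TM L) = 0 := by ext <;> simp [act]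

lemma zero_act (z : TM L) : act 0 z = 0 := by ext <;> simp [act]

lemma one_act (z : TM L) : act (TM.mk 1 0 0 0 0 0 1 0) z = z := by ext <;> simp [act]

lemma act_one (t : TM (regL 𝒟)) : act t (TM.mk 1 0 0 0 0 0 1 0 : TM (regL 𝒟)) = t := by
  ext <;> simp [act]

variable (𝒟) in
/-- the Morita ring -/
def T : Type := TM (regL 𝒟)

/-- the underlying octuple -/
def T.o (t : T 𝒟) : TM (regL 𝒟) := t

/-- an octuple as a ring element -/
def TM.t (z : TM (regL 𝒟)) : T 𝒟 := z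

instance : Ring (T 𝒟) :=
  { (inferInstanceAs (AddCommGroup (TM (regL 𝒟))) : AddCommGroup (T 𝒟)) with
    mul := fun s t => act s.o t.o
    one := TM.mk 1 0 0 0 0 0 1 0
    left_distrib := act_add
    right_distrib := add_act
    zero_mul := zero_act
    mul_zero := act_zero
    one_mul := one_act
    mul_one := act_one
    mul_assoc := act_act }

instance : Module k (T 𝒟) :=
  inferInstanceAs (Module k ((B × B) × (B × B) × (B × B) × (B × B)))

lemma T.ext {s t : T 𝒟} (h : s.o = t.o) : s = t := h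

@[simp] lemma T.o_t (z : TM (regL 𝒟)) : z.t.o = z := rfl
@[simp] lemma T.t_o (t : T 𝒟) : t.o.t = t := rfl
@[simp] lemma T.mul_o (s t : T 𝒟) : (s * t).o = act s.o t.o := rfl
@[simp] lemma T.add_o (s t : T 𝒟) : (s + t).o = s.o + t.o := rfl
@[simp] lemma T.sub_o (s t : T 𝒟) : (s - t).o = s.o - t.o := rfl
@[simp] lemma T.neg_o (s : T 𝒟) : (-s).o = -s.o := rfl
@[simp] lemma T.zero_o : (0 : T 𝒟).o = 0 := rfl
@[simp] lemma T.one_o : (1 : T 𝒟).o = TM.mk 1 0 0 0 0 0 1 0 := rfl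
@[simp] lemma T.smul_o (c : k) (t : T 𝒟) : (c • t).o = TM.mk (c • t.o.a) (c • t.o.p) (c • t.o.m₁)
    (c • t.o.m₂) (c • t.o.b) (c • t.o.q) (c • t.o.c) (c • t.o.r) := rfl

instance : Algebra k (T 𝒟) :=
  Algebra.ofModule
    (fun c s t => T.ext <| by ext <;> simp [act, smul_sub, sub_mul, mul_sub])
    (fun c s t => T.ext <| by ext <;> simp [act, smul_sub, sub_mul, mul_sub])

instance : Module (T 𝒟) (TM L) where
  smul t z := act t.o z
  one_smul := one_act
  mul_smul := act_act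
  smul_zero := act_zero
  smul_add := act_add
  add_smul := add_act
  zero_smul := zero_act

lemma TM.smul_def (t : T 𝒟) (z : TM L) : t • z = act t.o z := rfl

/-- the upper left corner, modulo the image of the crossed module -/
def T.π : T 𝒟 →+* B where
  toFun t := t.o.a
  map_one' := rfl
  map_mul' _ _ := rfl
  map_zero' := rfl
  map_add' _ _ := rfl

lemma T.π_apply (t : T 𝒟) : T.π t = t.o.a := rfl

variable (𝒟)

/-- first idempotent -/
def e₁ : T 𝒟 := (TM.mk 1 0 0 0 0 0 0 0).t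
/-- the differential -/
def δ : T 𝒟 := (TM.mk 0 0 0 0 1 0 0 0).t
/-- the sum of the differential and of the generator of the kernel -/
def κ : T 𝒟 := (TM.mk 0 0 1 1 1 0 0 0).t
/-- diagonal elements with a sign -/
def sgn (a : B) : T 𝒟 := (TM.mk a 0 0 0 0 0 (-a) 0).t
/-- elements of the crossed module -/
def mu (m₁ m₂ : B) : T 𝒟 := (TM.mk 0 0 m₁ m₂ 0 0 0 0).t

variable {𝒟}

lemma κ_mul_κ : κ 𝒟 * κ 𝒟 = 0 := T.ext <| by ext <;> simp [κ, act]

lemma κ_smul (z : TM L) :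
    κ 𝒟 • z = TM.mk 0 0 (L.ι z.c) (L.ι z.c) z.a z.p 0 (z.m₁ - z.m₂) := by
  ext <;> simp [κ, TM.smul_def, act]

lemma δ_smul (z : TM L) : δ 𝒟 • z = TM.mk 0 0 0 0 z.a z.p 0 (z.m₁ - z.m₂) := by
  ext <;> simp [δ, TM.smul_def, act]

lemma e₁_smul (z : TM L) : e₁ 𝒟 • z = TM.mk z.a z.p z.m₁ z.m₂ 0 0 0 0 := by
  ext <;> simp [e₁, TM.smul_def, act]

/-- the action on a fixed vector -/
def evT {U : Type} [AddCommGroup U] [Module (T 𝒟) U] (u : U) : TM (regL 𝒟) →ₗ[T 𝒟] U where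
  toFun z := z.t • u
  map_add' z w := add_smul z.t w.t u
  map_smul' s z := mul_smul s z.t u

lemma evT_apply {U : Type} [AddCommGroup U] [Module (T 𝒟) U] (u : U) (z : TM (regL 𝒟)) :
    evT u z = z.t • u := rfl

variable (L)

/-- the right action of `κ` -/
def κR : TM L →ₗ[T 𝒟] TM L where
  toFun z := TM.mk 0 (z.m₁ - z.m₂) (L.ι z.a) (L.ι z.a) z.c z.r 0 0
  map_add' z w := by ext <;> simp; abel
  map_smul' t z := by ext <;> simp [TM.smul_def, act, smul_sub, sub_smul]; abel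

/-- the right action of the first idempotent -/
def eR : TM L →ₗ[T 𝒟] TM L where
  toFun z := TM.mk z.a z.p 0 0 z.b z.q 0 0
  map_add' z w := by ext <;> simp
  map_smul' t z := by ext <;> simp [TM.smul_def, act]

variable {L}

lemma κR_apply (z : TM L) :
    κR L z = TM.mk 0 (z.m₁ - z.m₂) (L.ι z.a) (L.ι z.a) z.c z.r 0 0 := rfl

lemma eR_apply (z : TM L) : eR L z = TM.mk z.a z.p 0 0 z.b z.q 0 0 := rfl

lemma evT_κ (z : TM (regL 𝒟)) : evT (κ 𝒟).o z = κR (regL 𝒟) z := by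
  ext <;> simp [evT_apply, κR_apply, κ, TM.smul_def, act]

end Vale.Agent.P195
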