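import Vale.Agent.P195.Ids

/-!
An explicit projective resolution of the induced module, and the vanishing of its higher
extensions with values in the basic module.
-/

namespace Vale.Agent.P195

open Vale.Agent.P176

variable {k : Type} [Field k]

variable (k) in
/-- the columns of the algebra -/
abbrev PP (u : ℤ × ℤ) : Type := MM (PF k u)

/-- entries as ring elements -/
noncomputable def TT {u : ℤ × ℤ} (v : W) : PP k u →+ Tk k where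
  toFun z := (z.e v).t
  map_zero' := rfl
  map_add' _ _ := rfl

lemma TT_ext {u : ℤ × ℤ} {z z' : PP k u} (h : ∀ v, TT v z = TT v z') : z = z' := MM.ext h

/-- right multiplication -/
noncomputable def rP {u u' : ℤ × ℤ} (t : Tk k) (ht : t ∈ TF k (u - u')) :
    PP k u →ₗ[Gam k] PP k u' := evP (PF k u') u t.o (mem_TF.2 ht)

lemma TT_rP {u u' : ℤ × ℤ} (t : Tk k) (ht : t ∈ TF k (u - u')) (z : PP k u) (v : W) :
    TT v (rP t ht z) = TT v z * t := rfl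

variable (k) in
/-- the differential -/
noncomputable def KK (u : ℤ × ℤ) : PP k u →ₗ[Gam k] PP k u := (regF k 0 0 u).K

lemma TT_KK {u : ℤ × ℤ} (z : PP k u) (v : W) : TT v (KK k u z) = TT v z * κ (der k) :=
  congrArg TM.t (evT_κ _).symm

variable (k) in
/-- the half columns -/
noncomputable def EE (u : ℤ × ℤ) (n : ℕ) : Submodule (Gam k) (PP k u) :=
  LinearMap.eqLocus (rP (ee k n) (ee_mem n u)) LinearMap.id

lemma mem_EE {u : ℤ × ℤ} {n : ℕ} {z : PP k u} :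
    z ∈ EE k u n ↔ ∀ v, TT v z * ee k n = TT v z :=
  ⟨fun h v => congrArg (TT v) h, fun h => TT_ext h⟩

lemma rP_ee_mem {u : ℤ × ℤ} (n : ℕ) (z : PP k u) : rP (ee k n) (ee_mem n u) z ∈ EE k u n :=
  mem_EE.2 fun v => by rw [TT_rP, mul_assoc, ee_ee]

lemma isSm_EE (u : ℤ × ℤ) (n : ℕ) : IsSm (EE k u n) := ⟨_, rP_ee_mem n, fun _ hz => hz⟩

lemma augP_T (u : ℤ × ℤ) (z : PP k u) (v : W) : (augP k u z).e v = ofB (T.π (TT v z)) := rfl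

lemma π_κ : T.π (κ (der k)) = 0 := rfl

lemma π_σ (c : D k) : T.π (σ c) = B.mk c 0 := rfl

lemma π_ee {n : ℕ} (h : n % 2 = 1) : T.π (ee k n) = 0 := by
  rw [ee_odd h, map_sub, map_one]; exact sub_self (1 : B k)

lemma exists_KK {u : ℤ × ℤ} (hu : u.1 ≤ 1) {n : ℕ} {z : PP k u} (hz : z ∈ EE k u n)
    (e : KK k u z = 0) : ∃ z' ∈ EE k u (n + 1), KK k u z' = z := by
  obtain ⟨z', rfl⟩ := (regF_ex 0 0 hu).K z e
  refine ⟨_, rP_ee_mem _ z', TT_ext fun v => ?_⟩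
  rw [TT_KK, TT_rP, mul_assoc, ee_κ, ← mul_assoc, ← TT_KK]
  exact mem_EE.1 hz v

lemma resP {u : ℤ × ℤ} (hu : ∃ w, deg w = u) :
    IsRes (EE k u) (fun _ => KK k u) (augP k u) := by
  obtain ⟨w, rfl⟩ := hu
  refine ⟨fun n => (isSm_EE _ n).projective, fun n z hz => mem_EE.2 fun v => ?_,
    fun z => ⟨secP z, mem_EE.2 fun v => ?_, augP_secP z⟩, fun z _ => MM.ext fun v => ?_,
    fun n z _ => Fam4.K_K _ z, fun z hz e => exists_KK (deg_fst_le w) hz (TT_ext fun v => ?_),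
    fun n z hz e => exists_KK (deg_fst_le w) hz e⟩
  · rw [TT_KK, mul_assoc, ← ee_κ, ← mul_assoc, mem_EE.1 hz]
  · rw [ee_even rfl]
    change (TM.mk (toB (z.e v)) 0 0 0 0 0 0 0).t * _ = (TM.mk (toB (z.e v)) 0 0 0 0 0 0 0).t
    refine T.ext ?_
    ext <;> simp [e₁, act, dd_one]
  · rw [augP_T, TT_KK, map_mul, π_κ, mul_zero]; rfl
  · have h : ofB (TT v z).o.a = 0 := congrArg (fun x : J k (deg w) => x.e v) e
    have h1 : (TT v z).o.a.f = 0 := congrArg Z1.f h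
    have h2 : (TT v z).o.a.s = 0 := congrArg Z1.s h
    rw [TT_KK, ← mem_EE.1 hz, ee_even rfl, map_zero]
    refine T.ext ?_
    ext <;> simp [e₁, κ, act, h1, h2]

/-- right multiplication by a diagonal element -/
noncomputable def rs {u u' : ℤ × ℤ} (c : D k) (hc : c ∈ Fam k 0 (u - u')) :
    PP k u →ₗ[Gam k] PP k u' := rP (σ c) (σ_mem hc)

lemma TT_rs {u u' : ℤ × ℤ} (c : D k) (hc : c ∈ Fam k 0 (u - u')) (z : PP k u) (v : W) :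
    TT v (rs c hc z) = TT v z * σ c := rfl

lemma rs_mem {u u' : ℤ × ℤ} (c : D k) (hc : c ∈ Fam k 0 (u - u')) {n : ℕ} {z : PP k u}
    (hz : z ∈ EE k u n) : rs c hc z ∈ EE k u' n :=
  mem_EE.2 fun v => by rw [TT_rs, mul_assoc, ← ee_σ, ← mul_assoc, mem_EE.1 hz]

lemma rmu_mem {u u' : ℤ × ℤ} (a b : B k) (h : mu (der k) a b ∈ TF k (u - u')) {n : ℕ}
    {z : PP k u} (hz : z ∈ EE k u n) : rP _ h z ∈ EE k u' (n + 1) :=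
  mem_EE.2 fun v => by rw [TT_rP, ← mem_EE.1 hz, mul_assoc (TT v z), mul_assoc (TT v z), ee_mu]

lemma augP_rs {u u' : ℤ × ℤ} (c : D k) (hc : c ∈ Fam k 0 (u - u')) (z : PP k u) :
    augP k u' (rs c hc z) = (isF_rm hc).ρ1 (augP k u z) := MM.ext fun v => by
  rw [augP_T, TT_rs, map_mul, π_σ, IsF.ρ1_e, augP_T]
  ext <;> simp

lemma KK_rs {u u' : ℤ × ℤ} (c : D k) (hc : c ∈ Fam k 0 (u - u')) (z : PP k u) :
    KK k u' (rs c hc z) + rs c hc (KK k u z) = 0 := TT_ext fun v => by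
  rw [map_add, TT_KK, TT_rs, TT_rs, TT_KK, mul_assoc, mul_assoc, ← mul_add, σ_κ, mul_zero,
    map_zero]

/-- vertex -/
abbrev u₀ : ℤ × ℤ := (1, 0)
/-- vertex -/
abbrev u₁ : ℤ × ℤ := (1 - 1, 0 + 1)
/-- intermediate degree -/
abbrev u' : ℤ × ℤ := (1 - 1 - 1, 0 + 1 + 1)
/-- vertex -/
abbrev u₂ : ℤ × ℤ := (1 - 1 - 1 + 1, 0 + 1 + 1)
/-- vertex -/
abbrev u₃ : ℤ × ℤ := (1 - 1 - 1 + 1 + 1, 0 + 1 + 1)

lemma hu₀ : ∃ w, deg w = u₀ := ⟨(1, 0), rfl⟩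
lemma hu₁ : ∃ w, deg w = u₁ := ⟨(0, 1), rfl⟩
lemma hu₂ : ∃ w, deg w = u₂ := ⟨(0, 2), rfl⟩
lemma hu₃ : ∃ w, deg w = u₃ := ⟨(1, 2), rfl⟩

lemma x_mem₃ (i : Fin 2) : x k i ∈ Fam k 0 (u₃ - u₂) := x_mem' i _ _
lemma x_mem₂ (i : Fin 2) : x k i ∈ Fam k 0 (u₂ - u') := x_mem' i _ _
lemma y_mem₂ (i : Fin 2) : y k i ∈ Fam k 0 (u' - u₁) := y_mem' i _ _
lemma y_mem₁ (i : Fin 2) : y k i ∈ Fam k 0 (u₁ - u₀) := y_mem' i _ _

lemma xc_mem (i : Fin 2) {c : D k} (hc : c ∈ Fam k 0 (u' - u₁)) :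
    x k i * c ∈ Fam k 0 (u₂ - u₁) := by
  rw [← sub_add_sub_cancel u₂ u' u₁]; exact Fam_mul le_rfl le_rfl (x_mem₂ i) hc

variable (k)

/-- first comparison map -/
noncomputable def τ₂ : PP k u₃ →ₗ[Gam k] PP k u₂ × PP k u₂ :=
  (rs (x k 1) (x_mem₃ 1)).prod (rs (-x k 0) (neg_mem (x_mem₃ 0)))

/-- part of the second comparison map -/
noncomputable def τc (c : D k) (hc : c ∈ Fam k 0 (u' - u₁)) :
    (PP k u₂ × PP k u₂) × PP k u₃ →ₗ[Gam k] PP k u₁ :=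
  (rs _ (xc_mem 0 hc)).coprod (rs _ (xc_mem 1 hc)) ∘ₗ LinearMap.fst _ _ _

/-- second comparison map -/
noncomputable def τ₁ : (PP k u₂ × PP k u₂) × PP k u₃ →ₗ[Gam k] PP k u₁ × PP k u₁ :=
  (τc k (y k 1) (y_mem₂ 1)).prod (τc k (-y k 0) (neg_mem (y_mem₂ 0)))

lemma μ₀_mem' : μ₀ k ∈ TF k (u₂ - u₀) := μ₀_mem
lemma μ₁_mem' : μ₁ k ∈ TF k (u₂ - u₀) := μ₁_mem
lemma one_mem₃ : (1 : D k) ∈ Fam k 0 (u₃ - u₀) := one_mem_Fam (b := 2) 0 (by norm_num)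

/-- third comparison map -/
noncomputable def τ₀ (n : ℕ) :
    (PP k u₁ × PP k u₁) × (PP k u₂ × PP k u₂) × PP k u₃ →ₗ[Gam k] PP k u₀ :=
  ((rs _ (y_mem₁ 0)).coprod (rs _ (y_mem₁ 1))).coprod
    (((rP _ (μ₀_mem' k)).coprod (rP _ (μ₁_mem' k))).coprod ((n / 2) • rs 1 (one_mem₃ k)))

/-- terms -/
noncomputable abbrev E2 (u : ℤ × ℤ) (n : ℕ) : Submodule (Gam k) (PP k u × PP k u) :=
  (EE k u n).prod (EE k u n)

/-- differentials -/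
noncomputable abbrev K2 (u : ℤ × ℤ) (_ : ℕ) : PP k u × PP k u →ₗ[Gam k] PP k u × PP k u :=
  (KK k u).prodMap (KK k u)

/-- terms -/
noncomputable abbrev CE₂ := coneE (E2 k u₂) (EE k u₃)
/-- differentials -/
noncomputable abbrev CD₂ := coneD (K2 k u₂) (fun _ => KK k u₃) fun _ => τ₂ k
/-- terms -/
noncomputable abbrev CE₁ := coneE (E2 k u₁) (CE₂ k)
/-- differentials -/
noncomputable abbrev CD₁ := coneD (K2 k u₁) (CD₂ k) fun _ => τ₁ k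
/-- terms -/
noncomputable abbrev CE₀ := coneE (EE k u₀) (CE₁ k)
/-- differentials -/
noncomputable abbrev CD₀ := coneD (fun _ => KK k u₀) (CD₁ k) (τ₀ k)

variable {k}

lemma τc_apply (c : D k) (hc) (b₀ b₁ : PP k u₂) (g : PP k u₃) :
    τc k c hc ((b₀, b₁), g) = rs _ (xc_mem 0 hc) b₀ + rs _ (xc_mem 1 hc) b₁ := rfl

lemma TT_τ₀ (n : ℕ) (a₀ a₁ : PP k u₁) (b₀ b₁ : PP k u₂) (g : PP k u₃) (v : W) :
    TT v (τ₀ k n ((a₀, a₁), (b₀, b₁), g)) = TT v a₀ * σ (y k 0) + TT v a₁ * σ (y k 1) +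
      (TT v b₀ * μ₀ k + TT v b₁ * μ₁ k + (n / 2) • (TT v g * σ 1)) := rfl

lemma kX : KosD (AF k u₃) (AF k u₂) (AF k u') (rm (x k 1)) (rm (-x k 0))
    (rm (x k 0)) (rm (x k 1)) := kosX (by norm_num) _

variable (k) in
/-- augmentation -/
noncomputable def aug₂ : (PP k u₂ × PP k u₂) × PP k u₃ →ₗ[Gam k] J k u' :=
  kX.hg₀.ρ1.coprod kX.hg₁.ρ1 ∘ₗ (augP k u₂).prodMap (augP k u₂) ∘ₗ LinearMap.fst _ _ _

lemma res₂ : IsRes (CE₂ k) (CD₂ k) (aug₂ k) :=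
  ((resP hu₂).prod (resP hu₂)).cone (resP hu₃) kX.ses1 (fun _ => τ₂ k)
    (fun _ _ hz => ⟨rs_mem _ _ hz, rs_mem _ _ hz⟩)
    (fun z _ => Prod.ext (augP_rs _ (x_mem₃ 1) z) (augP_rs _ (neg_mem (x_mem₃ 0)) z))
    (fun _ z _ => Prod.ext (KK_rs _ _ z) (KK_rs _ _ z))

lemma τc_mem (c : D k) (hc) (n : ℕ) (z) (hz : z ∈ CE₂ k n) : τc k c hc z ∈ EE k u₁ n := by
  cases n <;> exact add_mem (rs_mem _ (xc_mem 0 hc) hz.1.1) (rs_mem _ (xc_mem 1 hc) hz.1.2)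

lemma τc_aug (c : D k) (hc) (z) : augP k u₁ (τc k c hc z) = (isF_rm hc).ρ1 (aug₂ k z) := by
  obtain ⟨⟨b₀, b₁⟩, g⟩ := z
  rw [τc_apply, map_add, augP_rs, augP_rs]
  change _ = (isF_rm hc).ρ1 (kX.hg₀.ρ1 (augP k u₂ b₀) + kX.hg₁.ρ1 (augP k u₂ b₁))
  refine MM.ext fun v => ?_
  ext <;> simp [mul_assoc]

lemma τc_D (c : D k) (hc) (n : ℕ) (z) : KK k u₁ (τc k c hc z) + τc k c hc (CD₂ k n z) = 0 := by
  obtain ⟨⟨b₀, b₁⟩, g⟩ := z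
  have : τc k c hc (CD₂ k n ((b₀, b₁), g)) =
      rs _ (xc_mem 0 hc) (KK k u₂ b₀ + rs (x k 1) (x_mem₃ 1) g) +
      rs _ (xc_mem 1 hc) (KK k u₂ b₁ + rs (-x k 0) (neg_mem (x_mem₃ 0)) g) := by
    cases n <;> rfl
  rw [this, τc_apply]
  refine TT_ext fun v => ?_
  simp only [map_add, TT_KK, TT_rs, map_zero]
  linear_combination (norm := noncomm_ring) TT v b₀ * σ_κ (x k 0 * c) +
    TT v b₁ * σ_κ (x k 1 * c) + TT v g * σ_x c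

variable [CharZero k]

variable (k) in
/-- augmentation -/
noncomputable def aug₁ :
    (PP k u₁ × PP k u₁) × (PP k u₂ × PP k u₂) × PP k u₃ →ₗ[Gam k] MM (KF k u₀).z1 :=
  (kosY 1 0).hg₀.ρ1.coprod (kosY 1 0).hg₁.ρ1 ∘ₗ (augP k u₁).prodMap (augP k u₁) ∘ₗ
    LinearMap.fst _ _ _

lemma res₁ : IsRes (CE₁ k) (CD₁ k) (aug₁ k) :=
  ((resP hu₁).prod (resP hu₁)).cone res₂ (kosY 1 0).ses1 (fun _ => τ₁ k)
    (fun n z hz => ⟨τc_mem _ _ n z hz, τc_mem _ _ n z hz⟩)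
    (fun z _ => Prod.ext (τc_aug _ (y_mem₂ 1) z) (τc_aug _ (neg_mem (y_mem₂ 0)) z))
    (fun n z _ => Prod.ext (τc_D _ _ n z) (τc_D _ _ n z))

omit [CharZero k] in
lemma τ₀_apply (n : ℕ) (a₀ a₁ : PP k u₁) (b₀ b₁ : PP k u₂) (g : PP k u₃) :
    τ₀ k n ((a₀, a₁), (b₀, b₁), g) = rs _ (y_mem₁ 0) a₀ + rs _ (y_mem₁ 1) a₁ +
      (rP _ (μ₀_mem' k) b₀ + rP _ (μ₁_mem' k) b₁ + (n / 2) • rs 1 (one_mem₃ k) g) := rfl

omit [CharZero k] in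
lemma τ₀_mem (n : ℕ) (z) (hz : z ∈ CE₁ k n) : τ₀ k n z ∈ EE k u₀ n := by
  obtain ⟨⟨a₀, a₁⟩, ⟨b₀, b₁⟩, g⟩ := z
  rw [τ₀_apply]
  rcases n with _ | _ | n
  · obtain ⟨⟨h₀, h₁⟩, h⟩ := hz
    obtain ⟨⟨rfl, rfl⟩, rfl⟩ : (b₀ = 0 ∧ b₁ = 0) ∧ g = 0 := by
      simpa only [SetLike.mem_coe, Submodule.mem_bot, Prod.mk_eq_zero] using h
    simp only [map_zero, smul_zero, add_zero]
    exact add_mem (rs_mem _ _ h₀) (rs_mem _ _ h₁)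
  · obtain ⟨⟨h₀, h₁⟩, ⟨h₂, h₃⟩, -⟩ := hz
    rw [show (0 + 1) / 2 = 0 from rfl, zero_smul, add_zero]
    exact add_mem (add_mem (rs_mem _ _ h₀) (rs_mem _ _ h₁))
      (add_mem (rmu_mem _ _ _ h₂) (rmu_mem _ _ _ h₃))
  · obtain ⟨⟨h₀, h₁⟩, ⟨h₂, h₃⟩, h₄⟩ := hz
    refine add_mem (add_mem (rs_mem _ _ h₀) (rs_mem _ _ h₁))
      (add_mem (add_mem (rmu_mem _ _ _ h₂) (rmu_mem _ _ _ h₃)) (nsmul_mem (rs_mem _ _ ?_) _))
    exact mem_EE.2 fun v => by rw [ee_two]; exact mem_EE.1 h₄ v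

lemma τ₀_aug (z) : augP k u₀ (τ₀ k 0 z) = (sesV 1).hf.ρ1 (aug₁ k z) := by
  obtain ⟨⟨a₀, a₁⟩, ⟨b₀, b₁⟩, g⟩ := z
  change _ = (sesV 1).hf.ρ1 ((kosY 1 0).hg₀.ρ1 (augP k u₁ a₀) + (kosY 1 0).hg₁.ρ1 (augP k u₁ a₁))
  refine MM.ext fun v => ?_
  rw [augP_T, TT_τ₀]
  ext <;> simp [augP_T, T.π_apply, μ₀, μ₁, mu, act, σ, sgn]

omit [CharZero k] in
lemma τ₀_D (n : ℕ) (z) (hz : z ∈ CE₁ k (n + 1)) :
    KK k u₀ (τ₀ k (n + 1) z) + τ₀ k n (CD₁ k n z) = 0 := by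
  obtain ⟨⟨a₀, a₁⟩, ⟨b₀, b₁⟩, g⟩ := z
  refine TT_ext fun v => ?_
  rcases n with _ | _ | n
  · obtain ⟨-, ⟨h₂, h₃⟩, -⟩ := hz
    have e : CD₁ k 0 ((a₀, a₁), (b₀, b₁), g) =
        ((KK k u₁ a₀ + τc k _ (y_mem₂ 1) ((b₀, b₁), g),
          KK k u₁ a₁ + τc k _ (neg_mem (y_mem₂ 0)) ((b₀, b₁), g)), (0, 0), 0) := rfl
    have e₀ : TT v b₀ * κ (der k) * μ₀ k = 0 := by
      rw [← mem_EE.1 h₂ v, mul_assoc, mul_assoc, ← mul_assoc (ee k 0), μ₀, e₁_κ_mu, mul_zero]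
    have e₁ : TT v b₁ * κ (der k) * μ₁ k = 0 := by
      rw [← mem_EE.1 h₃ v, mul_assoc, mul_assoc, ← mul_assoc (ee k 0), μ₁, e₁_κ_mu, mul_zero]
    rw [e]
    simp only [map_add, TT_KK, TT_τ₀, τc_apply, TT_rs, map_zero, Nat.reduceAdd, Nat.reduceDiv,
      zero_smul]
    linear_combination (norm := noncomm_ring) TT v a₀ * σ_κ (y k 0) + TT v a₁ * σ_κ (y k 1) +
      TT v b₀ * μ₀_κ (k := k) + TT v b₁ * μ₁_κ (k := k) - e₀ - e₁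
  · obtain ⟨-, -, h₄⟩ := hz
    have e : CD₁ k (0 + 1) ((a₀, a₁), (b₀, b₁), g) =
        ((KK k u₁ a₀ + τc k _ (y_mem₂ 1) ((b₀, b₁), g),
          KK k u₁ a₁ + τc k _ (neg_mem (y_mem₂ 0)) ((b₀, b₁), g)),
          (KK k u₂ b₀ + rs _ (x_mem₃ 1) g, KK k u₂ b₁ + rs _ (neg_mem (x_mem₃ 0)) g), 0) := rfl
    have e₀ := congrArg (TT v g * ·) (ee_ω (k := k) 0)
    simp only [← mul_assoc, mem_EE.1 h₄ v, Nat.reduceAdd, Nat.reduceDiv, zero_smul,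
      one_smul] at e₀
    rw [e]
    simp only [map_add, TT_KK, TT_τ₀, τc_apply, TT_rs, map_zero, Nat.reduceAdd, Nat.reduceDiv,
      zero_smul, one_smul]
    linear_combination (norm := noncomm_ring) TT v a₀ * σ_κ (y k 0) + TT v a₁ * σ_κ (y k 1) +
      TT v b₀ * μ₀_κ (k := k) + TT v b₁ * μ₁_κ (k := k) +
      TT v g * σ_μ (k := k) + e₀
  · obtain ⟨-, -, h₄⟩ := hz
    have e : CD₁ k (n + 1 + 1) ((a₀, a₁), (b₀, b₁), g) =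
        ((KK k u₁ a₀ + τc k _ (y_mem₂ 1) ((b₀, b₁), g),
          KK k u₁ a₁ + τc k _ (neg_mem (y_mem₂ 0)) ((b₀, b₁), g)),
          (KK k u₂ b₀ + rs _ (x_mem₃ 1) g, KK k u₂ b₁ + rs _ (neg_mem (x_mem₃ 0)) g),
          KK k u₃ g) := rfl
    have e₀ := congrArg (TT v g * ·) (ee_ω (k := k) (n + 1))
    simp only [← mul_assoc, mem_EE.1 h₄ v] at e₀
    rw [e]
    simp only [map_add, TT_KK, TT_τ₀, τc_apply, TT_rs, map_zero]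
    linear_combination (norm := noncomm_ring) TT v a₀ * σ_κ (y k 0) + TT v a₁ * σ_κ (y k 1) +
      TT v b₀ * μ₀_κ (k := k) + TT v b₁ * μ₁_κ (k := k) +
      TT v g * σ_μ (k := k) + e₀

lemma res₀ : IsRes (CE₀ k) (CD₀ k) ((sesV 1).hg.ρ1 ∘ₗ augP k u₀ ∘ₗ LinearMap.fst _ _ _) :=
  (resP hu₀).cone res₁ (sesV 1).ses1 (τ₀ k) τ₀_mem (fun z _ => τ₀_aug z) τ₀_D

omit [CharZero k] in
lemma hom_F {u : ℤ × ℤ} (hu : ∃ w, deg w = u) (φ : PP k u →ₗ[Gam k] FF k (-1)) :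
    ∃ c ∈ FV k 0 (u.1 + -1), ∀ z v, ((φ z).e v).o = (T.π (TT v z)).f • c := by
  obtain ⟨w, rfl⟩ := hu
  obtain ⟨c, hc, rfl⟩ := exists_evP w φ
  exact ⟨c.o, hc, fun _ _ => rfl⟩

omit [CharZero k] in
lemma hom_F_zero {u : ℤ × ℤ} (hu : ∃ w, deg w = u) (h : u.1 = 0)
    (φ : PP k u →ₗ[Gam k] FF k (-1)) (z : PP k u) : φ z = 0 := by
  obtain ⟨c, hc, e⟩ := hom_F hu φ
  refine MM.ext fun v => Z0.ext ?_
  rw [e, FV_neg (by omega) hc, smul_zero]; rfl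

omit [CharZero k] in
lemma hom_F_odd {u : ℤ × ℤ} (hu : ∃ w, deg w = u) (φ : PP k u →ₗ[Gam k] FF k (-1)) {n : ℕ}
    (hn : n % 2 = 1) {z : PP k u} (hz : z ∈ EE k u n) : φ z = 0 := by
  obtain ⟨c, -, e⟩ := hom_F hu φ
  refine MM.ext fun v => Z0.ext ?_
  rw [e, ← mem_EE.1 hz, map_mul, π_ee hn, mul_zero, B.zero_f, zero_smul]; rfl

omit [CharZero k] in
lemma hom_F_KK {u : ℤ × ℤ} (hu : ∃ w, deg w = u) (φ : PP k u →ₗ[Gam k] FF k (-1))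
    (z : PP k u) : φ (KK k u z) = 0 := by
  obtain ⟨c, -, e⟩ := hom_F hu φ
  refine MM.ext fun v => Z0.ext ?_
  rw [e, TT_KK, map_mul, π_κ, mul_zero, B.zero_f, zero_smul]; rfl

omit [CharZero k] in
lemma hom_split (φ : PP k u₀ × (PP k u₁ × PP k u₁) × (PP k u₂ × PP k u₂) × PP k u₃ →ₗ[Gam k]
    FF k (-1)) : ∃ (φ₀ : PP k u₀ →ₗ[Gam k] FF k (-1)) (φ₃ : PP k u₃ →ₗ[Gam k] FF k (-1)),
      ∀ z, φ z = φ₀ z.1 + φ₃ z.2.2.2 := by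
  obtain ⟨⟨φ₀, φ⟩, rfl⟩ := (LinearMap.coprodEquiv ℕ).surjective φ
  obtain ⟨⟨φ₁, φ⟩, rfl⟩ := (LinearMap.coprodEquiv ℕ).surjective φ
  obtain ⟨⟨φ₂, φ₃⟩, rfl⟩ := (LinearMap.coprodEquiv ℕ).surjective φ
  obtain ⟨⟨φ₁, φ₁'⟩, rfl⟩ := (LinearMap.coprodEquiv ℕ).surjective φ₁
  obtain ⟨⟨φ₂, φ₂'⟩, rfl⟩ := (LinearMap.coprodEquiv ℕ).surjective φ₂
  refine ⟨φ₀, φ₃, fun z => ?_⟩
  simp only [LinearMap.coprodEquiv_apply, LinearMap.coprod_apply, hom_F_zero hu₁ rfl,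
    hom_F_zero hu₂ rfl, add_zero, zero_add]

omit [CharZero k] in
lemma CD₀_fst (n : ℕ) (z) : (CD₀ k n z).1 = KK k u₀ z.1 + τ₀ k n z.2 := by cases n <;> rfl

omit [CharZero k] in
lemma hom_τ₀ (φ : PP k u₀ →ₗ[Gam k] FF k (-1)) (n : ℕ) (z) :
    φ (CD₀ k n z).1 = (n / 2) • φ (rs 1 (one_mem₃ k) z.2.2.2) := by
  obtain ⟨g₀, ⟨a₀, a₁⟩, ⟨b₀, b₁⟩, g⟩ := z
  have h₁ := fun t ht => hom_F_zero hu₁ rfl (φ ∘ₗ rP t ht)
  have h₂ := fun t ht => hom_F_zero hu₂ rfl (φ ∘ₗ rP t ht)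
  simp only [LinearMap.comp_apply] at h₁ h₂
  simp only [CD₀_fst, τ₀_apply, map_add, map_nsmul, hom_F_KK hu₀, rs, h₁, h₂, zero_add]

omit [CharZero k] in
lemma CE₀_last {n : ℕ} {z} (hz : z ∈ CE₀ k n) : z.2.2.2 ∈ EE k u₃ (n + 1) := by
  rcases n with _ | _ | _ | n
  · rw [show z.2 = 0 from hz.2]; exact zero_mem _
  · rw [show z.2.2 = 0 from hz.2.2]; exact zero_mem _
  · rw [show z.2.2.2 = 0 from hz.2.2.2]; exact zero_mem _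
  · exact mem_EE.2 fun v => by rw [ee_two, ee_two]; exact mem_EE.1 hz.2.2.2 v

omit [CharZero k] in
lemma CE₀_fst {n : ℕ} {z} (hz : z ∈ CE₀ k n) : z.1 ∈ EE k u₀ n := by cases n <;> exact hz.1

omit [CharZero k] in
lemma CD₀_last (n : ℕ) (z) : ∃ g, (CD₀ k n z).2.2.2 = KK k u₃ g := by
  rcases n with _ | _ | _ | n
  exacts [⟨0, (map_zero _).symm⟩, ⟨0, (map_zero _).symm⟩, ⟨0, (map_zero _).symm⟩, ⟨_, rfl⟩]

lemma van_IF_F_one (n : ℕ) : Van (Gam k) (IF k (-1)) (FF k (-1)) (n + 1) := by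
  have h2 : ∀ u n, IsSm (E2 k u n) := fun u n => (isSm_EE u n).prod (isSm_EE u n)
  refine res₀.van' (IsSm.cone (isSm_EE _) (IsSm.cone (h2 _) (IsSm.cone (h2 _) (isSm_EE _))))
    (fun n φ hφ => ?_) n
  obtain ⟨φ₀, φ₃, e⟩ := hom_split φ
  rcases Nat.mod_two_eq_zero_or_one n with h | h
  · rcases n with _ | n
    · refine ⟨0, fun z hz => ?_⟩
      rw [e, hom_F_odd hu₀ φ₀ rfl (CE₀_fst hz), show z.2.2 = 0 from hz.2.2]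
      simp
    · obtain ⟨c, hc, ec⟩ := hom_F hu₃ φ₃
      have hq : (((n + 1) / 2 : ℕ) : k) ≠ 0 := Nat.cast_ne_zero.2 (by omega)
      refine ⟨evP _ u₀ (Z0.mk ((((n + 1) / 2 : ℕ) : k)⁻¹ • c)) (Submodule.smul_mem _ _ hc) ∘ₗ
        LinearMap.fst _ _ _, fun z hz => ?_⟩
      rw [e, hom_F_odd hu₀ φ₀ (by omega) (CE₀_fst hz), zero_add, LinearMap.comp_apply,
        LinearMap.fst_apply, hom_τ₀]
      refine MM.ext fun v => Z0.ext ?_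
      rw [ec]
      change _ = ((n + 1) / 2) • (T.π (TT v z.2.2.2 * σ 1)).f • (((n + 1) / 2 : ℕ) : k)⁻¹ • c
      rw [map_mul, π_σ, mk_one, mul_one, smul_comm_V, ← Nat.cast_smul_eq_nsmul k, smul_inv_smul₀ hq]
  · obtain ⟨n, rfl⟩ : ∃ m, n = m + 1 := ⟨n - 1, by omega⟩
    obtain ⟨c, hc, ec⟩ := hom_F hu₀ φ₀
    have hq : (((n + 1 + 1) / 2 : ℕ) : k) ≠ 0 := Nat.cast_ne_zero.2 (by omega)
    obtain ⟨g₁, h4⟩ : ∃ g : PP k u₃, TT (1, 2) g = 1 := ⟨colOut (1, 2) (1 : Gam k), by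
      change ((1 : Gam k).m (1, 2) (1, 2)).o.t = 1
      rw [map_one, Matrix.one_apply_eq]; rfl⟩
    have h1 := hφ (0, 0, 0, rP (ee k n) (ee_mem n u₃) g₁)
      ⟨zero_mem _, zero_mem _, zero_mem _, rP_ee_mem n _⟩
    obtain ⟨g, hg⟩ := CD₀_last (k := k) (n + 1 + 1) (0, 0, 0, rP (ee k n) (ee_mem n u₃) g₁)
    rw [e, hg, hom_F_KK hu₃, add_zero, hom_τ₀] at h1
    have h3 : ((n + 1 + 1) / 2) • ((φ₀ (rs 1 (one_mem₃ k)
        (rP (ee k n) (ee_mem n u₃) g₁))).e (1, 2)).o = 0 :=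
      congrArg (fun x : FF k (-1) => (x.e (1, 2)).o) h1
    rw [ec, TT_rs, TT_rP, h4, one_mul, map_mul, π_σ, mk_one, mul_one, ee_even (by omega),
      show T.π (e₁ (der k)) = 1 from rfl, B.one_f, one_smul, ← Nat.cast_smul_eq_nsmul k,
      smul_eq_zero] at h3
    refine ⟨0, fun z hz => ?_⟩
    rw [e, hom_F_odd hu₃ φ₃ (by omega) (CE₀_last hz), add_zero]
    refine MM.ext fun v => Z0.ext ?_
    rw [ec, h3.resolve_left hq, smul_zero]; rfl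

end Vale.Agent.P195
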