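import Vale.Agent.P195.T8
import Vale.Agent.P195.FamA
import Vale.Agent.P195.Homol2

/-!
The finite-dimensional algebra `Gam` of matrices with entries of prescribed degree, and the modules
obtained from filtered modules over the Morita ring.
-/

namespace Vale.Agent.P195

open Vale.Agent.P176

variable (k : Type) [Field k]

/-- dual numbers over the ring of operators -/
def B : Type := DualNumber (D k)

noncomputable instance : Ring (B k) := inferInstanceAs (Ring (DualNumber (D k)))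
noncomputable instance : Algebra k (B k) := inferInstanceAs (Algebra k (DualNumber (D k)))

variable {k}

/-- constructor -/
def B.mk (a a' : D k) : B k := ((a, a') : D k × D k)
/-- first component -/
def B.f (b : B k) : D k := TrivSqZeroExt.fst (R := D k) (M := D k) b
/-- second component -/
def B.s (b : B k) : D k := TrivSqZeroExt.snd (R := D k) (M := D k) b

@[simp] lemma B.mk_f (a a' : D k) : (B.mk a a').f = a := rfl
@[simp] lemma B.mk_s (a a' : D k) : (B.mk a a').s = a' := rfl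
@[ext] lemma B.ext {b b' : B k} (h : b.f = b'.f) (h' : b.s = b'.s) : b = b' := Prod.ext h h'
@[simp] lemma B.add_f (b b' : B k) : (b + b').f = b.f + b'.f := rfl
@[simp] lemma B.add_s (b b' : B k) : (b + b').s = b.s + b'.s := rfl
@[simp] lemma B.sub_f (b b' : B k) : (b - b').f = b.f - b'.f := rfl
@[simp] lemma B.sub_s (b b' : B k) : (b - b').s = b.s - b'.s := rfl
@[simp] lemma B.neg_f (b : B k) : (-b).f = -b.f := rfl
@[simp] lemma B.neg_s (b : B k) : (-b).s = -b.s := rfl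
@[simp] lemma B.zero_f : (0 : B k).f = 0 := rfl
@[simp] lemma B.zero_s : (0 : B k).s = 0 := rfl
@[simp] lemma B.one_f : (1 : B k).f = 1 := rfl
@[simp] lemma B.one_s : (1 : B k).s = 0 := rfl
@[simp] lemma B.smul_f (c : k) (b : B k) : (c • b).f = c • b.f := rfl
@[simp] lemma B.smul_s (c : k) (b : B k) : (c • b).s = c • b.s := rfl
@[simp] lemma B.mul_f (b b' : B k) : (b * b').f = b.f * b'.f := rfl
@[simp] lemma B.mul_s (b b' : B k) : (b * b').s = b.f * b'.s + b.s * b'.f :=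
  DualNumber.snd_mul (R := D k) b b'

variable (k)

/-- the derivations, extended to dual numbers -/
noncomputable def ddB (i : Fin 2) : B k →ₗ[k] B k where
  toFun b := B.mk (dd k i b.f) (dd k i b.s)
  map_add' b b' := by ext <;> simp
  map_smul' c b := by ext <;> simp

@[simp] lemma ddB_f (i : Fin 2) (b : B k) : (ddB k i b).f = dd k i b.f := rfl
@[simp] lemma ddB_s (i : Fin 2) (b : B k) : (ddB k i b).s = dd k i b.s := rfl

lemma ddB_mul (i : Fin 2) (a b : B k) : ddB k i (a * b) = ddB k i a * b + a * ddB k i b := by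
  ext <;> simp [dd_mul]; abel

/-- the two derivations -/
noncomputable def der : Der k (B k) := ⟨ddB k 0, ddB k 1, ddB_mul k 0, ddB_mul k 1⟩

@[simp] lemma der_d₁ : (der k).d₁ = ddB k 0 := rfl
@[simp] lemma der_d₂ : (der k).d₂ = ddB k 1 := rfl

/-- the families of operators, extended to dual numbers -/
noncomputable def FB (s : Fin 2 → ℕ) (d : ℤ × ℤ) : Submodule k (B k) where
  carrier := {b | b.f ∈ Fam k s d ∧ b.s ∈ Fam k s (d + (1, 0))}
  add_mem' ha hb := ⟨add_mem ha.1 hb.1, add_mem ha.2 hb.2⟩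
  zero_mem' := ⟨zero_mem _, zero_mem _⟩
  smul_mem' c _ ha := ⟨Submodule.smul_mem _ c ha.1, Submodule.smul_mem _ c ha.2⟩

variable {k}

lemma FB_mono {s s' : Fin 2 → ℕ} (h : s ≤ s') {d : ℤ × ℤ} {b : B k} (hb : b ∈ FB k s d) :
    b ∈ FB k s' d := ⟨Fam_mono h _ hb.1, Fam_mono h _ hb.2⟩

lemma FB_mul {s s' t : Fin 2 → ℕ} (hs : s ≤ t) (hs' : s' ≤ t) {d d' : ℤ × ℤ} {a a' : B k}
    (ha : a ∈ FB k s d) (ha' : a' ∈ FB k s' d') : a * a' ∈ FB k t (d + d') := by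
  refine ⟨Fam_mul hs hs' ha.1 ha'.1, ?_⟩
  rw [B.mul_s]
  refine add_mem ?_ ?_
  · rw [add_assoc]; exact Fam_mul hs hs' ha.1 ha'.2
  · rw [add_right_comm]; exact Fam_mul hs hs' ha.2 ha'.1

lemma mk_mem_FB {s : Fin 2 → ℕ} {d : ℤ × ℤ} {a : D k} (ha : a ∈ Fam k s d) :
    B.mk a 0 ∈ FB k s d := ⟨ha, zero_mem _⟩

lemma one_mem_FB (s : Fin 2 → ℕ) {b : ℤ} (hb : 0 ≤ b) : (1 : B k) ∈ FB k s (0, b) :=
  ⟨one_mem_Fam s hb, zero_mem _⟩

lemma ddB_mem {s t : Fin 2 → ℕ} (i : Fin 2) (hs : s ≤ t) (hi : 1 ≤ t i) {d : ℤ × ℤ} {a : B k}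
    (ha : a ∈ FB k s d) : ddB k i a ∈ FB k t d :=
  ⟨dd_mem_Fam i hs hi ha.1, dd_mem_Fam i hs hi ha.2⟩

lemma FB_inf {s s' : Fin 2 → ℕ} {d : ℤ × ℤ} {a : B k} (ha : a ∈ FB k s d)
    (ha' : a ∈ FB k s' d) : a ∈ FB k (s ⊓ s') d := ⟨Fam_inf ha.1 ha'.1, Fam_inf ha.2 ha'.2⟩

lemma FB_split {s : Fin 2 → ℕ} {d : ℤ × ℤ} (hd : -1 ≤ d.1) {a : B k} (ha : a ∈ FB k s d) :
    ∃ a₀ ∈ FB k ![0, s 1] d, ∃ a₁ ∈ FB k ![s 0, 0] d, a = a₀ + a₁ := by
  obtain ⟨u₀, hu₀, u₁, hu₁, hu⟩ := Fam_split hd ha.1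
  obtain ⟨v₀, hv₀, v₁, hv₁, hv⟩ := Fam_split (by simp; omega) ha.2
  exact ⟨B.mk u₀ v₀, ⟨hu₀, hv₀⟩, B.mk u₁ v₁, ⟨hu₁, hv₁⟩, B.ext hu hv⟩

lemma FB_fg (d : ℤ × ℤ) : (FB k 1 d).FG := by
  let e : (D k × D k) →ₗ[k] B k :=
    { toFun := fun p => B.mk p.1 p.2, map_add' := fun _ _ => rfl, map_smul' := fun _ _ => rfl }
  have : FB k 1 d = ((Fam k 1 d).prod (Fam k 1 (d + (1, 0)))).map e := by
    ext b
    exact ⟨fun h => ⟨(b.f, b.s), h, rfl⟩, by rintro ⟨p, hp, rfl⟩; exact hp⟩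
  rw [this]
  exact ((Fam_fg _).prod (Fam_fg _)).map e

section Fam4

variable {V Q : Type} [AddCommGroup V] [Module (B k) V] [AddCommGroup Q] [Module (B k) Q]

/-- four compatible families of subgroups -/
structure Fam4 (L : Log (der k) V Q) where
  /-- the module itself -/
  GV : ℤ × ℤ → AddSubgroup V
  /-- the first chart -/
  G₁ : ℤ × ℤ → AddSubgroup Q
  /-- the second chart -/
  G₂ : ℤ × ℤ → AddSubgroup Q
  /-- the overlap -/
  GQ : ℤ × ℤ → AddSubgroup Q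
  hV : ∀ {d d' b v}, b ∈ FB k ![0, 0] d → v ∈ GV d' → b • v ∈ GV (d + d')
  h₁ : ∀ {d d' b v}, b ∈ FB k ![0, 0] d → v ∈ G₁ d' → b • v ∈ G₁ (d + d')
  h₂ : ∀ {d d' b v}, b ∈ FB k ![0, 0] d → v ∈ G₂ d' → b • v ∈ G₂ (d + d')
  hQ : ∀ {d d' b v}, b ∈ FB k ![0, 0] d → v ∈ GQ d' → b • v ∈ GQ (d + d')
  h₁V : ∀ {d d' b v}, b ∈ FB k ![1, 0] d → v ∈ GV d' → b • L.ι v ∈ G₁ (d + d')
  h₂V : ∀ {d d' b v}, b ∈ FB k ![0, 1] d → v ∈ GV d' → b • L.ι v ∈ G₂ (d + d')
  hQV : ∀ {d d' b v}, b ∈ FB k ![1, 1] d → v ∈ GV d' → b • L.ι v ∈ GQ (d + d')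
  hnab : ∀ {d d' b v}, b ∈ FB k ![1, 0] d → v ∈ GV d' → b • L.nab v ∈ GQ (d + d')
  le₁ : ∀ {d v}, v ∈ G₁ d → v ∈ GQ d
  le₂ : ∀ {d v}, v ∈ G₂ d → v ∈ GQ d

variable {L : Log (der k) V Q}

/-- octuples with components in the given families -/
def Fam4.G (Φ : Fam4 L) (d : ℤ × ℤ) : AddSubgroup (TM L) where
  carrier := {z | z.a ∈ Φ.GV d ∧ z.p ∈ Φ.GQ d ∧ z.m₁ ∈ Φ.G₁ d ∧ z.m₂ ∈ Φ.G₂ d ∧
    z.b ∈ Φ.GV d ∧ z.q ∈ Φ.GQ d ∧ z.c ∈ Φ.GV d ∧ z.r ∈ Φ.GQ d}
  add_mem' := fun ⟨h1, h2, h3, h4, h5, h6, h7, h8⟩ ⟨g1, g2, g3, g4, g5, g6, g7, g8⟩ =>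
    ⟨add_mem h1 g1, add_mem h2 g2, add_mem h3 g3, add_mem h4 g4, add_mem h5 g5, add_mem h6 g6,
      add_mem h7 g7, add_mem h8 g8⟩
  zero_mem' := ⟨zero_mem _, zero_mem _, zero_mem _, zero_mem _, zero_mem _, zero_mem _,
    zero_mem _, zero_mem _⟩
  neg_mem' := fun ⟨h1, h2, h3, h4, h5, h6, h7, h8⟩ =>
    ⟨neg_mem h1, neg_mem h2, neg_mem h3, neg_mem h4, neg_mem h5, neg_mem h6, neg_mem h7,
      neg_mem h8⟩

end Fam4

lemma vec_le {a b a' b' : ℕ} (h : a ≤ a') (h' : b ≤ b') : (![a, b] : Fin 2 → ℕ) ≤ ![a', b'] := by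
  intro i; fin_cases i <;> simpa

variable (k) in
/-- the families of the regular module on a chart, shifted by `u` -/
noncomputable def regF (s₀ s₁ : ℕ) (u : ℤ × ℤ) : Fam4 (regL (der k)) where
  GV d := (FB k ![s₀, s₁] (d - u)).toAddSubgroup
  G₁ d := (FB k ![max s₀ 1, s₁] (d - u)).toAddSubgroup
  G₂ d := (FB k ![s₀, max s₁ 1] (d - u)).toAddSubgroup
  GQ d := (FB k ![max s₀ 1, max s₁ 1] (d - u)).toAddSubgroup
  hV hb hv := by rw [add_sub_assoc]; exact FB_mul (vec_le (by omega) (by omega)) le_rfl hb hv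
  h₁ hb hv := by rw [add_sub_assoc]; exact FB_mul (vec_le (by omega) (by omega)) le_rfl hb hv
  h₂ hb hv := by rw [add_sub_assoc]; exact FB_mul (vec_le (by omega) (by omega)) le_rfl hb hv
  hQ hb hv := by rw [add_sub_assoc]; exact FB_mul (vec_le (by omega) (by omega)) le_rfl hb hv
  h₁V hb hv := by
    rw [add_sub_assoc]
    exact FB_mul (vec_le (by omega) (by omega)) (vec_le (by omega) (by omega)) hb hv
  h₂V hb hv := by
    rw [add_sub_assoc]
    exact FB_mul (vec_le (by omega) (by omega)) (vec_le (by omega) (by omega)) hb hv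
  hQV hb hv := by
    rw [add_sub_assoc]
    exact FB_mul (vec_le (by omega) (by omega)) (vec_le (by omega) (by omega)) hb hv
  hnab hb hv := by
    rw [add_sub_assoc]
    exact FB_mul (vec_le (by omega) (by omega)) le_rfl hb
      (ddB_mem 1 (vec_le (by omega) (by omega)) (by simp) hv)
  le₁ hv := FB_mono (vec_le (by omega) (by omega)) hv
  le₂ hv := FB_mono (vec_le (by omega) (by omega)) hv

variable (k) in
/-- the Morita ring -/
abbrev Tk : Type := T (der k)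

variable (k) in
/-- the elements of the Morita ring of degree `d` -/
noncomputable def TF (d : ℤ × ℤ) : Submodule k (Tk k) where
  carrier := {t | t.o.a ∈ FB k ![0, 0] d ∧ t.o.p ∈ FB k ![1, 1] d ∧ t.o.m₁ ∈ FB k ![1, 0] d ∧
    t.o.m₂ ∈ FB k ![0, 1] d ∧ t.o.b ∈ FB k ![0, 0] d ∧ t.o.q ∈ FB k ![1, 1] d ∧
    t.o.c ∈ FB k ![0, 0] d ∧ t.o.r ∈ FB k ![1, 1] d}
  add_mem' := fun ⟨h1, h2, h3, h4, h5, h6, h7, h8⟩ ⟨g1, g2, g3, g4, g5, g6, g7, g8⟩ =>
    ⟨add_mem h1 g1, add_mem h2 g2, add_mem h3 g3, add_mem h4 g4, add_mem h5 g5, add_mem h6 g6,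
      add_mem h7 g7, add_mem h8 g8⟩
  zero_mem' := ⟨zero_mem _, zero_mem _, zero_mem _, zero_mem _, zero_mem _, zero_mem _,
    zero_mem _, zero_mem _⟩
  smul_mem' := fun c _ ⟨h1, h2, h3, h4, h5, h6, h7, h8⟩ =>
    ⟨Submodule.smul_mem _ c h1, Submodule.smul_mem _ c h2, Submodule.smul_mem _ c h3,
      Submodule.smul_mem _ c h4, Submodule.smul_mem _ c h5, Submodule.smul_mem _ c h6,
      Submodule.smul_mem _ c h7, Submodule.smul_mem _ c h8⟩

lemma mem_TF {d u : ℤ × ℤ} {z : TM (regL (der k))} :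
    z ∈ (regF k 0 0 u).G d ↔ z.t ∈ TF k (d - u) := Iff.rfl

lemma Fam4.act_mem {V Q : Type} [AddCommGroup V] [Module (B k) V] [AddCommGroup Q]
    [Module (B k) Q] {L : Log (der k) V Q} (Φ : Fam4 L) {d d' : ℤ × ℤ} {t : Tk k} {z : TM L}
    (ht : t ∈ TF k d) (hz : z ∈ Φ.G d') : t • z ∈ Φ.G (d + d') := by
  obtain ⟨h1, h2, h3, h4, h5, h6, h7, h8⟩ := ht
  obtain ⟨g1, g2, g3, g4, g5, g6, g7, g8⟩ := hz
  have hd : ∀ {b : B k}, b ∈ FB k ![0, 0] d → ddB k 0 b ∈ FB k ![1, 0] d := fun hb =>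
    ddB_mem 0 (vec_le (by omega) (by omega)) (by simp) hb
  have hm : t.o.m₁ - t.o.m₂ ∈ FB k ![1, 1] d :=
    sub_mem (FB_mono (vec_le (by omega) (by omega)) h3) (FB_mono (vec_le (by omega) (by omega)) h4)
  exact ⟨Φ.hV h1 g1,
    add_mem (add_mem (add_mem (Φ.hQ h1 g2) (Φ.hQV h2 g1)) (Φ.hnab (hd h1) g1)) (Φ.hQV hm g5),
    add_mem (Φ.h₁ h1 g3) (Φ.h₁V h3 g7), add_mem (Φ.h₂ h1 g4) (Φ.h₂V h4 g7),
    add_mem (Φ.hV h5 g1) (Φ.hV h7 g5),
    add_mem (add_mem (add_mem (Φ.hQ h5 g2) (Φ.hQV h6 g1)) (Φ.hnab (hd h5) g1))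
      (add_mem (add_mem (Φ.hQ h7 g6) (Φ.hQV h8 g5)) (Φ.hnab (hd h7) g5)),
    Φ.hV h7 g7,
    add_mem (Φ.hQ h5 (sub_mem (Φ.le₁ g3) (Φ.le₂ g4)))
      (add_mem (add_mem (Φ.hQ h7 g8) (Φ.hQV h8 g7)) (Φ.hnab (hd h7) g7))⟩

lemma TF_mul {d d' : ℤ × ℤ} {s t : Tk k} (hs : s ∈ TF k d) (ht : t ∈ TF k d') :
    s * t ∈ TF k (d + d') := by
  have := (regF k 0 0 0).act_mem hs (d' := d') (z := t.o) (mem_TF.2 (by rwa [sub_zero]))
  rw [mem_TF, sub_zero] at this
  exact this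

lemma one_mem_TF {b : ℤ} (hb : 0 ≤ b) : (1 : Tk k) ∈ TF k (0, b) :=
  ⟨one_mem_FB _ hb, zero_mem _, zero_mem _, zero_mem _, zero_mem _, zero_mem _,
    one_mem_FB _ hb, zero_mem _⟩

lemma κ_mem_TF : κ (der k) ∈ TF k 0 :=
  ⟨zero_mem _, zero_mem _, one_mem_FB _ le_rfl, one_mem_FB _ le_rfl, one_mem_FB _ le_rfl,
    zero_mem _, zero_mem _, zero_mem _⟩

lemma TF_fg (d : ℤ × ℤ) : (TF k d).FG := by
  let P : Submodule k (B k × B k) := (FB k 1 d).prod (FB k 1 d)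
  have hP : P.FG := (FB_fg d).prod (FB_fg d)
  let W : Submodule k (Tk k) := P.prod (P.prod (P.prod P))
  have hW : W.FG := hP.prod (hP.prod (hP.prod hP))
  have h : ∀ {a b : ℕ} {z : B k}, a ≤ 1 → b ≤ 1 → z ∈ FB k ![a, b] d → z ∈ FB k 1 d :=
    fun ha hb hz => FB_mono (fun i => by fin_cases i <;> simpa) hz
  have hle : TF k d ≤ W := fun t ⟨h1, h2, h3, h4, h5, h6, h7, h8⟩ =>
    ⟨⟨h (by omega) (by omega) h1, h le_rfl le_rfl h2⟩,
      ⟨h le_rfl (by omega) h3, h (by omega) le_rfl h4⟩,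
      ⟨h (by omega) (by omega) h5, h le_rfl le_rfl h6⟩,
      ⟨h (by omega) (by omega) h7, h le_rfl le_rfl h8⟩⟩
  have : Module.Finite k W := Module.Finite.iff_fg.2 hW
  exact Module.Finite.iff_fg.1
    (Module.Finite.of_injective (Submodule.inclusion hle) (Submodule.inclusion_injective hle))

/-- the vertices -/
abbrev W : Type := Fin 2 × Fin 3

/-- the degree of a vertex -/
def deg (w : W) : ℤ × ℤ := (((w.1 : ℕ) : ℤ), ((w.2 : ℕ) : ℤ))

variable (k) in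
/-- matrices with entries of prescribed degree -/
noncomputable def GamS : Subalgebra k (Matrix W W (Tk k)) where
  carrier := {γ | ∀ v w, γ v w ∈ TF k (deg v - deg w)}
  mul_mem' := by
    intro a b ha hb v w
    rw [Matrix.mul_apply]
    refine Submodule.sum_mem _ fun j _ => ?_
    simpa using TF_mul (ha v j) (hb j w)
  add_mem' ha hb v w := add_mem (ha v w) (hb v w)
  algebraMap_mem' c v w := by
    rw [Matrix.algebraMap_matrix_apply]
    split_ifs with h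
    · subst h
      rw [Algebra.algebraMap_eq_smul_one, sub_self]
      exact Submodule.smul_mem _ _ (one_mem_TF le_rfl)
    · exact zero_mem _

variable (k) in
/-- the finite-dimensional algebra -/
def Gam : Type := GamS k

noncomputable instance : Ring (Gam k) := inferInstanceAs (Ring (GamS k))
noncomputable instance : Algebra k (Gam k) := inferInstanceAs (Algebra k (GamS k))

/-- the underlying matrix -/
noncomputable def Gam.m : Gam k →+* Matrix W W (Tk k) := (GamS k).val.toRingHom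

lemma Gam.mem (γ : Gam k) (v w : W) : γ.m v w ∈ TF k (deg v - deg w) := γ.2 v w

lemma Gam.ext {γ γ' : Gam k} (h : ∀ v w, γ.m v w = γ'.m v w) : γ = γ' :=
  Subtype.ext (Matrix.ext h)

/-- constructor -/
def Gam.mk (a : Matrix W W (Tk k)) (h : ∀ v w, a v w ∈ TF k (deg v - deg w)) : Gam k :=
  (⟨a, h⟩ : GamS k)

@[simp] lemma Gam.mk_m (a : Matrix W W (Tk k)) (h) : (Gam.mk a h).m = a := rfl

instance : Module.Finite k (Gam k) := by
  let P : Submodule k (Matrix W W (Tk k)) :=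
    Submodule.pi Set.univ fun v => Submodule.pi Set.univ fun w => TF k (deg v - deg w)
  have hP : P.FG := Submodule.fg_pi fun _ => Submodule.fg_pi fun _ => TF_fg _
  have : Subalgebra.toSubmodule (GamS k) = P := by
    ext γ; exact ⟨fun h v _ w _ => h v w, fun h v w => h v trivial w trivial⟩
  rw [← this] at hP
  exact Module.Finite.iff_fg.2 hP

instance : IsNoetherianRing (Gam k) := by
  have : IsNoetherian k (Gam k) := (IsNoetherian.iff_fg (K := k) (V := Gam k)).2 inferInstance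
  exact isNoetherian_of_tower k this

section MM

variable {U U₁ U₂ U₃ : Type} [AddCommGroup U] [Module (Tk k) U] [AddCommGroup U₁]
  [Module (Tk k) U₁] [AddCommGroup U₂] [Module (Tk k) U₂] [AddCommGroup U₃] [Module (Tk k) U₃]

variable (k U) in
/-- a family of subgroups compatible with the degrees -/
structure Filt where
  /-- the family -/
  G : ℤ × ℤ → AddSubgroup U
  smul_mem : ∀ {d d' t z}, t ∈ TF k d → z ∈ G d' → t • z ∈ G (d + d')

/-- vectors whose entries have the degrees of the vertices -/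
def MMs (Z : Filt k U) : AddSubgroup (W → U) where
  carrier := {z | ∀ v, z v ∈ Z.G (deg v)}
  add_mem' ha hb i := add_mem (ha i) (hb i)
  zero_mem' _ := zero_mem _
  neg_mem' ha i := neg_mem (ha i)

/-- the module attached to a family -/
def MM (Z : Filt k U) : Type := MMs Z

instance (Z : Filt k U) : AddCommGroup (MM Z) := inferInstanceAs (AddCommGroup (MMs Z))

/-- entries -/
def MM.e {Z : Filt k U} (z : MM Z) (v : W) : U := z.1 v

lemma MM.mem {Z : Filt k U} (z : MM Z) (v : W) : z.e v ∈ Z.G (deg v) := z.2 v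

/-- constructor -/
def MM.mk {Z : Filt k U} (z : W → U) (h : ∀ v, z v ∈ Z.G (deg v)) : MM Z := (⟨z, h⟩ : MMs Z)

@[simp] lemma MM.mk_e {Z : Filt k U} (z : W → U) (h) (v : W) : (MM.mk z h : MM Z).e v = z v := rfl
@[simp] lemma MM.add_e {Z : Filt k U} (z z' : MM Z) (v : W) : (z + z').e v = z.e v + z'.e v := rfl
@[simp] lemma MM.sub_e {Z : Filt k U} (z z' : MM Z) (v : W) : (z - z').e v = z.e v - z'.e v := rfl
@[simp] lemma MM.neg_e {Z : Filt k U} (z : MM Z) (v : W) : (-z).e v = -z.e v := rfl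
@[simp] lemma MM.zero_e {Z : Filt k U} (v : W) : (0 : MM Z).e v = 0 := rfl

lemma MM.ext {Z : Filt k U} {z z' : MM Z} (h : ∀ v, z.e v = z'.e v) : z = z' :=
  Subtype.ext (funext h)

noncomputable instance (Z : Filt k U) : SMul (Gam k) (MM Z) where
  smul γ z := MM.mk (fun v => ∑ w, γ.m v w • z.e w) fun v => sum_mem fun w _ => by
    have := Z.smul_mem (γ.mem v w) (z.mem w)
    rwa [sub_add_cancel] at this

lemma MM.smul_e {Z : Filt k U} (γ : Gam k) (z : MM Z) (v : W) :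
    (γ • z).e v = ∑ w, γ.m v w • z.e w := rfl

noncomputable instance (Z : Filt k U) : Module (Gam k) (MM Z) where
  one_smul w := MM.ext fun i => by simp [MM.smul_e, Matrix.one_apply]
  mul_smul a b w := MM.ext fun i => by
    simp_rw [MM.smul_e, map_mul, Matrix.mul_apply, Finset.smul_sum, Finset.sum_smul, mul_smul]
    rw [Finset.sum_comm]
  smul_zero a := MM.ext fun i => by simp [MM.smul_e]
  smul_add a v w := MM.ext fun i => by simp [MM.smul_e, Finset.sum_add_distrib]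
  add_smul a b w := MM.ext fun i => by simp [MM.smul_e, add_smul, Finset.sum_add_distrib]
  zero_smul w := MM.ext fun i => by simp [MM.smul_e]

/-- functoriality -/
noncomputable def MMmap (Z₁ : Filt k U₁) (Z₂ : Filt k U₂) (φ : U₁ →ₗ[Tk k] U₂)
    (hφ : ∀ d z, z ∈ Z₁.G d → φ z ∈ Z₂.G d) : MM Z₁ →ₗ[Gam k] MM Z₂ where
  toFun z := MM.mk (fun v => φ (z.e v)) fun v => hφ _ _ (z.mem v)
  map_add' v w := MM.ext fun i => by simp
  map_smul' γ w := MM.ext fun i => by simp [MM.smul_e]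

@[simp] lemma MMmap_e (Z₁ : Filt k U₁) (Z₂ : Filt k U₂) (φ : U₁ →ₗ[Tk k] U₂) (hφ) (z : MM Z₁)
    (v : W) : (MMmap Z₁ Z₂ φ hφ z).e v = φ (z.e v) := rfl

lemma MMmap_ses {Z₁ : Filt k U₁} {Z₂ : Filt k U₂} {Z₃ : Filt k U₃} (φ : U₁ →ₗ[Tk k] U₂)
    (ψ : U₂ →ₗ[Tk k] U₃) (hφ) (hψ) (hinj : ∀ z, φ z = 0 → z = 0) (hzero : ∀ v, ∀ z ∈ Z₁.G (deg v), ψ (φ z) = 0)
    (hex : ∀ v, ∀ z ∈ Z₂.G (deg v), ψ z = 0 → ∃ z' ∈ Z₁.G (deg v), φ z' = z)
    (hsurj : ∀ v, ∀ z ∈ Z₃.G (deg v), ∃ z' ∈ Z₂.G (deg v), ψ z' = z) :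
    SES (MMmap Z₁ Z₂ φ hφ) (MMmap Z₂ Z₃ ψ hψ) where
  inj := (injective_iff_map_eq_zero _).2 fun z h => MM.ext fun v =>
    hinj _ (congrArg (fun x : MM Z₂ => x.e v) h)
  exact z := by
    constructor
    · intro h
      choose q hq hq' using fun v => hex v _ (z.mem v) (congrArg (fun x : MM Z₃ => x.e v) h)
      exact ⟨MM.mk q hq, MM.ext hq'⟩
    · rintro ⟨z', rfl⟩
      exact MM.ext fun v => hzero v _ (z'.mem v)
  surj z := by
    choose q hq hq' using fun v => hsurj v _ (z.mem v)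
    exact ⟨MM.mk q hq, MM.ext hq'⟩

lemma MMmap_kos {Z₁ : Filt k U₁} {Z₂ : Filt k U₂} {Z₃ : Filt k U₃} (φ₀ φ₁ : U₁ →ₗ[Tk k] U₂)
    (ψ₀ ψ₁ : U₂ →ₗ[Tk k] U₃) (hφ₀ hφ₁ hψ₀ hψ₁) (hinj : ∀ z, φ₀ z = 0 → z = 0)
    (hzero : ∀ z, ψ₀ (φ₀ z) + ψ₁ (φ₁ z) = 0)
    (hex : ∀ v, ∀ z₀ ∈ Z₂.G (deg v), ∀ z₁ ∈ Z₂.G (deg v), ψ₀ z₀ + ψ₁ z₁ = 0 →
      ∃ z' ∈ Z₁.G (deg v), φ₀ z' = z₀ ∧ φ₁ z' = z₁)
    (hsurj : ∀ v, ∀ z ∈ Z₃.G (deg v), ∃ z₀ ∈ Z₂.G (deg v), ∃ z₁ ∈ Z₂.G (deg v),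
      ψ₀ z₀ + ψ₁ z₁ = z) :
    SES ((MMmap Z₁ Z₂ φ₀ hφ₀).prod (MMmap Z₁ Z₂ φ₁ hφ₁))
      ((MMmap Z₂ Z₃ ψ₀ hψ₀).coprod (MMmap Z₂ Z₃ ψ₁ hψ₁)) where
  inj := (injective_iff_map_eq_zero _).2 fun z h => MM.ext fun v =>
    hinj _ (congrArg (fun x : MM Z₂ × MM Z₂ => x.1.e v) h)
  exact z := by
    constructor
    · intro h
      choose q hq hq' hq'' using fun v => hex v _ (z.1.mem v) _ (z.2.mem v)
        (congrArg (fun x : MM Z₃ => x.e v) h)
      exact ⟨MM.mk q hq, Prod.ext (MM.ext hq') (MM.ext hq'')⟩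
    · rintro ⟨z', rfl⟩
      exact MM.ext fun v => hzero _
  surj z := by
    choose q hq q' hq' h using fun v => hsurj v _ (z.mem v)
    exact ⟨(MM.mk q hq, MM.mk q' hq'), MM.ext h⟩

/-- the Mayer-Vietoris sequence of four families in one module -/
lemma MMmap_mv {Z Z₀ Z₁ Z' : Filt k U} (h₀ : ∀ d z, z ∈ Z.G d → z ∈ Z₀.G d)
    (h₁ : ∀ d z, z ∈ Z.G d → z ∈ Z₁.G d) (h₀' : ∀ d z, z ∈ Z₀.G d → z ∈ Z'.G d)
    (h₁' : ∀ d z, z ∈ Z₁.G d → z ∈ Z'.G d)
    (hinf : ∀ d z, z ∈ Z₀.G d → z ∈ Z₁.G d → z ∈ Z.G d)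
    (hsup : ∀ v, ∀ z ∈ Z'.G (deg v), ∃ z₀ ∈ Z₀.G (deg v), ∃ z₁ ∈ Z₁.G (deg v), z = z₀ + z₁) :
    SES ((MMmap Z Z₀ LinearMap.id h₀).prod (-MMmap Z Z₁ LinearMap.id h₁))
      ((MMmap Z₀ Z' LinearMap.id h₀').coprod (MMmap Z₁ Z' LinearMap.id h₁')) where
  inj := (injective_iff_map_eq_zero _).2 fun z h => MM.ext fun v =>
    congrArg (fun x : MM Z₀ × MM Z₁ => x.1.e v) h
  exact z := by
    constructor
    · intro h
      have h' : ∀ v, z.1.e v + z.2.e v = 0 := fun v => congrArg (fun x : MM Z' => x.e v) h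
      refine ⟨MM.mk z.1.e fun v => hinf _ _ (z.1.mem v) ?_, Prod.ext (MM.ext fun v => rfl)
        (MM.ext fun v => neg_eq_of_add_eq_zero_right (h' v))⟩
      rw [eq_neg_of_add_eq_zero_left (h' v)]
      exact neg_mem (z.2.mem v)
    · rintro ⟨z', rfl⟩
      exact MM.ext fun v => add_neg_cancel (z'.e v)
  surj z := by
    choose q hq q' hq' h using fun v => hsup v _ (z.mem v)
    exact ⟨(MM.mk q hq, MM.mk q' hq'), MM.ext fun v => (h v).symm⟩

end MM

/-- the family of octuples as a filtration -/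
def Fam4.filt {V Q : Type} [AddCommGroup V] [Module (B k) V] [AddCommGroup Q]
    [Module (B k) Q] {L : Log (der k) V Q} (Φ : Fam4 L) : Filt k (TM L) :=
  ⟨Φ.G, Φ.act_mem⟩

variable (k) in
/-- the columns of the algebra -/
noncomputable abbrev PF (u : ℤ × ℤ) : Filt k (TM (regL (der k))) := (regF k 0 0 u).filt

/-- the action on a vector of degree `u` -/
noncomputable def evP {U : Type} [AddCommGroup U] [Module (Tk k) U] (Z : Filt k U) (u : ℤ × ℤ)
    (y : U) (hy : y ∈ Z.G u) : MM (PF k u) →ₗ[Gam k] MM Z :=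
  MMmap _ _ (evT y) fun d z hz => by
    have := Z.smul_mem (mem_TF.1 hz) hy
    rwa [sub_add_cancel] at this

@[simp] lemma evP_e {U : Type} [AddCommGroup U] [Module (Tk k) U] (Z : Filt k U) (u : ℤ × ℤ)
    (y : U) (hy) (z : MM (PF k u)) (v : W) : (evP Z u y hy z).e v = (z.e v).t • y := rfl

/-- a column as a matrix -/
noncomputable def colIn (w : W) : MM (PF k (deg w)) →ₗ[Gam k] Gam k where
  toFun z := Gam.mk (Matrix.of fun v j => if j = w then (z.e v).t else 0) fun v j => by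
    rw [Matrix.of_apply]
    split_ifs with h
    · subst h; exact mem_TF.1 (z.mem v)
    · exact zero_mem _
  map_add' z z' := Gam.ext fun v j => by
    rw [map_add, Matrix.add_apply]
    simp only [Gam.mk_m, Matrix.of_apply]
    split_ifs
    · rfl
    · simp
  map_smul' γ z := Gam.ext fun v j => by
    rw [RingHom.id_apply, smul_eq_mul, map_mul, Matrix.mul_apply]
    simp only [Gam.mk_m, Matrix.of_apply]
    split_ifs
    · rfl
    · simp

lemma colIn_m (w : W) (z : MM (PF k (deg w))) (v j : W) :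
    (colIn w z).m v j = if j = w then (z.e v).t else 0 := rfl

/-- a column of a matrix -/
noncomputable def colOut (w : W) : Gam k →ₗ[Gam k] MM (PF k (deg w)) where
  toFun γ := MM.mk (fun v => (γ.m v w).o) fun v => mem_TF.2 (γ.mem v w)
  map_add' _ _ := MM.ext fun _ => rfl
  map_smul' _ _ := MM.ext fun _ => rfl

lemma colOut_e (w : W) (γ : Gam k) (v : W) : (colOut w γ).e v = (γ.m v w).o := rfl

lemma colOut_colIn (w : W) (z : MM (PF k (deg w))) : colOut w (colIn w z) = z :=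
  MM.ext fun v => by rw [colOut_e, colIn_m, if_pos rfl]; rfl

instance (w : W) : Module.Projective (Gam k) (MM (PF k (deg w))) :=
  Module.Projective.of_split (colIn w) (colOut w) (LinearMap.ext (colOut_colIn w))

instance (w : W) : Module.Finite (Gam k) (MM (PF k (deg w))) :=
  Module.Finite.of_surjective (colOut w) fun z => ⟨_, colOut_colIn w z⟩

lemma van_Gam {X : Type} [AddCommGroup X] [Module (Gam k) X] {j : ℕ}
    (h : ∀ w, Van (Gam k) X (MM (PF k (deg w))) j) : Van (Gam k) X (Gam k) j := by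
  refine cov_retract (LinearMap.pi colOut) (∑ w, colIn w ∘ₗ LinearMap.proj w) (fun γ => ?_)
    (van_pi_right h)
  refine Gam.ext fun v j => ?_
  rw [LinearMap.sum_apply, map_sum, Matrix.sum_apply]
  simp [colIn_m, colOut_e]

/-- a linear map on a column is the action on a vector -/
lemma exists_evP {U : Type} [AddCommGroup U] [Module (Tk k) U] {Z : Filt k U} (w : W)
    (φ : MM (PF k (deg w)) →ₗ[Gam k] MM Z) : ∃ y hy, φ = evP Z (deg w) y hy := by
  refine ⟨(φ (colOut w 1)).e w, MM.mem _ w, LinearMap.ext fun z => MM.ext fun v => ?_⟩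
  have : z = colIn w z • colOut w 1 := by
    rw [← map_smul, smul_eq_mul, mul_one, colOut_colIn]
  conv_lhs => rw [this, map_smul, MM.smul_e]
  simp [colIn_m]

/-- evaluating at the generator of a column -/
lemma evP_gen {U : Type} [AddCommGroup U] [Module (Tk k) U] (Z : Filt k U) (w : W) (y hy) :
    (evP Z (deg w) y hy (colOut w 1)).e w = y := by
  rw [evP_e, colOut_e, map_one, Matrix.one_apply_eq]; exact one_smul _ y

variable (k) in
/-- the square-zero element -/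
noncomputable def κG : Gam k := Gam.mk (Matrix.diagonal fun _ => κ (der k)) fun v w => by
  rw [Matrix.diagonal_apply]
  split_ifs with h
  · subst h; rw [sub_self]; exact κ_mem_TF
  · exact zero_mem _

lemma κG_mul_κG : κG k * κG k = 0 := Gam.ext fun v w => by
  rw [map_mul, map_zero, κG, Gam.mk_m, Matrix.diagonal_mul_diagonal, κ_mul_κ]
  simp

lemma κG_smul_e {U : Type} [AddCommGroup U] [Module (Tk k) U] {Z : Filt k U} (z : MM Z) (v : W) :
    (κG k • z).e v = κ (der k) • z.e v := by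
  simp [MM.smul_e, κG, Matrix.diagonal_apply]

end Vale.Agent.P195
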